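import Mathlib

/-!
Conditional averages along a labelling, and two consequences of the spectral theorem.
-/

set_option linter.unusedSectionVars false
set_option linter.unusedVariables false

namespace Vale.Agent.P335

open Classical Finset

variable {X : Type*} [Fintype X]

/-- The counting inner product. -/
def ip (f g : X → ℝ) : ℝ := ∑ x, f x * g x

lemma ip_comm (f g : X → ℝ) : ip f g = ip g f := by
  unfold ip; exact Finset.sum_congr rfl fun x _ => mul_comm _ _

lemma ip_self_nonneg (f : X → ℝ) : 0 ≤ ip f f :=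
  Finset.sum_nonneg fun x _ => mul_self_nonneg _

lemma ip_add_left (f g h : X → ℝ) : ip (f + g) h = ip f h + ip g h := by
  unfold ip; rw [← Finset.sum_add_distrib]; exact Finset.sum_congr rfl fun x _ => by simp [add_mul]

lemma ip_add_right (f g h : X → ℝ) : ip h (f + g) = ip h f + ip h g := by
  rw [ip_comm, ip_add_left, ip_comm f, ip_comm g]

lemma ip_sub_left (f g h : X → ℝ) : ip (f - g) h = ip f h - ip g h := by
  unfold ip; rw [← Finset.sum_sub_distrib]; exact Finset.sum_congr rfl fun x _ => by simp [sub_mul]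

lemma ip_sub_right (f g h : X → ℝ) : ip h (f - g) = ip h f - ip h g := by
  rw [ip_comm, ip_sub_left, ip_comm f, ip_comm g]

lemma ip_smul_left (c : ℝ) (f h : X → ℝ) : ip (c • f) h = c * ip f h := by
  unfold ip; rw [Finset.mul_sum]; exact Finset.sum_congr rfl fun x _ => by simp [mul_assoc]

lemma ip_smul_right (c : ℝ) (f h : X → ℝ) : ip h (c • f) = c * ip h f := by
  rw [ip_comm, ip_smul_left, ip_comm]

lemma ip_zero_left (h : X → ℝ) : ip 0 h = 0 := by simp [ip]

lemma ip_zero_right (h : X → ℝ) : ip h 0 = 0 := by simp [ip]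

lemma ip_sum_left {ι : Type*} (s : Finset ι) (f : ι → X → ℝ) (h : X → ℝ) :
    ip (∑ i ∈ s, f i) h = ∑ i ∈ s, ip (f i) h := by
  unfold ip; rw [Finset.sum_comm]
  exact Finset.sum_congr rfl fun x _ => by simp [Finset.sum_apply, Finset.sum_mul]

lemma ip_sum_right {ι : Type*} (s : Finset ι) (f : ι → X → ℝ) (h : X → ℝ) :
    ip h (∑ i ∈ s, f i) = ∑ i ∈ s, ip h (f i) := by
  rw [ip_comm, ip_sum_left]; exact Finset.sum_congr rfl fun i _ => ip_comm _ _

lemma eq_zero_of_ip_self {f : X → ℝ} (h : ip f f = 0) : f = 0 := by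
  funext x
  have := (Finset.sum_eq_zero_iff_of_nonneg (fun x _ => mul_self_nonneg (f x))).1 h x (mem_univ x)
  simpa using this

section avg
variable {κ : Type*}

/-- The cell of `x` for the labelling `l`. -/
noncomputable def cell (l : X → κ) (x : X) : Finset X := univ.filter fun y => l y = l x

lemma mem_cell {l : X → κ} {x y : X} : y ∈ cell l x ↔ l y = l x := by simp [cell]

lemma self_mem_cell (l : X → κ) (x : X) : x ∈ cell l x := mem_cell.2 rfl

lemma cell_eq {l : X → κ} {x y : X} (h : l x = l y) : cell l x = cell l y := by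
  ext z; simp [mem_cell, h]

lemma card_cell_pos (l : X → κ) (x : X) : (0 : ℝ) < (cell l x).card := by
  exact_mod_cast Finset.card_pos.2 ⟨x, self_mem_cell l x⟩

/-- The average over cells, as a linear map. -/
noncomputable def avg (l : X → κ) : (X → ℝ) →ₗ[ℝ] (X → ℝ) where
  toFun f x := (∑ y ∈ cell l x, f y) / (cell l x).card
  map_add' f g := by funext x; simp [Finset.sum_add_distrib, add_div]
  map_smul' c f := by funext x; simp [← Finset.mul_sum, mul_div_assoc]

lemma avg_apply (l : X → κ) (f : X → ℝ) (x : X) :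
    avg l f x = (∑ y ∈ cell l x, f y) / (cell l x).card := rfl

/-- `f` is constant on the cells of `l`. -/
def Inv (l : X → κ) (f : X → ℝ) : Prop := ∀ x y, l x = l y → f x = f y

lemma avg_inv (l : X → κ) (f : X → ℝ) : Inv l (avg l f) := by
  intro x y h; simp only [avg_apply, cell_eq h]

lemma avg_of_inv {l : X → κ} {f : X → ℝ} (h : Inv l f) : avg l f = f := by
  funext x
  rw [avg_apply, Finset.sum_congr rfl (fun y hy => h y x (mem_cell.1 hy))]
  simp only [Finset.sum_const, nsmul_eq_mul]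
  field_simp [(card_cell_pos l x).ne']

lemma Inv.sub {l : X → κ} {f g : X → ℝ} (hf : Inv l f) (hg : Inv l g) : Inv l (f - g) :=
  fun x y h => by simp [hf x y h, hg x y h]

lemma Inv.add {l : X → κ} {f g : X → ℝ} (hf : Inv l f) (hg : Inv l g) : Inv l (f + g) :=
  fun x y h => by simp [hf x y h, hg x y h]

lemma ip_avg_symm (l : X → κ) (f g : X → ℝ) : ip (avg l f) g = ip f (avg l g) := by
  unfold ip
  simp only [avg_apply, Finset.sum_div, Finset.sum_mul, Finset.mul_sum]
  have h1 : ∀ x, ∑ y ∈ cell l x, f y / (cell l x).card * g x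
      = ∑ y, if l y = l x then f y / (cell l x).card * g x else 0 := by
    intro x; rw [cell, Finset.sum_filter]
  have h2 : ∀ y, ∑ x ∈ cell l y, f y * (g x / (cell l y).card)
      = ∑ x, if l y = l x then f y / (cell l x).card * g x else 0 := by
    intro y; rw [cell, Finset.sum_filter]
    refine Finset.sum_congr rfl fun x _ => ?_
    by_cases h : l y = l x
    · rw [if_pos h.symm, if_pos h, ← cell_eq h, cell]; ring
    · rw [if_neg h, if_neg (fun h' => h h'.symm)]
  simp only [h1, h2]
  exact Finset.sum_comm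

lemma avg_avg (l : X → κ) (f : X → ℝ) : avg l (avg l f) = avg l f := avg_of_inv (avg_inv l f)

lemma ip_sub_avg_inv {l : X → κ} (f : X → ℝ) {g : X → ℝ} (hg : Inv l g) :
    ip (f - avg l f) g = 0 := by
  rw [ip_sub_left, ip_avg_symm, avg_of_inv hg, sub_self]

lemma ip_avg_avg (l : X → κ) (f g : X → ℝ) : ip (avg l f) (avg l g) = ip f (avg l g) := by
  rw [ip_avg_symm, avg_avg]

lemma ip_avg_le (l : X → κ) (f : X → ℝ) : ip (avg l f) (avg l f) ≤ ip f f := by
  have h := ip_self_nonneg (f - avg l f)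
  have h2 := ip_sub_avg_inv f (avg_inv l f)
  rw [ip_sub_left] at h2
  rw [ip_sub_left, ip_sub_right, ip_sub_right, ip_comm (avg l f) f] at h
  linarith

/-- A sum over `X` of a quantity, grouped by cells. -/
lemma sum_eq_sum_cell (l : X → κ) (f : X → ℝ) :
    ∑ x, f x = ∑ x, (∑ y ∈ cell l x, f y) / (cell l x).card := by
  have h := ip_avg_symm l f (fun _ => 1)
  rw [avg_of_inv (l := l) (f := fun _ => (1 : ℝ)) (fun _ _ _ => rfl)] at h
  simpa [ip, avg_apply] using h.symm

lemma sum_cell_sub_avg (l : X → κ) (f : X → ℝ) (x : X) :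
    ∑ y ∈ cell l x, (f - avg l f) y = 0 := by
  have h : avg l (f - avg l f) x = 0 := by
    rw [map_sub, avg_avg, sub_self]; rfl
  rw [avg_apply, div_eq_zero_iff] at h
  exact h.resolve_right (card_cell_pos l x).ne'

/-- If `l` refines `l'` then averaging for `l'` kills `f - avg l f`. -/
lemma avg_avg_of_refine {κ' : Type*} {l : X → κ} {l' : X → κ'}
    (h : ∀ x y, l x = l y → l' x = l' y) (f : X → ℝ) : avg l' (avg l f) = avg l' f := by
  have key : ∀ g, ip (avg l' (avg l f) - avg l' f) g = 0 := by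
    intro g
    have hinv : Inv l (avg l' g) := fun x y hxy => avg_inv l' g x y (h x y hxy)
    rw [ip_sub_left, ip_avg_symm, ip_avg_symm, avg_of_inv hinv, ip_avg_symm, sub_self]
  exact sub_eq_zero.1 (eq_zero_of_ip_self (key _))

lemma ip_avg_le_of_refine {κ' : Type*} {l : X → κ} {l' : X → κ'}
    (h : ∀ x y, l x = l y → l' x = l' y) (f : X → ℝ) :
    ip (avg l' f) (avg l' f) ≤ ip (avg l f) (avg l f) := by
  rw [← avg_avg_of_refine h f]; exact ip_avg_le _ _

end avg

/-- The spectral theorem in elementary form. -/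
lemma exists_eigenbasis (L : (X → ℝ) →ₗ[ℝ] (X → ℝ)) (hL : ∀ f g, ip (L f) g = ip f (L g)) :
    ∃ (μ : Fin (Fintype.card X) → ℝ) (b : Fin (Fintype.card X) → X → ℝ),
      (∀ i, L (b i) = μ i • b i) ∧ (∀ i, ip (b i) (b i) = 1) ∧
      ∀ f g, ip f g = ∑ i, ip f (b i) * ip (b i) g := by
  let e : EuclideanSpace ℝ X ≃ₗ[ℝ] (X → ℝ) := WithLp.linearEquiv 2 ℝ (X → ℝ)
  let T : EuclideanSpace ℝ X →ₗ[ℝ] EuclideanSpace ℝ X := e.symm.toLinearMap ∘ₗ L ∘ₗ e.toLinearMap
  have hin : ∀ u v : EuclideanSpace ℝ X, inner ℝ u v = ip (e u) (e v) := by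
    intro u v
    simp only [PiLp.inner_apply, ip]
    refine Finset.sum_congr rfl fun x _ => ?_
    simp [e, mul_comm]
  have hT : T.IsSymmetric := by
    intro u v
    rw [hin, hin]
    simp only [T, LinearMap.comp_apply, LinearEquiv.coe_coe, LinearEquiv.apply_symm_apply]
    exact hL _ _
  have hn : Module.finrank ℝ (EuclideanSpace ℝ X) = Fintype.card X := by simp
  refine ⟨hT.eigenvalues hn, fun i => e (hT.eigenvectorBasis hn i), ?_, ?_, ?_⟩
  · intro i
    have h := hT.apply_eigenvectorBasis hn i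
    have h2 := congrArg e h
    simp only [T, LinearMap.comp_apply, LinearEquiv.coe_coe, LinearEquiv.apply_symm_apply,
      map_smul] at h2
    exact h2
  · intro i
    rw [← hin, real_inner_self_eq_norm_sq, (hT.eigenvectorBasis hn).orthonormal.1 i]; norm_num
  · intro f g
    have h := (hT.eigenvectorBasis hn).sum_inner_mul_inner (e.symm f) (e.symm g)
    simp only [hin, LinearEquiv.apply_symm_apply] at h
    exact h.symm

/-- If every eigenvalue is `0` or at least `1` then `L² ≥ L`. -/
lemma sq_ge_of_eigen (L : (X → ℝ) →ₗ[ℝ] (X → ℝ)) (hL : ∀ f g, ip (L f) g = ip f (L g))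
    (h : ∀ (μ : ℝ) (v : X → ℝ), L v = μ • v → μ < 1 → L v = 0) (f : X → ℝ) :
    ip f (L f) ≤ ip (L f) (L f) := by
  obtain ⟨μ, b, h1, h2, h3⟩ := exists_eigenbasis L hL
  rw [h3 f (L f), h3 (L f) (L f)]
  refine Finset.sum_le_sum fun i _ => ?_
  have e1 : ip (b i) (L f) = μ i * ip f (b i) := by
    rw [← hL, h1, ip_smul_left, ip_comm]
  rw [ip_comm (L f) (b i), e1]
  by_cases hm : μ i < 1
  · have h0 := h (μ i) (b i) (h1 i) hm
    have : μ i = 0 := by
      have h4 : ip (L (b i)) (b i) = μ i := by rw [h1, ip_smul_left, h2, mul_one]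
      rw [h0, ip_zero_left] at h4; exact h4.symm
    simp [this]
  · push Not at hm
    have : 0 ≤ μ i * (μ i - 1) * ip f (b i) ^ 2 := by positivity
    nlinarith

/-- Knabe type gap: `L² ≥ c L`, `L ≥ 0` and kernel of constants give a Poincare inequality. -/
lemma gap_of_sq_ge (L : (X → ℝ) →ₗ[ℝ] (X → ℝ)) (hL : ∀ f g, ip (L f) g = ip f (L g)) (c : ℝ)
    (hpos : ∀ f, 0 ≤ ip f (L f)) (hsq : ∀ f, c * ip f (L f) ≤ ip (L f) (L f))
    (hker : ∀ v, L v = 0 → ∀ x y, v x = v y) (f : X → ℝ) (hf : ∑ x, f x = 0) :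
    c * ip f f ≤ ip f (L f) := by
  obtain ⟨μ, b, h1, h2, h3⟩ := exists_eigenbasis L hL
  rw [h3 f (L f), h3 f f, Finset.mul_sum]
  refine Finset.sum_le_sum fun i _ => ?_
  have e1 : ip (b i) (L f) = μ i * ip f (b i) := by
    rw [← hL, h1, ip_smul_left, ip_comm]
  rw [e1, ip_comm (b i) f]
  have p1 := hpos (b i)
  have p2 := hsq (b i)
  rw [h1, ip_smul_right, h2] at p1 p2
  rw [ip_smul_left, ip_smul_right, h2] at p2
  by_cases hm : μ i = 0
  · have h0 : L (b i) = 0 := by rw [h1, hm, zero_smul]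
    have hc := hker _ h0
    have : ip f (b i) = 0 := by
      by_cases hX : Nonempty X
      · obtain ⟨x0⟩ := hX
        unfold ip
        rw [Finset.sum_congr rfl (fun x _ => by rw [hc x x0]), ← Finset.sum_mul, hf, zero_mul]
      · have : IsEmpty X := not_nonempty_iff.1 hX
        simp [ip]
    simp [this]
  · have hp : 0 < μ i := lt_of_le_of_ne (by linarith) (Ne.symm hm)
    have hc : c ≤ μ i := by nlinarith
    nlinarith [sq_nonneg (ip f (b i))]

end Vale.Agent.P335
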