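import Vale.Agent.P335.Triple

/-!
Two disjoint pairs of vertices: conditional independence and the block inequality.
-/

set_option linter.unusedSectionVars false
set_option linter.unusedVariables false

namespace Vale.Agent.P335

open Classical Finset

/-- the class of a point for a relation -/
def lab {X : Type*} (r : X → X → Prop) (x : X) : X → Prop := r x

lemma lab_iff {X : Type*} {r : X → X → Prop} (hr : Equivalence r) {x y : X} :
    lab r x = lab r y ↔ r x y := by
  constructor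
  · intro h
    have : lab r x y := by rw [h]; exact hr.refl y
    exact this
  · intro h; funext z; exact propext ⟨fun a => hr.trans (hr.symm h) a, fun a => hr.trans h a⟩

variable {V : Type*} [Fintype V] {d : V → ℕ}

/-- four distinct vertices -/
def Dis (u v x y : V) : Prop := u ≠ v ∧ x ≠ u ∧ x ≠ v ∧ y ≠ u ∧ y ≠ v ∧ x ≠ y

lemma Dis.swap {u v x y : V} (h : Dis u v x y) : Dis x y u v :=
  ⟨h.2.2.2.2.2, h.2.1.symm, h.2.2.2.1.symm, h.2.2.1.symm, h.2.2.2.2.1.symm, h.1⟩

/-- joint class of the two trades -/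
def JR (u v x y : V) (G H : Om d) : Prop :=
  (∀ p q, p ≠ u → p ≠ v → p ≠ x → p ≠ y → q ≠ u → q ≠ v → q ≠ x → q ≠ y →
    (G.1.Adj p q ↔ H.1.Adj p q)) ∧
  (∀ z, z ≠ u → z ≠ v → z ≠ x → z ≠ y → ca u v G.1 z = ca u v H.1 z ∧ ca x y G.1 z = ca x y H.1 z) ∧
  adj G.1 u v = adj H.1 u v ∧ adj G.1 x y = adj H.1 x y ∧
  ca u v G.1 x + ca u v G.1 y = ca u v H.1 x + ca u v H.1 y

lemma ca_tot (u v x y : V) (G : SimpleGraph V) :
    ca x y G u + ca x y G v = ca u v G x + ca u v G y := by
  simp only [ca, adj_comm G u, adj_comm G v]; ring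

lemma JR.swap {u v x y : V} {G H : Om d} (h : JR u v x y G H) : JR x y u v G H :=
  ⟨fun p q a b c e f g i j => h.1 p q c e a b i j f g,
    fun z a b c e => (h.2.1 z c e a b).symm, h.2.2.2.1, h.2.2.1, by
      rw [ca_tot u v x y, ca_tot u v x y]; exact h.2.2.2.2⟩

lemma JR_equiv (u v x y : V) : Equivalence (JR (d := d) u v x y) where
  refl G := ⟨fun _ _ _ _ _ _ _ _ _ _ => Iff.rfl, fun _ _ _ _ _ => ⟨rfl, rfl⟩, rfl, rfl, rfl⟩
  symm h := ⟨fun p q a b c e f g i j => (h.1 p q a b c e f g i j).symm,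
    fun z a b c e => ⟨(h.2.1 z a b c e).1.symm, (h.2.1 z a b c e).2.symm⟩, h.2.2.1.symm,
    h.2.2.2.1.symm, h.2.2.2.2.symm⟩
  trans h k := ⟨fun p q a b c e f g i j => (h.1 p q a b c e f g i j).trans (k.1 p q a b c e f g i j),
    fun z a b c e => ⟨(h.2.1 z a b c e).1.trans (k.2.1 z a b c e).1,
      (h.2.1 z a b c e).2.trans (k.2.1 z a b c e).2⟩, h.2.2.1.trans k.2.2.1,
    h.2.2.2.1.trans k.2.2.2.1, h.2.2.2.2.trans k.2.2.2.2⟩

/-- the two columns of the block have the same sum -/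
def bal (u v x y : V) (G : Om d) : Prop := ca u v G.1 x = ca u v G.1 y

/-- coarse cells -/
def ZC (u v x y : V) (G H : Om d) : Prop := JR u v x y G H ∧ (bal u v x y G ↔ bal u v x y H)

/-- fine cells -/
def WR (u v x y : V) (G H : Om d) : Prop := ZC u v x y G H ∧ (bal x y u v G ↔ bal x y u v H)

lemma ZC_equiv (u v x y : V) : Equivalence (ZC (d := d) u v x y) where
  refl G := ⟨(JR_equiv u v x y).refl G, Iff.rfl⟩
  symm h := ⟨(JR_equiv u v x y).symm h.1, h.2.symm⟩
  trans h k := ⟨(JR_equiv u v x y).trans h.1 k.1, h.2.trans k.2⟩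

lemma WR_equiv (u v x y : V) : Equivalence (WR (d := d) u v x y) where
  refl G := ⟨(ZC_equiv u v x y).refl G, Iff.rfl⟩
  symm h := ⟨(ZC_equiv u v x y).symm h.1, h.2.symm⟩
  trans h k := ⟨(ZC_equiv u v x y).trans h.1 k.1, h.2.trans k.2⟩

lemma WR_swap (u v x y : V) : WR (d := d) u v x y = WR x y u v := by
  funext G H
  exact propext ⟨fun h => ⟨⟨h.1.1.swap, h.2⟩, h.1.2⟩, fun h => ⟨⟨h.1.1.swap, h.2⟩, h.1.2⟩⟩

lemma ZC_of_off {u v x y : V} (hd : Dis u v x y) {G H : Om d} (h : off u v G = off u v H) :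
    ZC u v x y G H := by
  obtain ⟨d1, d2, d3, d4, d5, d6⟩ := hd
  have a := off_iff.1 h
  have e1 := ca_eq d1 h d2 d3
  have e2 := ca_eq d1 h d4 d5
  refine ⟨⟨fun p q a1 a2 _ _ a3 a4 _ _ => a p q a1 a2 a3 a4, fun z a1 a2 _ _ =>
    ⟨ca_eq d1 h a1 a2, ?_⟩, uv_eq d1 h, adj_eq_iff.2 (a x y d2 d3 d4 d5), by rw [e1, e2]⟩, ?_⟩
  · unfold ca
    rw [adj_eq_iff.2 (a z x a1 a2 d2 d3), adj_eq_iff.2 (a z y a1 a2 d4 d5)]
  · unfold bal; rw [e1, e2]

/-- the column permutation used when gluing -/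
noncomputable def gperm (u v x y : V) (G H : Om d) : Equiv.Perm V :=
  if ca u v G.1 x = ca u v H.1 x then Equiv.refl V else Equiv.swap x y

lemma gperm_fix {u v x y : V} (G H : Om d) {p : V} (h1 : p ≠ x) (h2 : p ≠ y) :
    gperm u v x y G H p = p := by
  unfold gperm; split_ifs
  · rfl
  · exact Equiv.swap_apply_of_ne_of_ne h1 h2

lemma gperm_gperm {u v x y : V} (G H : Om d) (p : V) :
    gperm u v x y G H (gperm u v x y G H p) = p := by
  unfold gperm; split_ifs <;> simp

lemma gperm_ca {u v x y : V} (hd : Dis u v x y) {G H : Om d} (h : ZC u v x y G H) (z : V)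
    (h1 : z ≠ u) (h2 : z ≠ v) : ca u v H.1 (gperm u v x y G H z) = ca u v G.1 z := by
  have t := h.1.2.2.2.2
  have b := h.2
  unfold bal at b
  have bd : ∀ (K : SimpleGraph V) w, ca u v K w ≤ 2 := fun K w => by
    have := adj_le K w u; have := adj_le K w v; unfold ca; omega
  have := bd G.1 x; have := bd G.1 y; have := bd H.1 x; have := bd H.1 y
  by_cases z1 : z = x
  · subst z1; unfold gperm; split_ifs with c
    · exact c.symm
    · rw [Equiv.swap_apply_left]; omega
  by_cases z2 : z = y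
  · subst z2; unfold gperm; split_ifs with c
    · simp only [Equiv.refl_apply]; omega
    · rw [Equiv.swap_apply_right]; omega
  rw [gperm_fix G H z1 z2]; exact (h.1.2.1 z h1 h2 z1 z2).1.symm

/-- glue the edges at `u`, `v` of `H` to the remaining edges of `G` -/
noncomputable def glue (u v x y : V) (G H : Om d) : Om d :=
  if h : Dis u v x y ∧ ZC u v x y G H then
    ⟨piece u v (gperm u v x y G H) G.1 H.1, piece_deg h.1.1
      (gperm_fix G H h.1.2.1.symm h.1.2.2.2.1.symm)
      (gperm_fix G H h.1.2.2.1.symm h.1.2.2.2.2.1.symm) G H (gperm_ca h.1 h.2)⟩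
  else G

lemma glue_val {u v x y : V} (hd : Dis u v x y) {G H : Om d} (h : ZC u v x y G H) :
    (glue u v x y G H).1 = piece u v (gperm u v x y G H) G.1 H.1 := by
  unfold glue; rw [dif_pos ⟨hd, h⟩]

lemma glue_off1 {u v x y : V} (hd : Dis u v x y) {G H : Om d} (h : ZC u v x y G H) :
    off u v (glue u v x y G H) = off u v G :=
  off_iff.2 fun p q _ _ _ _ => by rw [glue_val hd h]; exact piece_adj_off (by tauto)

lemma glue_off2 {u v x y : V} (hd : Dis u v x y) {G H : Om d} (h : ZC u v x y G H) :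
    off x y (glue u v x y G H) = off x y H := by
  refine off_iff.2 fun p q a1 a2 a3 a4 => ?_
  rw [glue_val hd h]
  by_cases c : p = u ∨ p = v ∨ q = u ∨ q = v
  · rw [piece_adj_of c, gperm_fix G H a1 a2, gperm_fix G H a3 a4]
  · rw [piece_adj_off c]
    push Not at c
    exact h.1.1 p q c.1 c.2.1 a1 a2 c.2.2.1 c.2.2.2 a3 a4

lemma glue_glue {u v x y : V} (hd : Dis u v x y) {G H : Om d} (h : ZC u v x y G H) :
    glue u v x y (glue u v x y G H) (glue u v x y H G) = G := by
  have E := ZC_equiv (d := d) u v x y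
  have h' := E.symm h
  have z1 := ZC_of_off hd (glue_off1 hd h)
  have z2 := ZC_of_off hd (glue_off1 hd h')
  have z3 : ZC u v x y (glue u v x y G H) (glue u v x y H G) :=
    E.trans z1 (E.trans h (E.symm z2))
  have e1 : gperm u v x y (glue u v x y G H) (glue u v x y H G) = gperm u v x y H G := by
    unfold gperm
    rw [ca_eq hd.1 (glue_off1 hd h) hd.2.1 hd.2.2.1, ca_eq hd.1 (glue_off1 hd h') hd.2.1 hd.2.2.1]
    simp only [eq_comm]
  have fu : gperm u v x y H G u = u := gperm_fix H G hd.2.1.symm hd.2.2.2.1.symm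
  have fv : gperm u v x y H G v = v := gperm_fix H G hd.2.2.1.symm hd.2.2.2.2.1.symm
  apply Subtype.ext
  ext p q
  rw [glue_val hd z3, e1]
  by_cases c : p = u ∨ p = v ∨ q = u ∨ q = v
  · rw [piece_adj_of c, glue_val hd h', piece_adj_of, gperm_gperm, gperm_gperm]
    rcases c with rfl | rfl | rfl | rfl <;> simp [fu, fv]
  · rw [piece_adj_off c, glue_val hd h, piece_adj_off c]

variable [Fintype (Om d)]

lemma indep {u v x y : V} (hd : Dis u v x y) {φ ψ : Om d → ℝ} (hφ : Inv (off u v) φ)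
    (hψ : Inv (off x y) ψ) (G0 : Om d) :
    (∑ G ∈ cell (lab (ZC u v x y)) G0, φ G) * (∑ G ∈ cell (lab (ZC u v x y)) G0, ψ G)
      = (cell (lab (ZC u v x y)) G0).card * ∑ G ∈ cell (lab (ZC u v x y)) G0, φ G * ψ G := by
  have E := ZC_equiv (d := d) u v x y
  set Z := cell (lab (ZC u v x y)) G0 with hZ
  have mem : ∀ G, G ∈ Z ↔ ZC u v x y G G0 := fun G => by rw [hZ, mem_cell, lab_iff E]
  have rel : ∀ p ∈ Z ×ˢ Z, ZC u v x y p.1 p.2 := fun p hp =>
    E.trans ((mem _).1 (Finset.mem_product.1 hp).1) (E.symm ((mem _).1 (Finset.mem_product.1 hp).2))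
  have maps : ∀ p ∈ Z ×ˢ Z, (glue u v x y p.1 p.2, glue u v x y p.2 p.1) ∈ Z ×ˢ Z := by
    intro p hp
    refine Finset.mem_product.2 ⟨(mem _).2 ?_, (mem _).2 ?_⟩
    · exact E.trans (ZC_of_off hd (glue_off1 hd (rel p hp))) ((mem _).1 (Finset.mem_product.1 hp).1)
    · exact E.trans (ZC_of_off hd (glue_off1 hd (E.symm (rel p hp))))
        ((mem _).1 (Finset.mem_product.1 hp).2)
  have inv : ∀ p ∈ Z ×ˢ Z, (glue u v x y (glue u v x y p.1 p.2) (glue u v x y p.2 p.1),
      glue u v x y (glue u v x y p.2 p.1) (glue u v x y p.1 p.2)) = p := fun p hp =>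
    Prod.ext (glue_glue hd (rel p hp)) (glue_glue hd (E.symm (rel p hp)))
  rw [Finset.sum_mul_sum, ← Finset.sum_product']
  have : ∑ p ∈ Z ×ˢ Z, φ p.1 * ψ p.2 = ∑ p ∈ Z ×ˢ Z, φ p.1 * ψ p.1 := by
    refine Finset.sum_nbij' (fun p => (glue u v x y p.1 p.2, glue u v x y p.2 p.1))
      (fun p => (glue u v x y p.1 p.2, glue u v x y p.2 p.1)) maps maps inv inv fun p hp => ?_
    rw [hφ _ _ (glue_off1 hd (rel p hp)), hψ _ _ (glue_off2 hd (rel p hp))]
  rw [this, Finset.sum_product, Finset.mul_sum]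
  simp

lemma bal_inv {u v x y : V} (hd : Dis u v x y) {G H : Om d} (h : off u v G = off u v H) :
    bal u v x y G ↔ bal u v x y H := (ZC_of_off hd h).2

lemma indep_fine {u v x y : V} (hd : Dis u v x y) {φ ψ : Om d → ℝ} (hφ : Inv (off u v) φ)
    (hψ : Inv (off x y) ψ) (G0 : Om d) :
    ∑ G ∈ cell (lab (WR u v x y)) G0, φ G * ψ G
      = avg (lab (ZC u v x y)) φ G0 * ∑ G ∈ cell (lab (WR u v x y)) G0, ψ G := by
  have h := indep hd hφ (ψ := fun G => if (bal x y u v G ↔ bal x y u v G0) then ψ G else 0)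
    (fun G H e => by simp only [bal_inv hd.swap e, hψ G H e]) G0
  have hc : cell (lab (WR u v x y)) G0
      = (cell (lab (ZC u v x y)) G0).filter fun G => (bal x y u v G ↔ bal x y u v G0) := by
    ext G
    rw [Finset.mem_filter, mem_cell, mem_cell, lab_iff (WR_equiv u v x y),
      lab_iff (ZC_equiv u v x y)]; rfl
  rw [hc, Finset.sum_filter, Finset.sum_filter, avg_apply, div_mul_eq_mul_div,
    eq_div_iff (card_cell_pos _ _).ne', h, mul_comm]
  congr 1
  exact Finset.sum_congr rfl fun G _ => by split_ifs <;> simp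

lemma avg_fine {u v x y : V} (hd : Dis u v x y) {φ : Om d → ℝ} (hφ : Inv (off u v) φ) :
    avg (lab (WR u v x y)) φ = avg (lab (ZC u v x y)) φ := by
  funext G0
  have h := indep_fine hd hφ (ψ := fun _ => 1) (fun _ _ _ => rfl) G0
  simp only [mul_one, Finset.sum_const, nsmul_eq_mul] at h
  rw [avg_apply, h, mul_div_assoc, div_self (card_cell_pos _ _).ne', mul_one]

lemma avg_fine_inv {u v x y : V} (hd : Dis u v x y) {φ : Om d → ℝ} (hφ : Inv (off u v) φ) :
    Inv (off u v) (avg (lab (WR u v x y)) φ) := by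
  rw [avg_fine hd hφ]
  exact fun G H e => avg_inv _ _ _ _ ((lab_iff (ZC_equiv u v x y)).2 (ZC_of_off hd e))

lemma ip_fine {u v x y : V} (hd : Dis u v x y) {φ ψ : Om d → ℝ} (hφ : Inv (off u v) φ)
    (hψ : Inv (off x y) ψ) : ip φ ψ = ip (avg (lab (WR u v x y)) φ) ψ := by
  have key : ∀ G0, ∑ G ∈ cell (lab (WR u v x y)) G0, φ G * ψ G
      = ∑ G ∈ cell (lab (WR u v x y)) G0, avg (lab (WR u v x y)) φ G * ψ G := by
    intro G0
    rw [indep_fine hd hφ hψ, ← avg_fine hd hφ, Finset.mul_sum]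
    exact Finset.sum_congr rfl fun G hG => by rw [avg_inv _ φ _ _ (mem_cell.1 hG)]
  exact le_antisymm (sum_le_of_cell _ _ _ fun G => (key G).le)
    (sum_le_of_cell _ _ _ fun G => (key G).ge)

/-- alternating blocks -/
def DS (u v x y : V) (G : Om d) : Prop :=
  ca u v G.1 x = 1 ∧ ca u v G.1 y = 1 ∧ ca x y G.1 u = 1 ∧ ca x y G.1 v = 1

/-- restriction to alternating blocks -/
noncomputable def onD (u v x y : V) (f : Om d → ℝ) : Om d → ℝ :=
  fun G => if DS u v x y G then f G else 0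

/-- the negative term -/
noncomputable def NN (u v x y : V) (f : Om d → ℝ) : ℝ :=
  ip (avg (fun G => (off u v G, bal x y u v G)) (onD u v x y (QQ u v f)))
    (avg (fun G => (off u v G, bal x y u v G)) (onD u v x y (QQ u v f)))

lemma DS_swap (u v x y : V) : DS (d := d) u v x y = DS x y u v := by
  funext G; apply propext; unfold DS; tauto

lemma TT_TT (u v y z : V) (G : Om d) : TT u v y z (TT u v y z G) = G := by
  by_cases h : u ≠ v ∧ y ≠ u ∧ y ≠ v ∧ z ≠ u ∧ z ≠ v ∧ ca u v G.1 y = ca u v G.1 z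
  · have h' : u ≠ v ∧ y ≠ u ∧ y ≠ v ∧ z ≠ u ∧ z ≠ v ∧
        ca u v (TT u v y z G).1 y = ca u v (TT u v y z G).1 z := by
      refine ⟨h.1, h.2.1, h.2.2.1, h.2.2.2.1, h.2.2.2.2.1, ?_⟩
      rw [ca_eq h.1 (TT_off u v y z G) h.2.1 h.2.2.1,
        ca_eq h.1 (TT_off u v y z G) h.2.2.2.1 h.2.2.2.2.1]
      exact h.2.2.2.2.2
    have val : ∀ K : Om d, (u ≠ v ∧ y ≠ u ∧ y ≠ v ∧ z ≠ u ∧ z ≠ v ∧ ca u v K.1 y = ca u v K.1 z) →
        (TT u v y z K).1 = piece u v (Equiv.swap y z) K.1 K.1 := fun K hK => by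
      unfold TT; rw [dif_pos hK]
    have fu := Equiv.swap_apply_of_ne_of_ne h.2.1.symm h.2.2.2.1.symm
    have fv := Equiv.swap_apply_of_ne_of_ne h.2.2.1.symm h.2.2.2.2.1.symm
    apply Subtype.ext
    ext p q
    rw [val _ h']
    by_cases c : p = u ∨ p = v ∨ q = u ∨ q = v
    · rw [piece_adj_of c, val _ h, piece_adj_of, Equiv.swap_apply_self, Equiv.swap_apply_self]
      rcases c with rfl | rfl | rfl | rfl <;> simp [fu, fv]
    · rw [piece_adj_off c, val _ h, piece_adj_off c]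
  · have : TT u v y z G = G := by unfold TT; rw [dif_neg h]
    rw [this, this]

lemma sum_TT (u v y z : V) (F : Om d → ℝ) : ∑ G, F (TT u v y z G) = ∑ G, F G :=
  Finset.sum_nbij' (TT u v y z) (TT u v y z) (fun _ _ => mem_univ _) (fun _ _ => mem_univ _)
    (fun G _ => TT_TT u v y z G) (fun G _ => TT_TT u v y z G) (fun _ _ => rfl)

lemma avg_Q_zero {u v x y : V} (hd : Dis u v x y) (f : Om d → ℝ) {G : Om d}
    (h : ∀ H, ZC u v x y H G → WR u v x y H G) : avg (lab (WR u v x y)) (QQ u v f) G = 0 := by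
  have hc : cell (lab (WR u v x y)) G = cell (lab (ZC u v x y)) G := by
    ext H
    rw [mem_cell, mem_cell, lab_iff (WR_equiv u v x y), lab_iff (ZC_equiv u v x y)]
    exact ⟨fun a => a.1, h H⟩
  have : avg (lab (ZC u v x y)) (QQ u v f) = 0 := by
    rw [QQ_apply, map_sub, avg_avg_of_refine
      (fun G H e => (lab_iff (ZC_equiv u v x y)).2 (ZC_of_off hd e)), sub_self]
  have := congrFun this G
  rw [avg_apply] at this ⊢
  rw [hc]; exact this

theorem block_ineq {u v x y : V} (hd : Dis u v x y) (f : Om d → ℝ) :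
    ∑ G, (f G - f (TT u v x y G)) ^ 2 / 4 - NN u v x y f / 2 - NN x y u v f / 2
      ≤ ip (QQ u v f) (QQ x y f) := by
  set W := avg (lab (WR (d := d) u v x y)) with hW
  have hW' : W = avg (lab (WR (d := d) x y u v)) := by rw [hW, WR_swap]
  set φ := avg (off u v) f with hφ
  set ψ := avg (off x y) f with hψ
  have iφ : Inv (off u v) φ := avg_inv _ _
  have iψ : Inv (off x y) ψ := avg_inv _ _
  have ip1 : Inv (off u v) (φ - W φ) := iφ.sub (avg_fine_inv hd iφ)
  have ip2 : Inv (off x y) (ψ - W ψ) := by rw [hW']; exact iψ.sub (avg_fine_inv hd.swap iψ)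
  have Wsym : ∀ a b, ip (W a) b = ip a (W b) := ip_avg_symm _
  have WW : ∀ a, W (W a) = W a := avg_avg _
  have o1 : ip (f - φ) (φ - W φ) = 0 := ip_sub_avg_inv f ip1
  have o2 : ip (f - ψ) (ψ - W ψ) = 0 := ip_sub_avg_inv f ip2
  have o3 : ip φ ψ = ip (W φ) ψ := ip_fine hd iφ iψ
  set r := f - (W f + (φ - W φ) + (ψ - W ψ)) with hr
  have main : ip (f - φ) (f - ψ) = ip (W (f - φ)) (W (f - ψ)) + ip r r := by
    have w : ∀ a b, ip (W a) (W b) = ip a (W b) := fun a b => by rw [Wsym, WW]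
    simp only [hr, map_sub, ip_sub_left, ip_sub_right, ip_add_left, ip_add_right, w, Wsym]
      at o1 o2 o3 ⊢
    have c1 := ip_comm f φ
    have c2 := ip_comm f ψ
    have c3 := ip_comm φ ψ
    have c4 : ip f (W φ) = ip φ (W f) := by rw [← Wsym, ip_comm]
    have c5 : ip f (W ψ) = ip ψ (W f) := by rw [← Wsym, ip_comm]
    have c6 : ip φ (W ψ) = ip ψ (W φ) := by rw [← Wsym, ip_comm]
    linarith
  have hT : ∀ G, r G - r (TT u v x y G) = f G - f (TT u v x y G) := by
    intro G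
    have a1 := ip1 _ _ (TT_off u v x y G)
    have a2 := ip2 _ _ (TT_off' u v x y G)
    have a3 : W f (TT u v x y G) = W f G := avg_inv _ _ _ _ ((lab_iff (WR_equiv u v x y)).2
      ⟨ZC_of_off hd (TT_off u v x y G), bal_inv hd.swap (TT_off' u v x y G)⟩)
    simp only [hr, Pi.sub_apply, Pi.add_apply] at a1 a2 ⊢
    linarith
  have hr2 : ∑ G, (f G - f (TT u v x y G)) ^ 2 / 4 ≤ ip r r := by
    have a := sum_TT u v x y (fun G => r G * r G)
    have b : ∑ G, (f G - f (TT u v x y G)) ^ 2 / 4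
        ≤ ∑ G, (r G * r G + r (TT u v x y G) * r (TT u v x y G)) / 2 :=
      Finset.sum_le_sum fun G _ => by
        rw [← hT]; nlinarith [sq_nonneg (r G + r (TT u v x y G))]
    rw [← Finset.sum_div _ _ (2 : ℝ), Finset.sum_add_distrib, a] at b
    unfold ip; linarith
  have n1 : ip (W (onD u v x y (QQ u v f))) (W (onD u v x y (QQ u v f))) ≤ NN u v x y f :=
    ip_avg_le_of_refine (fun G H e => (lab_iff (WR_equiv u v x y)).2
      ⟨ZC_of_off hd (congrArg Prod.fst e), iff_of_eq (congrArg Prod.snd e)⟩) _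
  have n2 : ip (W (onD u v x y (QQ x y f))) (W (onD u v x y (QQ x y f))) ≤ NN x y u v f := by
    rw [hW']
    have : onD u v x y (QQ x y f) = onD x y u v (QQ x y f) := by unfold onD; rw [DS_swap]
    rw [this]
    exact ip_avg_le_of_refine (fun G H e => (lab_iff (WR_equiv x y u v)).2
      ⟨ZC_of_off hd.swap (congrArg Prod.fst e), iff_of_eq (congrArg Prod.snd e)⟩) _
  have pt : ∀ G, -(W (onD u v x y (QQ u v f)) G * W (onD u v x y (QQ u v f)) G
      + W (onD u v x y (QQ x y f)) G * W (onD u v x y (QQ x y f)) G) / 2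
      ≤ W (QQ u v f) G * W (QQ x y f) G := by
    intro G
    have bd : ∀ K : Om d, ca u v K.1 x = adj K.1 x u + adj K.1 x v ∧
        ca u v K.1 y = adj K.1 y u + adj K.1 y v ∧ ca x y K.1 u = adj K.1 x u + adj K.1 y u ∧
        ca x y K.1 v = adj K.1 x v + adj K.1 y v ∧ adj K.1 x u ≤ 1 ∧ adj K.1 x v ≤ 1 ∧
        adj K.1 y u ≤ 1 ∧ adj K.1 y v ≤ 1 := fun K =>
      ⟨rfl, rfl, by simp only [ca, adj_comm K.1 u], by simp only [ca, adj_comm K.1 v],
        adj_le _ _ _, adj_le _ _ _, adj_le _ _ _, adj_le _ _ _⟩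
    by_cases hD : DS u v x y G
    · have e : ∀ g, W (onD u v x y g) G = W g G := by
        intro g
        rw [hW, avg_apply, avg_apply]
        congr 1
        refine Finset.sum_congr rfl fun H hH => ?_
        have a := (lab_iff (WR_equiv u v x y)).1 (mem_cell.1 hH)
        have t := a.1.1.2.2.2.2
        have b1 := a.1.2
        have b2 := a.2
        have := bd G
        have := bd H
        unfold onD; rw [if_pos]
        unfold DS bal at *
        omega
      rw [e, e]
      nlinarith [sq_nonneg (W (QQ u v f) G + W (QQ x y f) G)]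
    · have z : W (QQ u v f) G * W (QQ x y f) G = 0 := by
        by_cases c : ca u v G.1 x ≠ ca u v G.1 y ∨ ca u v G.1 x + ca u v G.1 y ≠ 2
        · rw [avg_Q_zero hd f, zero_mul]
          intro H a
          refine ⟨a, ?_⟩
          have t := a.1.2.2.2.2
          have b1 := a.2
          have := bd G
          have := bd H
          unfold bal at *
          omega
        · rw [hW', avg_Q_zero hd.swap f, mul_zero]
          intro H a
          refine ⟨a, ?_⟩
          have t := a.1.2.2.2.2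
          have b1 := a.2
          have := bd G
          have := bd H
          unfold DS bal at *
          omega
      rw [z]
      nlinarith [mul_self_nonneg (W (onD u v x y (QQ u v f)) G),
        mul_self_nonneg (W (onD u v x y (QQ x y f)) G)]
  have pt2 := Finset.sum_le_sum fun G (_ : G ∈ univ) => pt G
  rw [← Finset.sum_div, Finset.sum_neg_distrib, Finset.sum_add_distrib] at pt2
  change ip (f - φ) (f - ψ) = ip (W (QQ u v f)) (W (QQ x y f)) + _ at main
  change _ ≤ ip (f - φ) (f - ψ)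
  unfold ip at n1 n2 main hr2 ⊢
  linarith

end Vale.Agent.P335
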