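import Vale.Agent.P335.Block

/-!
The spectral gap of the trade chain and the Poincare inequality for switches.
-/

set_option linter.unusedSectionVars false
set_option linter.unusedVariables false

namespace Vale.Agent.P335

open Classical Finset

variable {V : Type*} [Fintype V] {d : V → ℕ}

lemma knabe_sum (B : V → V → V → V → ℝ) (h1 : ∀ u x y, B u u x y = 0) (h2 : ∀ u v x, B u v x x = 0)
    (h3 : ∀ u v x y, B u v x y = B v u x y) (h4 : ∀ u v x y, B u v x y = B u v y x)
    (hdis : 0 ≤ ∑ u, ∑ v, ∑ x, ∑ y, if Dis u v x y then B u v x y else 0)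
    (htri : ∀ u v w, u ≠ v → u ≠ w → v ≠ w → 0 ≤ B u v u w + B v w v u + B w u w v) :
    2 * ∑ u, ∑ v, B u v u v ≤ ∑ u, ∑ v, ∑ x, ∑ y, B u v x y := by
  have dec : ∀ u v x y, B u v x y = (if Dis u v x y then B u v x y else 0)
      + (if x = u then B u v u y else 0) + (if y = u then B u v u x else 0)
      + (if x = v then B v u v y else 0) + (if y = v then B v u v x else 0)
      - (if y = v then if x = u then B u v u v else 0 else 0)
      - (if y = u then if x = v then B u v u v else 0 else 0) := by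
    intro u v x y
    by_cases a : u = v
    · subst a; simp [h1]
    by_cases b : x = y
    · subst b
      have a' := Ne.symm a
      by_cases c : x = u
      · subst c; simp [h2, Dis, a]
      by_cases e : x = v
      · subst e; simp [h2, Dis, a, a']
      simp [h2, Dis, c, e]
    have a' := Ne.symm a
    have b' := Ne.symm b
    by_cases c : x = u
    · subst c
      by_cases e : y = v
      · subst e; simp [Dis, a, a', h3 y x, h4 x y y x]
      · simp [Dis, a, b', e]
    by_cases e : x = v
    · subst e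
      by_cases g : y = u
      · subst g; simp [Dis, a, a', h3 x y, h4 y x x y]
      · simp [Dis, a', b', g, h3 x u]
    by_cases g : y = u
    · subst g; simp [Dis, c, e, a, h4 y v y x]
    by_cases i : y = v
    · subst i; simp [Dis, c, e, a', h3 y u, h4 u y y x]
    simp [Dis, a, b, c, e, g, i]
  have dec2 : ∀ u v, ∑ x, ∑ y, B u v x y = (∑ x, ∑ y, if Dis u v x y then B u v x y else 0)
      + 2 * ∑ y, B u v u y + 2 * ∑ y, B v u v y - 2 * B u v u v := by
    intro u v
    rw [Finset.sum_congr rfl (fun x _ => Finset.sum_congr rfl fun y _ => dec u v x y)]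
    simp only [Finset.sum_add_distrib, Finset.sum_sub_distrib, Finset.sum_ite_eq', mem_univ, if_true]
    rw [Finset.sum_comm (f := fun x y => if x = u then B u v u y else 0),
      Finset.sum_comm (f := fun x y => if x = v then B v u v y else 0)]
    simp only [Finset.sum_ite_eq', mem_univ, if_true]
    ring
  set S := ∑ u, ∑ v, ∑ y, B u v u y with hS
  have e1 : ∑ u, ∑ v, ∑ y, B v u v y = S := Finset.sum_comm
  set C : V → V → V → ℝ := fun u v w => if v = w then 0 else B u v u w with hC
  have e2 : S = ∑ u, ∑ v, B u v u v + ∑ u, ∑ v, ∑ w, C u v w := by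
    rw [hS, ← Finset.sum_add_distrib]
    refine Finset.sum_congr rfl fun u _ => ?_
    rw [← Finset.sum_add_distrib]
    refine Finset.sum_congr rfl fun v _ => ?_
    have : ∀ w, B u v u w = (if v = w then B u v u v else 0) + C u v w := by
      intro w; by_cases c : v = w <;> simp [hC, c]
    rw [Finset.sum_congr rfl (fun w _ => this w), Finset.sum_add_distrib]
    simp
  have e3 : ∑ u, ∑ v, ∑ w, C v w u = ∑ u, ∑ v, ∑ w, C u v w := by
    rw [Finset.sum_comm]
    exact Finset.sum_congr rfl fun v _ => Finset.sum_comm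
  have e4 : ∑ u, ∑ v, ∑ w, C w u v = ∑ u, ∑ v, ∑ w, C u v w := by
    rw [Finset.sum_congr rfl (fun u _ => Finset.sum_comm), Finset.sum_comm]
  have e5 : 0 ≤ ∑ u, ∑ v, ∑ w, (C u v w + C v w u + C w u v) := by
    refine Finset.sum_nonneg fun u _ => Finset.sum_nonneg fun v _ => Finset.sum_nonneg fun w _ => ?_
    by_cases a : u = v
    · subst a; simp [hC, h1, h2]
    by_cases b : u = w
    · subst b; simp [hC, h1, h2]
    by_cases c : v = w
    · subst c; simp [hC, h1, h2]
    have := htri u v w a b c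
    simpa [hC, a, c, Ne.symm b] using this
  simp only [Finset.sum_add_distrib, e3, e4] at e5
  rw [Finset.sum_congr rfl (fun u _ => Finset.sum_congr rfl fun v _ => dec2 u v)]
  simp only [Finset.sum_add_distrib, Finset.sum_sub_distrib, ← Finset.mul_sum]
  rw [e1, ← hS]
  linarith

lemma sum4_swap (F : V → V → V → V → ℝ) :
    ∑ u, ∑ v, ∑ x, ∑ y, F x y u v = ∑ u, ∑ v, ∑ x, ∑ y, F u v x y := by
  have e : ∀ F : V → V → V → V → ℝ, ∑ u, ∑ v, ∑ x, ∑ y, F u v x y
      = ∑ p : V × V, ∑ q : V × V, F p.1 p.2 q.1 q.2 := fun F => by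
    simp only [Fintype.sum_prod_type]
  rw [e (fun u v x y => F x y u v), e F]
  exact Finset.sum_comm

variable [Fintype (Om d)]

lemma NN_cell {u v x y : V} (hd : Dis u v x y) (g : Om d → ℝ) (G : Om d) :
    ∑ s ∈ cell (off u v) G, (avg (fun G => (off u v G, bal x y u v G)) (onD u v x y g) s) ^ 2
      = if x ∈ actv u v G ∧ y ∈ actv u v G then
        (∑ s ∈ cell (off u v) G, g s * ((adj s.1 x u : ℝ) - adj s.1 y u) ^ 2) ^ 2
          / JS.DD (cell (off u v) G) (fun s x => (adj s.1 x u : ℝ)) x y else 0 := by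
  obtain ⟨d1, d2, d3, d4, d5, d6⟩ := id hd
  set K := cell (off u v) G with hK
  have hc : ∀ s ∈ K, cell (fun G => (off u v G, bal x y u v G)) s
      = K.filter fun t => (bal x y u v t ↔ bal x y u v s) := by
    intro s hs; ext t
    rw [Finset.mem_filter, mem_cell, hK, mem_cell, Prod.mk.injEq, mem_cell.1 hs, eq_iff_iff]
  have bd : ∀ s : Om d, ca u v s.1 x = adj s.1 x u + adj s.1 x v ∧
      ca u v s.1 y = adj s.1 y u + adj s.1 y v ∧ ca x y s.1 u = adj s.1 x u + adj s.1 y u ∧
      ca x y s.1 v = adj s.1 x v + adj s.1 y v ∧ adj s.1 x u ≤ 1 ∧ adj s.1 x v ≤ 1 ∧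
      adj s.1 y u ≤ 1 ∧ adj s.1 y v ≤ 1 := fun K =>
    ⟨rfl, rfl, by simp only [ca, adj_comm K.1 u], by simp only [ca, adj_comm K.1 v],
      adj_le _ _ _, adj_le _ _ _, adj_le _ _ _, adj_le _ _ _⟩
  have c1 : ∀ s ∈ K, ca u v s.1 x = ca u v G.1 x := fun s hs => ca_eq d1 (mem_cell.1 hs) d2 d3
  have c2 : ∀ s ∈ K, ca u v s.1 y = ca u v G.1 y := fun s hs => ca_eq d1 (mem_cell.1 hs) d4 d5
  split_ifs with h
  · have x1 := (mem_actv.1 h.1).2.2
    have y1 := (mem_actv.1 h.2).2.2
    have iff1 : ∀ s ∈ K, DS u v x y s ↔ bal x y u v s := by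
      intro s hs
      have := bd s; have := c1 s hs; have := c2 s hs
      unfold DS bal; omega
    have sq1 : ∀ s ∈ K, ((adj s.1 x u : ℝ) - adj s.1 y u) ^ 2 = if bal x y u v s then 1 else 0 := by
      intro s hs
      have := bd s; have := c1 s hs; have := c2 s hs
      split_ifs with b
      · unfold bal at b
        rcases (by omega : (adj s.1 x u = 1 ∧ adj s.1 y u = 0) ∨ (adj s.1 x u = 0 ∧ adj s.1 y u = 1))
          with ⟨a1, a2⟩ | ⟨a1, a2⟩ <;> rw [a1, a2] <;> norm_num
      · unfold bal at b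
        rw [(by omega : adj s.1 x u = adj s.1 y u)]; simp
    set D := K.filter fun t => bal x y u v t with hD
    have eD : JS.DD K (fun s x => (adj s.1 x u : ℝ)) x y = D.card := by
      unfold JS.DD
      rw [Finset.sum_congr rfl sq1, hD]; simp
    have eY : ∑ s ∈ K, g s * ((adj s.1 x u : ℝ) - adj s.1 y u) ^ 2 = ∑ s ∈ D, g s := by
      rw [hD, Finset.sum_filter]
      exact Finset.sum_congr rfl fun s hs => by rw [sq1 s hs]; simp
    have ea : ∀ s ∈ K, (avg (fun G => (off u v G, bal x y u v G)) (onD u v x y g) s) ^ 2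
        = if bal x y u v s then ((∑ s ∈ D, g s) / D.card) ^ 2 else 0 := by
      intro s hs
      rw [avg_apply, hc s hs]
      split_ifs with b
      · simp only [b, iff_true, ← hD]
        congr 2
        refine Finset.sum_congr rfl fun t ht => ?_
        obtain ⟨t1, t2⟩ := Finset.mem_filter.1 ht
        unfold onD; rw [if_pos ((iff1 t t1).2 t2)]
      · rw [Finset.sum_eq_zero]
        · simp
        · intro t ht
          obtain ⟨t1, t2⟩ := Finset.mem_filter.1 ht
          unfold onD; rw [if_neg (fun h => b (t2.1 ((iff1 t t1).1 h)))]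
    rw [Finset.sum_congr rfl ea, ← Finset.sum_filter, ← hD, eD, eY]
    simp only [Finset.sum_const, nsmul_eq_mul]
    by_cases z : (D.card : ℝ) = 0
    · simp [z]
    · field_simp
  · refine Finset.sum_eq_zero fun s hs => ?_
    rw [avg_apply, hc s hs, Finset.sum_eq_zero]
    · simp
    · intro t ht
      obtain ⟨t1, t2⟩ := Finset.mem_filter.1 ht
      unfold onD; rw [if_neg]
      intro hD
      exact h ⟨mem_actv.2 ⟨d2, d3, by rw [← c1 t t1]; exact hD.1⟩,
        mem_actv.2 ⟨d4, d5, by rw [← c2 t t1]; exact hD.2.1⟩⟩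

/-- the energy of all switches with rows `u`, `v` -/
noncomputable def EE (u v : V) (f : Om d → ℝ) : ℝ :=
  ∑ y, ∑ z, if Dis u v y z then ∑ s, (f s - f (TT u v y z s)) ^ 2 / 4 else 0

lemma EE_eq {u v : V} (huv : u ≠ v) (f : Om d → ℝ) : EE u v f = ∑ s, ∑ y, ∑ z,
    if y ≠ u ∧ y ≠ v ∧ z ≠ u ∧ z ≠ v ∧ y ≠ z then (f s - f (TT u v y z s)) ^ 2 / 4 else 0 := by
  unfold EE
  rw [Finset.sum_comm (s := (univ : Finset (Om d)))]
  refine Finset.sum_congr rfl fun y _ => ?_
  rw [Finset.sum_comm (s := (univ : Finset (Om d)))]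
  refine Finset.sum_congr rfl fun z _ => ?_
  by_cases c : y ≠ u ∧ y ≠ v ∧ z ≠ u ∧ z ≠ v ∧ y ≠ z
  · simp only [if_pos c, if_pos (show Dis u v y z from ⟨huv, c⟩)]
  · simp only [if_neg c, if_neg (show ¬ Dis u v y z from fun h => c h.2), Finset.sum_const_zero]

lemma NN_sum (u v : V) (f : Om d → ℝ) :
    ∑ x, ∑ y, (if Dis u v x y then NN u v x y f else 0) ≤ EE u v f := by
  by_cases huv : u = v
  · simp [Dis, huv, EE]
  have e : ∑ x, ∑ y, (if Dis u v x y then NN u v x y f else 0) = ∑ s, ∑ x, ∑ y,
      if Dis u v x y then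
        (avg (fun G => (off u v G, bal x y u v G)) (onD u v x y (QQ u v f)) s) ^ 2 else 0 := by
    rw [Finset.sum_comm (s := (univ : Finset (Om d)))]
    refine Finset.sum_congr rfl fun y _ => ?_
    rw [Finset.sum_comm (s := (univ : Finset (Om d)))]
    refine Finset.sum_congr rfl fun z _ => ?_
    split_ifs
    · simp only [NN, ip, sq]
    · simp
  rw [e, EE_eq huv]
  refine sum_le_of_cell (off u v) _ _ fun G => ?_
  refine le_trans ?_ (((js_class huv G).main (QQ u v f) (sum_cell_sub_avg _ f G)).trans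
    (ee_le u v f G))
  rw [Finset.sum_comm (s := cell (off u v) G)]
  rw [← Finset.sum_subset (Finset.subset_univ (actv u v G))]
  · refine Finset.sum_le_sum fun x hx => ?_
    rw [Finset.sum_comm (s := cell (off u v) G), ← Finset.sum_subset
      (Finset.subset_univ (actv u v G))]
    · refine Finset.sum_le_sum fun y hy => ?_
      by_cases c : Dis u v x y
      · simp only [if_pos c]
        rw [NN_cell c, if_pos ⟨hx, hy⟩]
      · simp only [if_neg c, Finset.sum_const_zero]
        exact div_nonneg (sq_nonneg _) (JS.DD_nonneg _ _)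
    · intro y _ hy
      by_cases c : Dis u v x y
      · simp only [if_pos c]
        rw [NN_cell c, if_neg (fun h => hy h.2)]
      · simp only [if_neg c, Finset.sum_const_zero]
  · intro x _ hx
    rw [Finset.sum_comm (s := cell (off u v) G)]
    refine Finset.sum_eq_zero fun y _ => ?_
    by_cases c : Dis u v x y
    · simp only [if_pos c]
      rw [NN_cell c, if_neg (fun h => hx h.1)]
    · simp only [if_neg c, Finset.sum_const_zero]

lemma disj_nonneg (f : Om d → ℝ) :
    0 ≤ ∑ u, ∑ v, ∑ x, ∑ y, if Dis u v x y then ip (QQ u v f) (QQ x y f) else 0 := by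
  have h1 : ∑ u, ∑ v, ∑ x, ∑ y,
      ((if Dis u v x y then ∑ s, (f s - f (TT u v x y s)) ^ 2 / 4 else 0)
        - (if Dis u v x y then NN u v x y f else 0) / 2
        - (if Dis x y u v then NN x y u v f else 0) / 2)
      ≤ ∑ u, ∑ v, ∑ x, ∑ y, if Dis u v x y then ip (QQ u v f) (QQ x y f) else 0 := by
    refine Finset.sum_le_sum fun u _ => Finset.sum_le_sum fun v _ => Finset.sum_le_sum fun x _ =>
      Finset.sum_le_sum fun y _ => ?_
    by_cases c : Dis u v x y
    · simp only [if_pos c, if_pos c.swap]; exact block_ineq c f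
    · simp only [if_neg c, if_neg (fun h : Dis x y u v => c h.swap)]; simp
  have h2 : ∑ u, ∑ v, ∑ x, ∑ y, (if Dis x y u v then NN x y u v f else 0)
      = ∑ u, ∑ v, ∑ x, ∑ y, (if Dis u v x y then NN u v x y f else 0) := by
    exact sum4_swap (fun x y u v => if Dis x y u v then NN x y u v f else 0)
  have h3 : ∑ u, ∑ v, ∑ x, ∑ y, (if Dis u v x y then NN u v x y f else 0)
      ≤ ∑ u, ∑ v, EE u v f :=
    Finset.sum_le_sum fun u _ => Finset.sum_le_sum fun v _ => NN_sum u v f
  simp only [Finset.sum_sub_distrib, ← Finset.sum_div] at h1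
  rw [h2] at h1
  simp only [EE, ← Finset.sum_div] at h3
  linarith

/-- the generator of the trade chain -/
noncomputable def LL (d : V → ℕ) [Fintype (Om d)] : (Om d → ℝ) →ₗ[ℝ] (Om d → ℝ) :=
  ∑ u, ∑ v, if u = v then 0 else QQ u v

theorem poincare_switch (f : Om d → ℝ) (hf : ∑ s, f s = 0) :
    4 * ip f f ≤ ∑ u, ∑ v, EE u v f := by
  let q : V → V → (Om d → ℝ) →ₗ[ℝ] (Om d → ℝ) := fun u v => if u = v then 0 else QQ u v
  have hL : ∀ f, LL d f = ∑ u, ∑ v, q u v f := fun f => by
    simp only [LL, LinearMap.sum_apply, q]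
  have qs : ∀ u v f g, ip (q u v f) g = ip f (q u v g) := by
    intro u v f g; simp only [q]; split_ifs
    · simp [ip]
    · exact QQ_symm u v f g
  have qq : ∀ u v f, ip f (q u v f) = ip (q u v f) (q u v f) := by
    intro u v f; simp only [q]; split_ifs
    · simp [ip]
    · exact ip_QQ u v f
  have qc : ∀ u v, q u v = q v u := by
    intro u v; simp only [q, eq_comm, QQ_comm u v]
  have q0 : ∀ u, q u u = 0 := fun u => by simp [q]
  have qn : ∀ u v, u ≠ v → q u v = QQ u v := fun u v h => by simp [q, h]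
  have h1 : ∀ f, ip f (LL d f) = ∑ u, ∑ v, ip (q u v f) (q u v f) := fun f => by
    simp only [hL, ip_sum_right, qq]
  have key := gap_of_sq_ge (LL d) (fun f g => by simp only [hL, ip_sum_left, ip_sum_right, qs]) 2
    (fun f => by
      rw [h1]; exact Finset.sum_nonneg fun _ _ => Finset.sum_nonneg fun _ _ => ip_self_nonneg _)
    (fun f => by
      have := knabe_sum (fun u v x y => ip (q u v f) (q x y f)) (fun u x y => by simp [q0, ip])
        (fun u v x => by simp [q0, ip]) (fun u v x y => by rw [qc u v])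
        (fun u v x y => by rw [qc x y]) (by
          refine (disj_nonneg f).trans (le_of_eq ?_)
          refine Finset.sum_congr rfl fun u _ => Finset.sum_congr rfl fun v _ =>
            Finset.sum_congr rfl fun x _ => Finset.sum_congr rfl fun y _ => ?_
          split_ifs with c
          · rw [qn _ _ c.1, qn _ _ c.swap.1]
          · rfl) (fun u v w a b c => by
          rw [qn _ _ a, qn _ _ b, qn _ _ c, qn _ _ a.symm, qn _ _ b.symm, qn _ _ c.symm]
          exact triple_ineq a b c f)
      rw [h1, hL]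
      simp only [ip_sum_left]
      simp only [ip_sum_right]
      exact this)
    (fun g hg => by
      have h0 := h1 g
      rw [hg, ip_zero_right] at h0
      refine const_of_inv g fun u v huv => ?_
      have a := (Finset.sum_eq_zero_iff_of_nonneg (fun _ _ =>
        Finset.sum_nonneg fun _ _ => ip_self_nonneg _)).1 h0.symm u (mem_univ u)
      have b := (Finset.sum_eq_zero_iff_of_nonneg (fun _ _ => ip_self_nonneg _)).1 a v (mem_univ v)
      have c := eq_zero_of_ip_self b
      rw [qn _ _ huv, QQ_apply, sub_eq_zero] at c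
      rw [c]; exact avg_inv _ _) f hf
  rw [h1] at key
  have h2 : ∑ u, ∑ v, 2 * ip (q u v f) (q u v f) ≤ ∑ u, ∑ v, EE u v f := by
    refine Finset.sum_le_sum fun u _ => Finset.sum_le_sum fun v _ => ?_
    by_cases c : u = v
    · simp [c, q0, ip, EE, Dis]
    · rw [qn _ _ c, EE_eq c]; exact QQ_le c f
  simp only [← Finset.mul_sum] at h2
  linarith

end Vale.Agent.P335
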