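import Mathlib

/-!
From a Poincare inequality to total variation mixing for a lazy symmetric chain.
-/

set_option linter.unusedSectionVars false
set_option linter.unusedVariables false

namespace Vale.Agent.P335

open Finset

variable {X : Type*} [Fintype X] [DecidableEq X]

lemma l2_step (K : X → X → ℝ) (hs : ∀ x y, K x y = K y x) (h0 : ∀ x y, 0 ≤ K x y)
    (h1 : ∀ x, ∑ y, K x y = 1) (γ : ℝ) (g : X → ℝ)
    (hg : 4 * γ * ∑ x, g x ^ 2 ≤ ∑ x, ∑ y, K x y * (g x - g y) ^ 2) :
    ∑ y, ((g y + ∑ z, K y z * g z) / 2) ^ 2 ≤ (1 - γ) * ∑ x, g x ^ 2 := by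
  have h1' : ∀ y, ∑ x, K x y = 1 := fun y => by simp only [hs _ y, h1]
  have a : ∑ y, (∑ z, K y z * g z) ^ 2 ≤ ∑ x, g x ^ 2 := by
    calc ∑ y, (∑ z, K y z * g z) ^ 2 ≤ ∑ y, ∑ z, K y z * g z ^ 2 := by
          refine Finset.sum_le_sum fun y _ => ?_
          have := Finset.sum_sq_le_sum_mul_sum_of_sq_le_mul (univ : Finset X)
            (r := fun z => K y z * g z) (f := fun z => K y z) (g := fun z => K y z * g z ^ 2)
            (fun z _ => h0 y z) (fun z _ => mul_nonneg (h0 y z) (sq_nonneg _))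
            (fun z _ => le_of_eq (by ring))
          rwa [h1, one_mul] at this
      _ = ∑ x, g x ^ 2 := by
          rw [Finset.sum_comm]
          exact Finset.sum_congr rfl fun z _ => by rw [← Finset.sum_mul, h1', one_mul]
  have b : ∑ x, ∑ y, K x y * (g x - g y) ^ 2
      = 2 * ∑ x, g x ^ 2 - 2 * ∑ x, g x * ∑ z, K x z * g z := by
    have e1 : ∑ x, ∑ y, K x y * g x ^ 2 = ∑ x, g x ^ 2 :=
      Finset.sum_congr rfl fun x _ => by rw [← Finset.sum_mul, h1, one_mul]
    have e2 : ∑ x, ∑ y, K x y * g y ^ 2 = ∑ x, g x ^ 2 := by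
      rw [Finset.sum_comm]
      exact Finset.sum_congr rfl fun z _ => by rw [← Finset.sum_mul, h1', one_mul]
    have e3 : ∑ x, ∑ y, K x y * (g x - g y) ^ 2 = ∑ x, ∑ y, K x y * g x ^ 2
        + ∑ x, ∑ y, K x y * g y ^ 2 - 2 * ∑ x, g x * ∑ z, K x z * g z := by
      simp only [Finset.mul_sum, ← Finset.sum_add_distrib, ← Finset.sum_sub_distrib]
      exact Finset.sum_congr rfl fun x _ => Finset.sum_congr rfl fun y _ => by ring
    rw [e3, e1, e2]; ring
  have c : ∑ y, ((g y + ∑ z, K y z * g z) / 2) ^ 2 = (∑ x, g x ^ 2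
      + 2 * ∑ x, g x * ∑ z, K x z * g z + ∑ y, (∑ z, K y z * g z) ^ 2) / 4 := by
    rw [Finset.mul_sum, ← Finset.sum_add_distrib, ← Finset.sum_add_distrib, Finset.sum_div]
    exact Finset.sum_congr rfl fun x _ => by ring
  rw [c]; linarith

theorem tv_bound (P : Matrix X X ℝ) (K : X → X → ℝ)
    (hP : ∀ x y, P x y = (1 / 2) * (if x = y then 1 else 0) + (1 / 2) * K x y)
    (hs : ∀ x y, K x y = K y x) (h0 : ∀ x y, 0 ≤ K x y) (h1 : ∀ x, ∑ y, K x y = 1) (γ : ℝ)
    (hγ : γ ≤ 1)
    (hg : ∀ g : X → ℝ, ∑ x, g x = 0 → 4 * γ * ∑ x, g x ^ 2 ≤ ∑ x, ∑ y, K x y * (g x - g y) ^ 2)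
    (t : ℕ) (x : X) :
    (∑ y, |(P ^ t) x y - 1 / (Fintype.card X : ℝ)|) ^ 2 ≤ Fintype.card X * (1 - γ) ^ t := by
  have hN : (0 : ℝ) < Fintype.card X := by
    exact_mod_cast Fintype.card_pos_iff.2 ⟨x⟩
  have step : ∀ t y, (P ^ (t + 1)) x y - 1 / (Fintype.card X : ℝ)
      = (((P ^ t) x y - 1 / (Fintype.card X : ℝ))
        + ∑ z, K y z * ((P ^ t) x z - 1 / (Fintype.card X : ℝ))) / 2 := by
    intro t y
    rw [pow_succ, Matrix.mul_apply]
    simp only [hP, mul_add, mul_sub, Finset.sum_add_distrib, Finset.sum_sub_distrib,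
      ← Finset.sum_mul, h1]
    have e1 : ∑ z, (P ^ t) x z * (1 / 2 * if z = y then 1 else 0) = (P ^ t) x y / 2 := by
      rw [Finset.sum_eq_single y] <;> simp +contextual [div_eq_mul_inv]
    have e2 : ∑ z, (P ^ t) x z * (1 / 2 * K z y) = (∑ z, K y z * (P ^ t) x z) / 2 := by
      rw [Finset.sum_div]; exact Finset.sum_congr rfl fun z _ => by rw [hs z y]; ring
    rw [e1, e2]; ring
  have key : ∀ t, ∑ y, ((P ^ t) x y - 1 / (Fintype.card X : ℝ)) = 0 ∧
      ∑ y, ((P ^ t) x y - 1 / (Fintype.card X : ℝ)) ^ 2 ≤ (1 - γ) ^ t := by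
    intro t
    induction t with
    | zero =>
      simp only [pow_zero, Matrix.one_apply]
      constructor
      · rw [Finset.sum_sub_distrib]; simp; field_simp; simp
      · have : ∀ y, ((if x = y then (1 : ℝ) else 0) - 1 / (Fintype.card X : ℝ)) ^ 2
            = (if x = y then (1 - 2 / (Fintype.card X : ℝ)) else 0)
              + (1 / (Fintype.card X : ℝ)) ^ 2 := fun y => by split_ifs <;> ring
        simp only [this, Finset.sum_add_distrib, Finset.sum_ite_eq, mem_univ, if_true,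
          Finset.sum_const, nsmul_eq_mul, Finset.card_univ]
        have : (Fintype.card X : ℝ) * (1 / (Fintype.card X : ℝ)) ^ 2 = 1 / Fintype.card X := by
          field_simp
        rw [this]
        have : 0 < 1 / (Fintype.card X : ℝ) := by positivity
        have e : 2 / (Fintype.card X : ℝ) = 2 * (1 / (Fintype.card X : ℝ)) := by ring
        linarith
    | succ t ih =>
      simp only [step]
      constructor
      · rw [← Finset.sum_div, Finset.sum_add_distrib, ih.1, Finset.sum_comm]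
        have : ∑ z, ∑ y, K y z * ((P ^ t) x z - 1 / (Fintype.card X : ℝ))
            = ∑ z, ((P ^ t) x z - 1 / (Fintype.card X : ℝ)) :=
          Finset.sum_congr rfl fun z _ => by
            rw [← Finset.sum_mul]; simp only [hs _ z, h1, one_mul]
        rw [this, ih.1]; simp
      · refine (l2_step K hs h0 h1 γ _ (hg _ ih.1)).trans ?_
        rw [pow_succ, mul_comm ((1 - γ) ^ t)]
        exact mul_le_mul_of_nonneg_left ih.2 (by linarith)
  refine sq_sum_le_card_mul_sum_sq.trans ?_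
  simp only [sq_abs, Finset.card_univ]
  exact mul_le_mul_of_nonneg_left (key t).2 hN.le

end Vale.Agent.P335
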