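import Vale.Agent.P335.Defs
import Vale.Agent.P335.Gap
import Vale.Agent.P335.Mix

/-!
The switch chain satisfies the hypotheses of the mixing lemma.
-/

set_option linter.unusedSectionVars false
set_option linter.unusedVariables false

namespace Vale.Agent.P335

open Classical Finset

variable {n : ℕ}

lemma mem_pm {S : Finset (Fin n)} {F : Finset (Sym2 (Fin n))} : F ∈ perfectMatchings S ↔
    (∀ e ∈ F, ¬ e.IsDiag ∧ ∀ v ∈ e, v ∈ S) ∧ ∀ v ∈ S, ∃! e, e ∈ F ∧ v ∈ e := by
  simp only [perfectMatchings, Finset.mem_filter, mem_univ, true_and]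

lemma pm_mem {a b c e : Fin n} (h1 : a ≠ b) (h2 : a ≠ c) (h3 : a ≠ e) (h4 : b ≠ c) (h5 : b ≠ e)
    (h6 : c ≠ e) {S : Finset (Fin n)} (hS : ∀ x, x ∈ S ↔ x = a ∨ x = b ∨ x = c ∨ x = e) :
    ({s(a, b), s(c, e)} : Finset (Sym2 (Fin n))) ∈ perfectMatchings S := by
  rw [mem_pm]
  constructor
  · intro f hf
    simp only [Finset.mem_insert, Finset.mem_singleton] at hf
    rcases hf with rfl | rfl <;> simp [*]
  · intro v hv
    rcases (hS v).1 hv with rfl | rfl | rfl | rfl
    · refine ⟨s(v, b), by simp, ?_⟩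
      rintro f ⟨hf, hv⟩
      simp only [Finset.mem_insert, Finset.mem_singleton] at hf
      rcases hf with rfl | rfl
      · rfl
      · simp [*] at hv
    · refine ⟨s(a, v), by simp, ?_⟩
      rintro f ⟨hf, hv⟩
      simp only [Finset.mem_insert, Finset.mem_singleton] at hf
      rcases hf with rfl | rfl
      · rfl
      · simp [*] at hv
    · refine ⟨s(v, e), by simp, ?_⟩
      rintro f ⟨hf, hv⟩
      simp only [Finset.mem_insert, Finset.mem_singleton] at hf
      rcases hf with rfl | rfl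
      · simp [h2.symm, h4.symm] at hv
      · rfl
    · refine ⟨s(c, v), by simp, ?_⟩
      rintro f ⟨hf, hv⟩
      simp only [Finset.mem_insert, Finset.mem_singleton] at hf
      rcases hf with rfl | rfl
      · simp [h3.symm, h5.symm] at hv
      · rfl

lemma pm_edge {S : Finset (Fin n)} {F : Finset (Sym2 (Fin n))} (hF : F ∈ perfectMatchings S)
    {a : Fin n} (ha : a ∈ S) : ∃ w ∈ S, w ≠ a ∧ s(a, w) ∈ F := by
  obtain ⟨h1, h2⟩ := mem_pm.1 hF
  obtain ⟨f, ⟨hf, haf⟩, -⟩ := h2 a ha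
  obtain ⟨w, rfl⟩ := Sym2.mem_iff_exists.1 haf
  refine ⟨w, (h1 _ hf).2 w (by simp), ?_, hf⟩
  rintro rfl
  exact (h1 _ hf).1 (by simp)

lemma pm_of {a b c e : Fin n} (h1 : a ≠ b) (h2 : a ≠ c) (h3 : a ≠ e) (h4 : b ≠ c) (h5 : b ≠ e)
    (h6 : c ≠ e) {S : Finset (Fin n)} (hS : ∀ x, x ∈ S ↔ x = a ∨ x = b ∨ x = c ∨ x = e)
    {F : Finset (Sym2 (Fin n))} (hF : F ∈ perfectMatchings S) (hab : s(a, b) ∈ F) :
    F = {s(a, b), s(c, e)} := by
  obtain ⟨k1, k2⟩ := mem_pm.1 hF
  have uniq : ∀ v ∈ S, ∀ f ∈ F, ∀ g ∈ F, v ∈ f → v ∈ g → f = g := fun v hv f hf g hg a1 a2 =>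
    (k2 v hv).unique ⟨hf, a1⟩ ⟨hg, a2⟩
  have hce : s(c, e) ∈ F := by
    obtain ⟨w, w1, w2, w3⟩ := pm_edge hF ((hS c).2 (by simp))
    rcases (hS w).1 w1 with rfl | rfl | rfl | rfl
    · have := uniq w w1 _ w3 _ hab (by simp) (by simp)
      simp [h2.symm, h4.symm] at this
    · have := uniq w w1 _ w3 _ hab (by simp) (by simp)
      simp [h2.symm, h4.symm] at this
    · exact absurd rfl w2
    · exact w3
  ext f
  simp only [Finset.mem_insert, Finset.mem_singleton]
  constructor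
  · intro hf
    induction f using Sym2.ind with
    | _ p q =>
    have hp := (k1 _ hf).2 p (by simp)
    rcases (hS p).1 hp with rfl | rfl | rfl | rfl
    · exact Or.inl (uniq p hp _ hf _ hab (by simp) (by simp))
    · exact Or.inl (uniq p hp _ hf _ hab (by simp) (by simp))
    · exact Or.inr (uniq p hp _ hf _ hce (by simp) (by simp))
    · exact Or.inr (uniq p hp _ hf _ hce (by simp) (by simp))
  · rintro (rfl | rfl) <;> assumption

lemma pm_card {S : Finset (Fin n)} (hS : S.card = 4) : (perfectMatchings S).card = 3 := by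
  obtain ⟨a, b, c, e, h1, h2, h3, h4, h5, h6, rfl⟩ := Finset.card_eq_four.1 hS
  rw [Finset.card_eq_three]
  refine ⟨{s(a, b), s(c, e)}, {s(a, c), s(b, e)}, {s(a, e), s(b, c)}, ?_, ?_, ?_, ?_⟩
  · intro h
    have : s(a, b) ∈ ({s(a, c), s(b, e)} : Finset (Sym2 (Fin n))) := by rw [← h]; simp
    simp [*] at this
  · intro h
    have : s(a, b) ∈ ({s(a, e), s(b, c)} : Finset (Sym2 (Fin n))) := by rw [← h]; simp
    simp [*] at this
  · intro h
    have : s(a, c) ∈ ({s(a, e), s(b, c)} : Finset (Sym2 (Fin n))) := by rw [← h]; simp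
    simp [*] at this
  · ext F
    simp only [Finset.mem_insert, Finset.mem_singleton]
    constructor
    · intro hF
      obtain ⟨w, w1, w2, w3⟩ := pm_edge hF (a := a) (by simp)
      simp only [Finset.mem_insert, Finset.mem_singleton] at w1
      rcases w1 with rfl | rfl | rfl | rfl
      · exact absurd rfl w2
      · exact Or.inl (pm_of h1 h2 h3 h4 h5 h6 (by simp) hF w3)
      · exact Or.inr (Or.inl (pm_of h2 h1 h3 h4.symm h6 h5 (by simp; tauto) hF w3))
      · exact Or.inr (Or.inr (pm_of h3 h1 h2 h5.symm h6.symm h4 (by simp; tauto) hF w3))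
    · rintro (rfl | rfl | rfl)
      · exact pm_mem h1 h2 h3 h4 h5 h6 (by simp)
      · exact pm_mem h2 h1 h3 h4.symm h6 h5 (by simp; tauto)
      · exact pm_mem h3 h1 h2 h5.symm h6.symm h4 (by simp; tauto)

lemma pair_struct {S : Finset (Fin n)} (hS : S.card = 4) {F F' : Finset (Sym2 (Fin n))}
    (hF : F ∈ perfectMatchings S) (hF' : F' ∈ perfectMatchings S) (hne : F ≠ F') :
    ∃ u v x y, Dis u v x y ∧ F = {s(u, x), s(v, y)} ∧ F' = {s(u, y), s(v, x)} := by
  obtain ⟨u, hu⟩ : S.Nonempty := Finset.card_pos.1 (by omega)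
  obtain ⟨x, x1, x2, x3⟩ := pm_edge hF hu
  obtain ⟨y, y1, y2, y3⟩ := pm_edge hF' hu
  have key : ∀ x y, x ∈ S → y ∈ S → x ≠ u → y ≠ u → x ≠ y → ∃ v, v ≠ u ∧ v ≠ x ∧ v ≠ y ∧
      ∀ z, z ∈ S ↔ z = u ∨ z = x ∨ z = v ∨ z = y := by
    intro x y x1 y1 x2 y2 hxy
    have c : (((S.erase u).erase x).erase y).card = 1 := by
      rw [Finset.card_erase_of_mem (by simp [*, hxy.symm]), Finset.card_erase_of_mem (by simp [*]),
        Finset.card_erase_of_mem hu, hS]
    obtain ⟨v, hv⟩ := Finset.card_eq_one.1 c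
    have hv' := fun z => Finset.ext_iff.1 hv z
    simp only [Finset.mem_erase, Finset.mem_singleton] at hv'
    have a := (hv' v).2 rfl
    refine ⟨v, a.2.2.1, a.2.1, a.1, fun z => ?_⟩
    have := hv' z
    grind
  have hxy : x ≠ y := by
    rintro rfl
    obtain ⟨y, y1⟩ : ((S.erase u).erase x).Nonempty := Finset.card_pos.1 (by
      rw [Finset.card_erase_of_mem (by simp [*]), Finset.card_erase_of_mem hu, hS]; norm_num)
    simp only [Finset.mem_erase] at y1
    obtain ⟨v, v1, v2, v3, hv⟩ := key x y x1 y1.2.2 x2 y1.2.1 y1.1.symm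
    exact hne ((pm_of x2.symm v1.symm y1.2.1.symm v2.symm y1.1.symm v3 hv hF x3).trans
      (pm_of x2.symm v1.symm y1.2.1.symm v2.symm y1.1.symm v3 hv hF' y3).symm)
  obtain ⟨v, v1, v2, v3, hv⟩ := key x y x1 y1 x2 y2 hxy
  exact ⟨u, v, x, y, ⟨v1.symm, x2, v2.symm, y2, v3.symm, hxy⟩,
    pm_of x2.symm v1.symm y2.symm v2.symm hxy v3 hv hF x3,
    pm_of y2.symm v1.symm x2.symm v3.symm hxy.symm v2 (fun z => by rw [hv]; tauto) hF' y3⟩

variable {d : Fin n → ℕ}

lemma move_eq {u v x y : Fin n} (h : Dis u v x y) (G : Omega d) :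
    switchMove G.1 {s(u, x), s(v, y)} {s(u, y), s(v, x)}
      = if G.1.Adj u x ∧ G.1.Adj v y ∧ ¬ G.1.Adj u y ∧ ¬ G.1.Adj v x then (TT u v x y G).1
        else G.1 := by
  obtain ⟨d1, d2, d3, d4, d5, d6⟩ := h
  unfold switchMove
  simp only [Finset.mem_insert, Finset.mem_singleton, forall_eq_or_imp, forall_eq,
    SimpleGraph.mem_edgeSet, and_assoc]
  split_ifs with c
  · obtain ⟨c1, c2, c3, c4⟩ := c
    have k : u ≠ v ∧ x ≠ u ∧ x ≠ v ∧ y ≠ u ∧ y ≠ v ∧ ca u v G.1 x = ca u v G.1 y := by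
      refine ⟨d1, d2, d3, d4, d5, ?_⟩
      unfold ca
      rw [adj_eq_one.2 c1.symm, adj_eq_one.2 c2.symm, adj_eq_zero.2 (fun h => c3 h.symm),
        adj_eq_zero.2 (fun h => c4 h.symm)]
    unfold TT; rw [dif_pos k]
    ext p q
    simp only [SimpleGraph.fromEdgeSet_adj, Set.mem_union, Set.mem_sdiff, SimpleGraph.mem_edgeSet,
      Finset.coe_insert, Finset.coe_singleton, Set.mem_insert_iff, Set.mem_singleton_iff,
      Sym2.eq_iff, piece, Equiv.swap_apply_def]
    have := G.1.adj_comm u x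
    have := G.1.adj_comm v y
    have := G.1.adj_comm u y
    have := G.1.adj_comm v x
    have : G.1.Adj p q → p ≠ q := G.1.ne_of_adj
    by_cases p1 : p = x <;> by_cases p2 : p = y <;> by_cases q1 : q = x <;> by_cases q2 : q = y <;>
      grind
  · rfl

/-- the move as a map on `Omega d` -/
noncomputable def mvp (F F' : Finset (Sym2 (Fin n))) (G : Omega d) : Omega d :=
  if h : ∀ i, ((switchMove G.1 F F').neighborSet i).ncard = d i then ⟨_, h⟩ else G

lemma mvp_eq {u v x y : Fin n} (h : Dis u v x y) (G : Omega d) :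
    mvp {s(u, x), s(v, y)} {s(u, y), s(v, x)} G
      = if G.1.Adj u x ∧ G.1.Adj v y ∧ ¬ G.1.Adj u y ∧ ¬ G.1.Adj v x then TT u v x y G
        else G := by
  unfold mvp
  have e := move_eq h G
  rw [dif_pos]
  · apply Subtype.ext
    simp only [e]; split_ifs <;> rfl
  · rw [e]; split_ifs
    · exact (TT u v x y G).2
    · exact G.2

lemma mvp_val {S : Finset (Fin n)} (hS : S.card = 4)
    {p : Finset (Sym2 (Fin n)) × Finset (Sym2 (Fin n))} (hp : p ∈ (perfectMatchings S).offDiag)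
    (G : Omega d) : (mvp p.1 p.2 G).1 = switchMove G.1 p.1 p.2 := by
  obtain ⟨h1, h2, h3⟩ := Finset.mem_offDiag.1 hp
  obtain ⟨u, v, x, y, hd, e1, e2⟩ := pair_struct hS h1 h2 h3
  rw [e1, e2, mvp_eq hd, move_eq hd]
  split_ifs <;> rfl

lemma move_symm {S : Finset (Fin n)} {F F' : Finset (Sym2 (Fin n))} (hF' : F' ∈ perfectMatchings S)
    {G H : SimpleGraph (Fin n)} (hne : G ≠ H) (h : switchMove G F F' = H) :
    switchMove H F' F = G := by
  unfold switchMove at h
  split_ifs at h with c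
  · have nd : ∀ e ∈ F', ¬ e.IsDiag := fun e he => ((mem_pm.1 hF').1 e he).1
    have eH : ∀ e, e ∈ H.edgeSet ↔ (e ∈ G.edgeSet ∧ e ∉ F) ∨ e ∈ F' := by
      intro e
      rw [← h, SimpleGraph.edgeSet_fromEdgeSet]
      have := nd e
      have : e ∈ G.edgeSet → ¬ e.IsDiag := G.not_isDiag_of_mem_edgeSet
      simp only [Set.mem_sdiff, Set.mem_union, Finset.mem_coe, Sym2.mem_diagSet]
      tauto
    unfold switchMove
    rw [if_pos]
    · rw [← SimpleGraph.fromEdgeSet_edgeSet G]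
      congr 1
      ext e
      have := c.1 e
      have := c.2 e
      simp only [Set.mem_sdiff, Set.mem_union, Finset.mem_coe, eH]
      tauto
    · refine ⟨fun e he => (eH e).2 (Or.inr he), fun e he => ?_⟩
      have := c.1 e he
      have := c.2 e
      rw [eH]; tauto
  · exact absurd h hne

/-- the non lazy part of the chain -/
noncomputable def KK (d : Fin n → ℕ) (G H : Omega d) : ℝ :=
  ∑ S ∈ Finset.powersetCard 4 (Finset.univ : Finset (Fin n)),
    (1 / (n.choose 4 : ℝ)) * ∑ p ∈ (perfectMatchings S).offDiag,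
      (1 / 6) * (if switchMove G.1 p.1 p.2 = H.1 then 1 else 0)

lemma KK_symm (G H : Omega d) : KK d G H = KK d H G := by
  by_cases h : G = H
  · rw [h]
  have hne : G.1 ≠ H.1 := fun e => h (Subtype.ext e)
  unfold KK
  refine Finset.sum_congr rfl fun S _ => ?_
  congr 1
  refine Finset.sum_nbij' Prod.swap Prod.swap ?_ ?_ (fun _ _ => rfl) (fun _ _ => rfl) ?_
  · intro p hp; simp only [Finset.mem_offDiag] at hp ⊢; exact ⟨hp.2.1, hp.1, hp.2.2.symm⟩
  · intro p hp; simp only [Finset.mem_offDiag] at hp ⊢; exact ⟨hp.2.1, hp.1, hp.2.2.symm⟩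
  · intro p hp
    obtain ⟨h1, h2, -⟩ := Finset.mem_offDiag.1 hp
    congr 1
    exact if_congr ⟨move_symm h2 hne, move_symm h1 hne.symm⟩ rfl rfl

lemma KK_nonneg (G H : Omega d) : 0 ≤ KK d G H :=
  Finset.sum_nonneg fun _ _ => mul_nonneg (by positivity)
    (Finset.sum_nonneg fun _ _ => by split_ifs <;> norm_num)

lemma KK_sum (G : Omega d) (φ : Omega d → ℝ) : ∑ H, KK d G H * φ H
    = (1 / (6 * (n.choose 4 : ℝ))) * ∑ S ∈ Finset.powersetCard 4 (Finset.univ : Finset (Fin n)),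
      ∑ p ∈ (perfectMatchings S).offDiag, φ (mvp p.1 p.2 G) := by
  unfold KK
  simp only [Finset.sum_mul, Finset.mul_sum]
  rw [Finset.sum_comm]
  refine Finset.sum_congr rfl fun S hS => ?_
  rw [Finset.sum_comm]
  refine Finset.sum_congr rfl fun p hp => ?_
  rw [← mvp_val (Finset.mem_powersetCard.1 hS).2 hp, Finset.sum_eq_single (mvp p.1 p.2 G)]
  · rw [if_pos rfl]; ring
  · intro H _ hH
    rw [if_neg (fun e => hH (Subtype.ext e).symm)]; simp
  · simp

lemma KK_row (hn : 4 ≤ n) (G : Omega d) : ∑ H, KK d G H = 1 := by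
  have h := KK_sum G (fun _ => 1)
  simp only [mul_one] at h
  rw [h, Finset.sum_congr rfl (g := fun _ => (6 : ℝ)) (fun S hS => by
    simp [Finset.offDiag_card, pm_card (Finset.mem_powersetCard.1 hS).2])]
  have : (0 : ℝ) < n.choose 4 := by exact_mod_cast Nat.choose_pos hn
  simp only [Finset.sum_const, Finset.card_powersetCard, Finset.card_univ, Fintype.card_fin,
    nsmul_eq_mul]
  field_simp

lemma fiber_bound (Φ : Finset (Sym2 (Fin n)) → Finset (Sym2 (Fin n)) → ℝ) (hΦ : ∀ a b, 0 ≤ Φ a b) :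
    ∑ u, ∑ v, ∑ x, ∑ y, (if Dis u v x y then Φ {s(u, x), s(v, y)} {s(u, y), s(v, x)} else 0)
      ≤ 4 * ∑ S ∈ Finset.powersetCard 4 (Finset.univ : Finset (Fin n)),
        ∑ p ∈ (perfectMatchings S).offDiag, Φ p.1 p.2 := by
  let T : Finset (Fin n × Fin n × Fin n × Fin n) :=
    univ.filter fun t => Dis t.1 t.2.1 t.2.2.1 t.2.2.2
  let m : Fin n × Fin n × Fin n × Fin n →
      (Σ _ : Finset (Fin n), Finset (Sym2 (Fin n)) × Finset (Sym2 (Fin n))) := fun t =>
    ⟨{t.1, t.2.2.1, t.2.1, t.2.2.2}, ({s(t.1, t.2.2.1), s(t.2.1, t.2.2.2)},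
      {s(t.1, t.2.2.2), s(t.2.1, t.2.2.1)})⟩
  have e1 : ∑ u, ∑ v, ∑ x, ∑ y,
      (if Dis u v x y then Φ {s(u, x), s(v, y)} {s(u, y), s(v, x)} else 0)
      = ∑ t ∈ T, Φ (m t).2.1 (m t).2.2 := by
    simp only [T, Finset.sum_filter, Fintype.sum_prod_type, m]
  rw [e1, Finset.sum_sigma', ← Finset.sum_fiberwise_of_maps_to' (g := m)
    (t := (Finset.powersetCard 4 (Finset.univ : Finset (Fin n))).sigma
      fun S => (perfectMatchings S).offDiag) (f := fun q => Φ q.2.1 q.2.2), Finset.mul_sum]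
  · refine Finset.sum_le_sum fun q hq => ?_
    simp only [Finset.sum_const, nsmul_eq_mul]
    refine mul_le_mul_of_nonneg_right ?_ (hΦ _ _)
    have c4 : q.1.card = 4 := (Finset.mem_powersetCard.1 (Finset.mem_sigma.1 hq).1).2
    have : (T.filter fun t => m t = q).card ≤ q.1.card := by
      refine Finset.card_le_card_of_injOn (fun t => t.1) ?_ ?_
      · intro t ht
        have := (Finset.mem_filter.1 ht).2
        rw [← this]; simp [m]
      · rintro ⟨u, v, x, y⟩ ht ⟨u', v', x', y'⟩ ht' e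
        simp only at e
        subst e
        obtain ⟨a1, a2⟩ := Finset.mem_filter.1 ht
        obtain ⟨b1, b2⟩ := Finset.mem_filter.1 ht'
        have a3 : Dis u v x y := (Finset.mem_filter.1 a1).2
        have b3 : Dis u v' x' y' := (Finset.mem_filter.1 b1).2
        have e := a2.trans b2.symm
        have f1 : ({s(u, x), s(v, y)} : Finset (Sym2 (Fin n))) = {s(u, x'), s(v', y')} :=
          congrArg (fun q => q.2.1) e
        have f2 : ({s(u, y), s(v, x)} : Finset (Sym2 (Fin n))) = {s(u, y'), s(v', x')} :=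
          congrArg (fun q => q.2.2) e
        have g1 : s(u, x) ∈ ({s(u, x'), s(v', y')} : Finset (Sym2 (Fin n))) := by rw [← f1]; simp
        have g2 : s(u, y) ∈ ({s(u, y'), s(v', x')} : Finset (Sym2 (Fin n))) := by rw [← f2]; simp
        have g3 : s(v, y) ∈ ({s(u, x'), s(v', y')} : Finset (Sym2 (Fin n))) := by rw [← f1]; simp
        simp only [Finset.mem_insert, Finset.mem_singleton, Sym2.eq_iff] at g1 g2 g3
        unfold Dis at a3 b3
        simp only [Prod.mk.injEq]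
        grind
    rw [c4] at this
    exact_mod_cast this
  · rintro ⟨u, v, x, y⟩ ht
    obtain ⟨d1, d2, d3, d4, d5, d6⟩ : Dis u v x y := (Finset.mem_filter.1 ht).2
    simp only [m, Finset.mem_sigma, Finset.mem_powersetCard, Finset.mem_offDiag]
    refine ⟨⟨Finset.subset_univ _, Finset.card_eq_four.2
      ⟨u, x, v, y, d2.symm, d1, d4.symm, d3, d6, d5.symm, rfl⟩⟩,
      pm_mem d2.symm d1 d4.symm d3 d6 d5.symm (by simp),
      pm_mem d4.symm d1 d2.symm d5 d6.symm d3.symm (by simp; tauto), fun h => ?_⟩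
    have : s(u, x) ∈ ({s(u, y), s(v, x)} : Finset (Sym2 (Fin n))) := by rw [← h]; simp
    simp [d1, d6, d2, d2.symm] at this

lemma TT_le {u v x y : Fin n} (h : Dis u v x y) (f : Omega d → ℝ) (G : Omega d) :
    (f G - f (TT u v x y G)) ^ 2 ≤ (f G - f (mvp {s(u, x), s(v, y)} {s(u, y), s(v, x)} G)) ^ 2
      + (f G - f (mvp {s(v, x), s(u, y)} {s(v, y), s(u, x)} G)) ^ 2 := by
  have h' : Dis v u x y := ⟨h.1.symm, h.2.2.1, h.2.1, h.2.2.2.2.1, h.2.2.2.1, h.2.2.2.2.2⟩
  rw [mvp_eq h, mvp_eq h']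
  have sw : TT v u x y G = TT u v x y G := by
    unfold TT
    have : ca v u G.1 = ca u v G.1 := by funext z; unfold ca; ring
    by_cases c : ca u v G.1 x = ca u v G.1 y
    · rw [dif_pos ⟨h'.1, h'.2.1, h'.2.2.1, h'.2.2.2.1, h'.2.2.2.2.1, by rw [this]; exact c⟩,
        dif_pos ⟨h.1, h.2.1, h.2.2.1, h.2.2.2.1, h.2.2.2.2.1, c⟩]
      apply Subtype.ext; ext p q
      by_cases t : p = u ∨ p = v ∨ q = u ∨ q = v
      · simp only []
        rw [piece_adj_of t, piece_adj_of (by tauto)]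
      · simp only []
        rw [piece_adj_off t, piece_adj_off (by tauto)]
    · rw [dif_neg (fun k => c (by rw [← this]; exact k.2.2.2.2.2)), dif_neg (fun k => c k.2.2.2.2.2)]
  rw [sw]
  split_ifs with c1 c2 c2
  · nlinarith [sq_nonneg (f G - f (TT u v x y G))]
  · simp
  · simp
  · have : TT u v x y G = G := by
      unfold TT; split_ifs with c
      · have k := c.2.2.2.2.2
        have k1 : G.1.Adj u x ↔ G.1.Adj u y := by
          unfold ca adj at k
          simp only [G.1.adj_comm x, G.1.adj_comm y] at k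
          by_cases a1 : G.1.Adj u x <;> by_cases a2 : G.1.Adj u y <;> by_cases a3 : G.1.Adj v x <;>
            by_cases a4 : G.1.Adj v y <;> simp_all
        have k2 : G.1.Adj v x ↔ G.1.Adj v y := by
          unfold ca adj at k
          simp only [G.1.adj_comm x, G.1.adj_comm y] at k
          by_cases a1 : G.1.Adj u x <;> by_cases a2 : G.1.Adj u y <;> by_cases a3 : G.1.Adj v x <;>
            by_cases a4 : G.1.Adj v y <;> simp_all
        apply Subtype.ext; ext p q
        simp only [piece, Equiv.swap_apply_def]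
        have := G.1.adj_comm u x
        have := G.1.adj_comm v y
        have := G.1.adj_comm u y
        have := G.1.adj_comm v x
        unfold Dis at h
        by_cases p1 : p = x <;> by_cases p2 : p = y <;> by_cases q1 : q = x <;>
          by_cases q2 : q = y <;> grind
      · rfl
    simp [this]

lemma KK_gap (hn : 4 ≤ n) (g : Omega d → ℝ) (hg : ∑ G, g G = 0) :
    4 * (1 / (12 * (n.choose 4 : ℝ))) * ∑ G, g G ^ 2 ≤ ∑ G, ∑ H, KK d G H * (g G - g H) ^ 2 := by
  have hb : (0 : ℝ) < n.choose 4 := by exact_mod_cast Nat.choose_pos hn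
  set Φ : Finset (Sym2 (Fin n)) → Finset (Sym2 (Fin n)) → ℝ :=
    fun F F' => ∑ G, (g G - g (mvp F F' G)) ^ 2 with hΦ
  have a1 := fiber_bound Φ fun _ _ => Finset.sum_nonneg fun _ _ => sq_nonneg _
  have a2 := poincare_switch g hg
  have a3 : ∑ G, ∑ H, KK d G H * (g G - g H) ^ 2 = (1 / (6 * (n.choose 4 : ℝ))) *
      ∑ S ∈ Finset.powersetCard 4 (Finset.univ : Finset (Fin n)),
        ∑ p ∈ (perfectMatchings S).offDiag, Φ p.1 p.2 := by
    simp only [KK_sum, ← Finset.mul_sum, hΦ]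
    congr 1
    rw [Finset.sum_comm]
    exact Finset.sum_congr rfl fun S _ => Finset.sum_comm
  have a4 : ∑ u, ∑ v, 4 * EE u v g ≤ ∑ u, ∑ v, ∑ x, ∑ y,
      ((if Dis u v x y then Φ {s(u, x), s(v, y)} {s(u, y), s(v, x)} else 0)
        + (if Dis v u x y then Φ {s(v, x), s(u, y)} {s(v, y), s(u, x)} else 0)) := by
    refine Finset.sum_le_sum fun u _ => Finset.sum_le_sum fun v _ => ?_
    unfold EE
    rw [Finset.mul_sum]
    refine Finset.sum_le_sum fun x _ => ?_
    rw [Finset.mul_sum]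
    refine Finset.sum_le_sum fun y _ => ?_
    by_cases c : Dis u v x y
    · have c' : Dis v u x y := ⟨c.1.symm, c.2.2.1, c.2.1, c.2.2.2.2.1, c.2.2.2.1, c.2.2.2.2.2⟩
      rw [if_pos c, if_pos c, if_pos c', hΦ, ← Finset.sum_add_distrib, Finset.mul_sum]
      exact Finset.sum_le_sum fun G _ => by linarith [TT_le c g G]
    · have c' : ¬ Dis v u x y := fun c' =>
        c ⟨c'.1.symm, c'.2.2.1, c'.2.1, c'.2.2.2.2.1, c'.2.2.2.1, c'.2.2.2.2.2⟩
      rw [if_neg c, if_neg c, if_neg c']; simp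
  simp only [Finset.sum_add_distrib, ← Finset.mul_sum] at a4
  rw [Finset.sum_comm (f := fun u v => ∑ x, ∑ y,
    if Dis v u x y then Φ {s(v, x), s(u, y)} {s(v, y), s(u, x)} else 0)] at a4
  have a5 : ip g g = ∑ G, g G ^ 2 := by simp only [ip, sq]
  rw [a3, ← a5]
  have e : 4 * (1 / (12 * (n.choose 4 : ℝ))) * ip g g
      = (1 / (6 * (n.choose 4 : ℝ))) * (2 * ip g g) := by field_simp; ring
  rw [e]
  exact mul_le_mul_of_nonneg_left (by linarith) (by positivity)

lemma card_Omega_le : Fintype.card (Omega d) ≤ 2 ^ (n * n) := by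
  have : Fintype.card (Omega d) ≤ Fintype.card (Fin n → Fin n → Prop) :=
    Fintype.card_le_of_injective (fun G => G.1.Adj) fun G H h => Subtype.ext (SimpleGraph.ext h)
  simpa [← pow_mul] using this

theorem tv_le (hn : 4 ≤ n) (G : Omega d) : tvDist d (n ^ 6) G ≤ 1 / 4 := by
  have hb : (1 : ℝ) ≤ n.choose 4 := by exact_mod_cast Nat.choose_pos hn
  have hb2 : (n.choose 4 : ℝ) ≤ (n : ℝ) ^ 4 / 24 := by
    have := Nat.choose_le_pow_div (α := ℝ) 4 n
    norm_num [Nat.factorial] at this ⊢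
    exact this
  set γ : ℝ := 1 / (12 * (n.choose 4 : ℝ)) with hγ
  have hγ1 : γ ≤ 1 := by rw [hγ, div_le_one (by positivity)]; linarith
  have h := tv_bound (switchChain d) (KK d) (fun _ _ => rfl) KK_symm KK_nonneg (KK_row hn) γ hγ1
    (KK_gap hn) (n ^ 6) G
  have hn' : (4 : ℝ) ≤ n := by exact_mod_cast hn
  have b1 : (1 - γ) ^ (n ^ 6) ≤ Real.exp (-γ) ^ (n ^ 6) :=
    pow_le_pow_left₀ (by linarith) (by linarith [Real.add_one_le_exp (-γ)]) _
  have b2 : Real.exp (-γ) ^ (n ^ 6) ≤ Real.exp (-1) ^ (2 * (n * n)) := by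
    rw [← Real.exp_nat_mul, ← Real.exp_nat_mul]
    apply Real.exp_le_exp.2
    push_cast
    have : 2 * ((n : ℝ) * n) ≤ (n : ℝ) ^ 6 * γ := by
      rw [hγ, mul_one_div, le_div_iff₀ (by positivity)]
      have : 0 ≤ (n : ℝ) * n := by positivity
      nlinarith
    linarith
  have b3 : Real.exp (-1) ≤ 1 / 2 := by
    rw [Real.exp_neg, one_div]
    exact inv_anti₀ (by norm_num) (by linarith [Real.add_one_le_exp (1 : ℝ)])
  have b4 : Real.exp (-1) ^ (2 * (n * n)) ≤ (1 / 2 : ℝ) ^ (2 * (n * n)) :=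
    pow_le_pow_left₀ (Real.exp_pos _).le b3 _
  have b5 : (Fintype.card (Omega d) : ℝ) ≤ 2 ^ (n * n) := by exact_mod_cast card_Omega_le
  have b6 : (2 : ℝ) ^ (n * n) * (1 / 2 : ℝ) ^ (2 * (n * n)) ≤ (1 / 2) ^ 2 := by
    rw [two_mul, pow_add, ← mul_assoc, ← mul_pow]
    norm_num
    have : (1 / 2 : ℝ) ^ (n * n) ≤ (1 / 2) ^ 2 :=
      pow_le_pow_of_le_one (by norm_num) (by norm_num) (by nlinarith)
    norm_num at this ⊢
    exact this
  have b7 : (Fintype.card (Omega d) : ℝ) * (1 - γ) ^ (n ^ 6) ≤ (1 / 2) ^ 2 :=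
    (mul_le_mul b5 (b1.trans (b2.trans b4)) (pow_nonneg (by linarith) _) (by positivity)).trans b6
  have b8 := abs_le_of_sq_le_sq' (h.trans b7) (by norm_num)
  unfold tvDist
  linarith [b8.2]

theorem mixingTime_le (hn : 4 ≤ n) (d : Fin n → ℕ) : mixingTime d ≤ ((n ^ 6 : ℕ) : ℕ∞) :=
  iInf₂_le (f := fun (t : ℕ) (_ : ∀ G : Omega d, tvDist d t G ≤ 1 / 4) => (t : ℕ∞)) (n ^ 6)
    (fun G => tv_le hn G)

end Vale.Agent.P335
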