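import Mathlib

/-!
A contraction lemma and an explicit coupling between uniform subsets.
-/

set_option linter.unusedSectionVars false
set_option linter.unusedVariables false

namespace Vale.Agent.P335

open Classical Finset

lemma contract {ι : Type*} [Finite ι] (η : ℝ) (hη : 1 < η) (P1 P2 P3 : ι → Prop)
    (u1 u2 u3 : ι → ℝ)
    (h : ∀ a : ℝ, 0 ≤ a → (∀ i, P1 i → u1 i ≤ a) → (∀ i, P2 i → u2 i ≤ a) →
      (∀ i, P3 i → u3 i ≤ a) →
      (∀ i, P1 i → η * u1 i ≤ a) ∧ (∀ i, P2 i → η * u2 i ≤ a) ∧ (∀ i, P3 i → η * u3 i ≤ a)) :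
    (∀ i, P1 i → u1 i ≤ 0) ∧ (∀ i, P2 i → u2 i ≤ 0) ∧ (∀ i, P3 i → u3 i ≤ 0) := by
  rcases isEmpty_or_nonempty ι with hι | hι
  · exact ⟨fun i => isEmptyElim i, fun i => isEmptyElim i, fun i => isEmptyElim i⟩
  let f : ι → ℝ := fun i => max (max (if P1 i then u1 i else 0) (if P2 i then u2 i else 0))
    (max (if P3 i then u3 i else 0) 0)
  obtain ⟨i0, hi0⟩ := Finite.exists_max f
  have b1 : ∀ i, P1 i → u1 i ≤ f i0 := fun i hi => le_trans (by simp [f, hi]) (hi0 i)
  have b2 : ∀ i, P2 i → u2 i ≤ f i0 := fun i hi => le_trans (by simp [f, hi]) (hi0 i)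
  have b3 : ∀ i, P3 i → u3 i ≤ f i0 := fun i hi => le_trans (by simp [f, hi]) (hi0 i)
  have h0 : 0 ≤ f i0 := by simp [f]
  obtain ⟨c1, c2, c3⟩ := h (f i0) h0 b1 b2 b3
  have hle : f i0 ≤ f i0 / η := by
    have hd : 0 ≤ f i0 / η := by positivity
    have aux : ∀ (P : Prop) (u : ℝ), (P → η * u ≤ f i0) → (if P then u else 0) ≤ f i0 / η := by
      intro P u hu
      split_ifs with hP
      · rw [le_div_iff₀ (by linarith)]; linarith [hu hP]
      · exact hd
    exact max_le (max_le (aux _ _ (c1 i0)) (aux _ _ (c2 i0))) (max_le (aux _ _ (c3 i0)) hd)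
  have hz : f i0 ≤ 0 := by
    rw [le_div_iff₀ (by linarith)] at hle
    nlinarith
  exact ⟨fun i hi => (b1 i hi).trans hz, fun i hi => (b2 i hi).trans hz,
    fun i hi => (b3 i hi).trans hz⟩

variable {C : Type*}

lemma sum_pc_insert {s : Finset C} {x : C} (hx : x ∉ s) (k : ℕ) (F : Finset C → ℝ) :
    ∑ U ∈ powersetCard (k + 1) (insert x s), F U
      = ∑ U ∈ powersetCard (k + 1) s, F U + ∑ U ∈ powersetCard k s, F (insert x U) := by
  rw [Finset.powersetCard_succ_insert hx, Finset.sum_union, Finset.sum_image]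
  · intro U hU V hV hUV
    have h1 : x ∉ U := fun h => hx ((Finset.mem_powersetCard.1 hU).1 h)
    have h2 : x ∉ V := fun h => hx ((Finset.mem_powersetCard.1 hV).1 h)
    have := congrArg (fun W => Finset.erase W x) hUV
    simpa [Finset.erase_insert h1, Finset.erase_insert h2] using this
  · rw [Finset.disjoint_left]
    intro U hU hU'
    obtain ⟨V, -, rfl⟩ := Finset.mem_image.1 hU'
    exact hx ((Finset.mem_powersetCard.1 hU).1 (Finset.mem_insert_self _ _))

lemma double_count (s : Finset C) (k : ℕ) (H : Finset C → C → ℝ) :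
    ∑ U ∈ powersetCard k s, ∑ z ∈ s \ U, H U z
      = ∑ W ∈ powersetCard (k + 1) s, ∑ z ∈ W, H (W.erase z) z := by
  rw [Finset.sum_sigma', Finset.sum_sigma']
  refine Finset.sum_nbij' (fun p => ⟨insert p.2 p.1, p.2⟩) (fun p => ⟨p.1.erase p.2, p.2⟩)
    ?_ ?_ ?_ ?_ ?_
  · rintro ⟨U, z⟩ hp
    simp only [Finset.mem_sigma, Finset.mem_powersetCard, Finset.mem_sdiff] at hp ⊢
    refine ⟨⟨Finset.insert_subset hp.2.1 hp.1.1, ?_⟩, Finset.mem_insert_self _ _⟩
    rw [Finset.card_insert_of_notMem hp.2.2, hp.1.2]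
  · rintro ⟨W, z⟩ hp
    simp only [Finset.mem_sigma, Finset.mem_powersetCard, Finset.mem_sdiff] at hp ⊢
    refine ⟨⟨(Finset.erase_subset _ _).trans hp.1.1, ?_⟩, hp.1.1 hp.2, Finset.notMem_erase _ _⟩
    rw [Finset.card_erase_of_mem hp.2, hp.1.2]; rfl
  · rintro ⟨U, z⟩ hp
    simp only [Finset.mem_sigma, Finset.mem_powersetCard, Finset.mem_sdiff] at hp
    simp [Finset.erase_insert hp.2.2]
  · rintro ⟨W, z⟩ hp
    simp only [Finset.mem_sigma] at hp
    simp [Finset.insert_erase hp.2]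
  · rintro ⟨U, z⟩ hp
    simp only [Finset.mem_sigma, Finset.mem_powersetCard, Finset.mem_sdiff] at hp
    simp [Finset.erase_insert hp.2.2]

/-- One sided coupling lemma. -/
lemma couple {s : Finset C} {c c' : C} (hc : c ∉ s) (hc' : c' ∉ s) (hcc : c ≠ c') {k : ℕ}
    (hk : k ≤ s.card) (F F' : Finset C → ℝ)
    (h1 : ∀ U ∈ powersetCard k s, F' (insert c U) ≤ F U)
    (h2 : ∀ U ∈ powersetCard k s, F' (insert c' U) ≤ F U)
    (h3 : ∀ U ∈ powersetCard k s, ∀ z ∈ s \ U, F' (insert z U) ≤ F U)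
    (h4 : ∀ U ∈ powersetCard k s, ∀ z ∈ U, F' (insert c (insert c' (U.erase z))) ≤ F U)
    (h0 : ∑ U ∈ powersetCard k s, F U ≤ 0) :
    ∑ U ∈ powersetCard (k + 1) (insert c (insert c' s)), F' U ≤ 0 := by
  have hc2 : c ∉ insert c' s := by simp [hcc, hc]
  rw [sum_pc_insert hc2, sum_pc_insert hc']
  have a1 : ∑ U ∈ powersetCard k s, F' (insert c U) ≤ 0 := (Finset.sum_le_sum h1).trans h0
  have a2 : ∑ U ∈ powersetCard k s, F' (insert c' U) ≤ 0 := (Finset.sum_le_sum h2).trans h0
  have a3 : ∑ W ∈ powersetCard (k + 1) s, F' W ≤ 0 := by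
    have e := double_count s k (fun U z => F' (insert z U))
    have e2 : ∑ W ∈ powersetCard (k + 1) s, ∑ z ∈ W, F' (insert z (W.erase z))
        = (k + 1 : ℝ) * ∑ W ∈ powersetCard (k + 1) s, F' W := by
      rw [Finset.mul_sum]
      refine Finset.sum_congr rfl fun W hW => ?_
      rw [Finset.sum_congr rfl (fun z hz => by rw [Finset.insert_erase hz])]
      simp [(Finset.mem_powersetCard.1 hW).2]
    have e3 : ∑ U ∈ powersetCard k s, ∑ z ∈ s \ U, F' (insert z U)
        ≤ ((s.card - k : ℕ) : ℝ) * ∑ U ∈ powersetCard k s, F U := by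
      rw [Finset.mul_sum]
      refine Finset.sum_le_sum fun U hU => ?_
      refine (Finset.sum_le_sum (h3 U hU)).trans (le_of_eq ?_)
      obtain ⟨hU1, hU2⟩ := Finset.mem_powersetCard.1 hU
      simp [Finset.card_sdiff_of_subset hU1, hU2]
    have e4 : ((s.card - k : ℕ) : ℝ) * ∑ U ∈ powersetCard k s, F U ≤ 0 :=
      mul_nonpos_of_nonneg_of_nonpos (by positivity) h0
    have e5 : (k + 1 : ℝ) * ∑ W ∈ powersetCard (k + 1) s, F' W ≤ 0 := by linarith
    by_contra hcon
    push Not at hcon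
    have : 0 < (k + 1 : ℝ) * ∑ W ∈ powersetCard (k + 1) s, F' W := by positivity
    linarith
  rcases k with _ | j
  · simp only [Finset.powersetCard_zero, Finset.sum_singleton] at a1 a2 ⊢
    linarith
  · rw [sum_pc_insert hc']
    have a4 : ∑ W ∈ powersetCard j s, F' (insert c (insert c' W)) ≤ 0 := by
      have e := double_count s j (fun U z => F' (insert c (insert c' U)))
      have e2 : ∑ U ∈ powersetCard j s, ∑ z ∈ s \ U, F' (insert c (insert c' U))
          = ((s.card - j : ℕ) : ℝ) * ∑ W ∈ powersetCard j s, F' (insert c (insert c' W)) := by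
        rw [Finset.mul_sum]
        refine Finset.sum_congr rfl fun U hU => ?_
        obtain ⟨hU1, hU2⟩ := Finset.mem_powersetCard.1 hU
        simp [Finset.card_sdiff_of_subset hU1, hU2]
      have e3 : ∑ W ∈ powersetCard (j + 1) s, ∑ z ∈ W, F' (insert c (insert c' (W.erase z)))
          ≤ (j + 1 : ℝ) * ∑ U ∈ powersetCard (j + 1) s, F U := by
        rw [Finset.mul_sum]
        refine Finset.sum_le_sum fun U hU => ?_
        refine (Finset.sum_le_sum (h4 U hU)).trans (le_of_eq ?_)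
        simp [(Finset.mem_powersetCard.1 hU).2]
      have e4 : (j + 1 : ℝ) * ∑ U ∈ powersetCard (j + 1) s, F U ≤ 0 :=
        mul_nonpos_of_nonneg_of_nonpos (by positivity) h0
      by_contra hcon
      push Not at hcon
      have hpos : (0 : ℝ) < ((s.card - j : ℕ) : ℝ) := by
        have : 0 < s.card - j := by omega
        exact_mod_cast this
      have := mul_pos hpos hcon
      linarith
    linarith

end Vale.Agent.P335
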