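import Mathlib

/-!
Definitions for the switch chain on simple graphs with a given degree vector.
-/

namespace Vale.Agent.P335

open Classical

/-- The labeled simple graphs on `Fin n` with degree `d i` at vertex `i`. -/
abbrev Omega {n : ℕ} (d : Fin n → ℕ) : Type :=
  {G : SimpleGraph (Fin n) // ∀ i, (G.neighborSet i).ncard = d i}

/-- The perfect matchings of the complete graph on the vertex set `S`, as sets of edges. -/
noncomputable def perfectMatchings {n : ℕ} (S : Finset (Fin n)) :
    Finset (Finset (Sym2 (Fin n))) :=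
  Finset.univ.filter fun F =>
    (∀ e ∈ F, ¬ e.IsDiag ∧ ∀ v ∈ e, v ∈ S) ∧ ∀ v ∈ S, ∃! e, e ∈ F ∧ v ∈ e

/-- If all edges of `F` are present in `G` and all edges of `F'` are absent, replace `F` by `F'`;
otherwise stay put. -/
noncomputable def switchMove {n : ℕ} (G : SimpleGraph (Fin n))
    (F F' : Finset (Sym2 (Fin n))) : SimpleGraph (Fin n) :=
  if (∀ e ∈ F, e ∈ G.edgeSet) ∧ (∀ e ∈ F', e ∉ G.edgeSet) then
    SimpleGraph.fromEdgeSet ((G.edgeSet \ (F : Set (Sym2 (Fin n)))) ∪ (F' : Set (Sym2 (Fin n))))
  else G

/-- The transition matrix of the switch chain: with probability `1/2` stay put; otherwise choose a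
uniform 4-element set `S`, then one of the six ordered pairs of distinct perfect matchings of the
complete graph on `S` uniformly, and apply `switchMove`. -/
noncomputable def switchChain {n : ℕ} (d : Fin n → ℕ) : Matrix (Omega d) (Omega d) ℝ :=
  Matrix.of fun G H =>
    (1 / 2) * (if G = H then 1 else 0) +
      (1 / 2) * ∑ S ∈ Finset.powersetCard 4 (Finset.univ : Finset (Fin n)),
        (1 / (n.choose 4 : ℝ)) * ∑ p ∈ (perfectMatchings S).offDiag,
          (1 / 6) * (if switchMove G.1 p.1 p.2 = H.1 then 1 else 0)

/-- Total variation distance between the law after `t` steps from `G` and the uniform law. -/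
noncomputable def tvDist {n : ℕ} (d : Fin n → ℕ) (t : ℕ) (G : Omega d) : ℝ :=
  (1 / 2) * ∑ H : Omega d, |(switchChain d ^ t) G H - 1 / (Fintype.card (Omega d) : ℝ)|

/-- The mixing time: the least `t` with total variation distance at most `1/4` from every start
(`⊤` if there is no such `t`). -/
noncomputable def mixingTime {n : ℕ} (d : Fin n → ℕ) : ℕ∞ :=
  ⨅ (t : ℕ) (_ : ∀ G : Omega d, tvDist d t G ≤ 1 / 4), (t : ℕ∞)

end Vale.Agent.P335
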