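import Vale.Agent.P335.Johnson

/-!
Trade classes of graphs with a fixed degree vector.
-/

set_option linter.unusedSectionVars false
set_option linter.unusedVariables false

namespace Vale.Agent.P335

open Classical Finset

variable {V : Type*} [Fintype V]

/-- graphs with degree vector `d` -/
abbrev Om (d : V → ℕ) : Type _ := {G : SimpleGraph V // ∀ i, (G.neighborSet i).ncard = d i}

/-- adjacency indicator -/
noncomputable def adj (G : SimpleGraph V) (p q : V) : ℕ := if G.Adj p q then 1 else 0

lemma adj_comm (G : SimpleGraph V) (p q : V) : adj G p q = adj G q p := by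
  simp only [adj, G.adj_comm]

lemma adj_self (G : SimpleGraph V) (p : V) : adj G p p = 0 := by simp [adj]

lemma adj_le (G : SimpleGraph V) (p q : V) : adj G p q ≤ 1 := by unfold adj; split_ifs <;> simp

lemma adj_eq_one {G : SimpleGraph V} {p q : V} : adj G p q = 1 ↔ G.Adj p q := by
  unfold adj; split_ifs <;> simp [*]

lemma adj_eq_zero {G : SimpleGraph V} {p q : V} : adj G p q = 0 ↔ ¬ G.Adj p q := by
  unfold adj; split_ifs <;> simp [*]

lemma adj_eq_iff {G H : SimpleGraph V} {p q p' q' : V} :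
    adj G p q = adj H p' q' ↔ (G.Adj p q ↔ H.Adj p' q') := by
  unfold adj; split_ifs <;> simp [*]

lemma ncard_eq_sum (G : SimpleGraph V) (i : V) : (G.neighborSet i).ncard = ∑ w, adj G i w := by
  rw [Set.ncard_eq_toFinset_card', Finset.card_eq_sum_ones]
  simp only [adj]
  rw [← Finset.sum_filter]
  congr 1
  ext w; simp

variable {d : V → ℕ}

lemma Om.deg (G : Om d) (i : V) : ∑ w, adj G.1 i w = d i := by rw [← ncard_eq_sum]; exact G.2 i

lemma sum_split2 {u v : V} (h : u ≠ v) (F G : V → ℕ) (hFG : ∀ w, w ≠ u → w ≠ v → F w = G w) :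
    ∑ w, F w + (G u + G v) = ∑ w, G w + (F u + F v) := by
  have key : ∀ F : V → ℕ, ∑ w, F w = F u + F v + ∑ w ∈ (univ.erase u).erase v, F w := by
    intro F
    rw [← Finset.add_sum_erase _ _ (mem_univ u),
      ← Finset.add_sum_erase (univ.erase u) _ (Finset.mem_erase.2 ⟨h.symm, mem_univ v⟩)]
    ring
  rw [key F, key G, Finset.sum_congr rfl (fun w hw => hFG w
    (Finset.mem_erase.1 (Finset.mem_erase.1 hw).2).1 (Finset.mem_erase.1 hw).1)]
  ring

/-- the part of a graph away from `u` and `v` -/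
def off (u v : V) (G : Om d) : V → V → Prop :=
  fun p q => p ≠ u ∧ p ≠ v ∧ q ≠ u ∧ q ≠ v ∧ G.1.Adj p q

lemma off_iff {u v : V} {G H : Om d} : off u v G = off u v H ↔
    ∀ p q, p ≠ u → p ≠ v → q ≠ u → q ≠ v → (G.1.Adj p q ↔ H.1.Adj p q) := by
  constructor
  · intro h p q h1 h2 h3 h4
    have := congrFun (congrFun h p) q
    simpa [off, h1, h2, h3, h4] using this
  · intro h; funext p q
    apply propext; unfold off
    constructor
    · rintro ⟨h1, h2, h3, h4, h5⟩; exact ⟨h1, h2, h3, h4, (h p q h1 h2 h3 h4).1 h5⟩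
    · rintro ⟨h1, h2, h3, h4, h5⟩; exact ⟨h1, h2, h3, h4, (h p q h1 h2 h3 h4).2 h5⟩

lemma off_comm (u v : V) : (off u v : Om d → _) = off v u := by
  funext G p q; apply propext; unfold off; tauto

/-- number of neighbours among `u`, `v` -/
noncomputable def ca (u v : V) (G : SimpleGraph V) (z : V) : ℕ := adj G z u + adj G z v

lemma ca_eq {u v : V} (huv : u ≠ v) {G H : Om d} (h : off u v G = off u v H) {z : V} (h1 : z ≠ u)
    (h2 : z ≠ v) : ca u v G.1 z = ca u v H.1 z := by
  have := sum_split2 huv (adj G.1 z) (adj H.1 z)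
    (fun w a b => adj_eq_iff.2 (off_iff.1 h z w h1 h2 a b))
  rw [G.deg, H.deg] at this
  unfold ca; omega

lemma uv_eq {u v : V} (huv : u ≠ v) {G H : Om d} (h : off u v G = off u v H) :
    adj G.1 u v = adj H.1 u v := by
  have := sum_split2 huv (ca u v G.1) (ca u v H.1) (fun w a b => ca_eq huv h a b)
  have e : ∀ G : Om d, ∑ w, ca u v G.1 w = d u + d v := by
    intro G
    simp only [ca, Finset.sum_add_distrib, adj_comm G.1 _ u, adj_comm G.1 _ v, G.deg]
  rw [e, e] at this
  simp only [ca, adj_self, adj_comm _ v u] at this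
  omega

/-- edges at `u`, `v` from `H` (relabelled), the other edges from `G` -/
def piece (u v : V) (π : Equiv.Perm V) (G H : SimpleGraph V) : SimpleGraph V where
  Adj p q := if p = u ∨ p = v ∨ q = u ∨ q = v then H.Adj (π p) (π q) else G.Adj p q
  symm := ⟨fun p q h => by
    by_cases c : p = u ∨ p = v ∨ q = u ∨ q = v
    · have c' : q = u ∨ q = v ∨ p = u ∨ p = v := by tauto
      rw [if_pos c] at h; rw [if_pos c']; exact h.symm
    · have c' : ¬ (q = u ∨ q = v ∨ p = u ∨ p = v) := by tauto
      rw [if_neg c] at h; rw [if_neg c']; exact h.symm⟩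
  loopless := ⟨fun p h => by split_ifs at h <;> exact SimpleGraph.irrefl _ h⟩

lemma piece_adj_of {u v : V} {π : Equiv.Perm V} {G H : SimpleGraph V} {p q : V}
    (h : p = u ∨ p = v ∨ q = u ∨ q = v) : (piece u v π G H).Adj p q ↔ H.Adj (π p) (π q) := by
  simp only [piece]; rw [if_pos h]

lemma piece_adj_off {u v : V} {π : Equiv.Perm V} {G H : SimpleGraph V} {p q : V}
    (h : ¬ (p = u ∨ p = v ∨ q = u ∨ q = v)) : (piece u v π G H).Adj p q ↔ G.Adj p q := by
  simp only [piece]; rw [if_neg h]

lemma piece_deg {u v : V} (huv : u ≠ v) {π : Equiv.Perm V} (hu : π u = u) (hv : π v = v)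
    (G H : Om d) (h : ∀ z, z ≠ u → z ≠ v → ca u v H.1 (π z) = ca u v G.1 z) (i : V) :
    ((piece u v π G.1 H.1).neighborSet i).ncard = d i := by
  rw [ncard_eq_sum]
  by_cases hi : i = u ∨ i = v
  · have hπ : π i = i := by rcases hi with rfl | rfl <;> assumption
    rw [← H.deg i, ← Equiv.sum_comp π (adj H.1 i)]
    refine Finset.sum_congr rfl fun w _ => adj_eq_iff.2 ?_
    rw [piece_adj_of (by tauto), hπ]
  · push Not at hi
    have := sum_split2 huv (adj (piece u v π G.1 H.1) i) (adj G.1 i) (fun w a b =>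
      adj_eq_iff.2 (piece_adj_off (by tauto)))
    rw [G.deg] at this
    have e1 : adj (piece u v π G.1 H.1) i u = adj H.1 (π i) u :=
      adj_eq_iff.2 (by rw [piece_adj_of (by tauto), hu])
    have e2 : adj (piece u v π G.1 H.1) i v = adj H.1 (π i) v :=
      adj_eq_iff.2 (by rw [piece_adj_of (by tauto), hv])
    have e3 := h i hi.1 hi.2
    unfold ca at e3
    omega

/-- exchange the columns `y`, `z` in the rows `u`, `v` when this preserves the degrees -/
noncomputable def TT (u v y z : V) (G : Om d) : Om d :=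
  if h : u ≠ v ∧ y ≠ u ∧ y ≠ v ∧ z ≠ u ∧ z ≠ v ∧ ca u v G.1 y = ca u v G.1 z then
    ⟨piece u v (Equiv.swap y z) G.1 G.1, piece_deg h.1
      (Equiv.swap_apply_of_ne_of_ne h.2.1.symm h.2.2.2.1.symm)
      (Equiv.swap_apply_of_ne_of_ne h.2.2.1.symm h.2.2.2.2.1.symm) G G (fun w _ _ => by
        rw [Equiv.swap_apply_def]; split_ifs with h1 h2
        · rw [h1, h.2.2.2.2.2]
        · rw [h2, h.2.2.2.2.2]
        · rfl)⟩
  else G

lemma TT_off (u v y z : V) (G : Om d) : off u v (TT u v y z G) = off u v G := by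
  unfold TT; split_ifs with h
  · exact off_iff.2 fun p q _ _ _ _ => piece_adj_off (by tauto)
  · rfl

lemma TT_off' (u v y z : V) (G : Om d) : off y z (TT u v y z G) = off y z G := by
  unfold TT; split_ifs with h
  · refine off_iff.2 fun p q h1 h2 h3 h4 => ?_
    by_cases c : p = u ∨ p = v ∨ q = u ∨ q = v
    · simp only []
      rw [piece_adj_of c, Equiv.swap_apply_of_ne_of_ne h1 h2, Equiv.swap_apply_of_ne_of_ne h3 h4]
    · exact piece_adj_off c
  · rfl

/-- active columns -/
noncomputable def actv (u v : V) (G : Om d) : Finset V :=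
  univ.filter fun x => x ≠ u ∧ x ≠ v ∧ ca u v G.1 x = 1

lemma mem_actv {u v x : V} {G : Om d} : x ∈ actv u v G ↔ x ≠ u ∧ x ≠ v ∧ ca u v G.1 x = 1 := by
  simp [actv]

variable [Fintype (Om d)]

lemma nonactive {u v : V} (huv : u ≠ v) {G s s' : Om d} (hs : off u v s = off u v G)
    (hs' : off u v s' = off u v G) {x : V} (hx : x ∉ actv u v G) :
    adj s.1 x u = adj s'.1 x u := by
  by_cases h1 : x = u
  · rw [h1, adj_self, adj_self]
  by_cases h2 : x = v
  · rw [h2, adj_comm, adj_comm s'.1]; exact uv_eq huv (hs.trans hs'.symm)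
  have e1 := ca_eq huv hs h1 h2
  have e2 := ca_eq huv hs' h1 h2
  rw [mem_actv] at hx
  have : ca u v G.1 x ≠ 1 := fun h => hx ⟨h1, h2, h⟩
  have := adj_le s.1 x u
  have := adj_le s.1 x v
  have := adj_le s'.1 x u
  have := adj_le s'.1 x v
  unfold ca at *
  omega

theorem js_class {u v : V} (huv : u ≠ v) (G : Om d) :
    JS (cell (off u v) G) (actv u v G) (fun s x => (adj s.1 x u : ℝ)) (TT u v) := by
  refine ⟨?_, ?_, ?_, ?_, ?_⟩
  · intro s _ x _; unfold adj; split_ifs <;> simp
  · intro y _ z _ s hs; rw [mem_cell, TT_off]; exact mem_cell.1 hs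
  · intro y hy z hz s hs x hx
    obtain ⟨y1, y2, y3⟩ := mem_actv.1 hy
    obtain ⟨z1, z2, z3⟩ := mem_actv.1 hz
    have hs := mem_cell.1 hs
    have c : u ≠ v ∧ y ≠ u ∧ y ≠ v ∧ z ≠ u ∧ z ≠ v ∧ ca u v s.1 y = ca u v s.1 z :=
      ⟨huv, y1, y2, z1, z2, by rw [ca_eq huv hs y1 y2, ca_eq huv hs z1 z2, y3, z3]⟩
    unfold TT; rw [dif_pos c]
    congr 1
    refine adj_eq_iff.2 ?_
    simp only []
    rw [piece_adj_of (by tauto), Equiv.swap_apply_of_ne_of_ne y1.symm z1.symm]
  · intro s hs s' hs' h
    have hs := mem_cell.1 hs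
    have hs' := mem_cell.1 hs'
    have a1 : ∀ x, adj s.1 x u = adj s'.1 x u := by
      intro x
      by_cases hx : x ∈ actv u v G
      · exact_mod_cast h x hx
      · exact nonactive huv hs hs' hx
    have a2 : ∀ x, adj s.1 x v = adj s'.1 x v := by
      intro x
      by_cases h1 : x = u
      · rw [h1]; exact uv_eq huv (hs.trans hs'.symm)
      by_cases h2 : x = v
      · rw [h2, adj_self, adj_self]
      have := ca_eq huv (hs.trans hs'.symm) h1 h2
      have := a1 x
      unfold ca at *; omega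
    apply Subtype.ext
    ext p q
    by_cases h1 : p = u
    · rw [h1, s.1.adj_comm, s'.1.adj_comm]; exact adj_eq_iff.1 (a1 q)
    by_cases h2 : p = v
    · rw [h2, s.1.adj_comm, s'.1.adj_comm]; exact adj_eq_iff.1 (a2 q)
    by_cases h3 : q = u
    · rw [h3]; exact adj_eq_iff.1 (a1 p)
    by_cases h4 : q = v
    · rw [h4]; exact adj_eq_iff.1 (a2 p)
    exact off_iff.1 (hs.trans hs'.symm) p q h1 h2 h3 h4
  · intro s hs s' hs'
    have hs := mem_cell.1 hs
    have hs' := mem_cell.1 hs'
    have e : ∀ s : Om d, ∑ x ∈ actv u v G, adj s.1 x u + ∑ x ∈ (actv u v G)ᶜ, adj s.1 x u = d u := by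
      intro s
      rw [Finset.sum_add_sum_compl, ← s.deg u]
      exact Finset.sum_congr rfl fun x _ => adj_comm _ _ _
    have e1 := e s
    have e2 := e s'
    rw [Finset.sum_congr rfl (fun x hx => nonactive huv hs hs' (Finset.mem_compl.1 hx))] at e1
    have : ∑ x ∈ actv u v G, adj s.1 x u = ∑ x ∈ actv u v G, adj s'.1 x u := by omega
    exact_mod_cast this

lemma sum_le_of_cell {X κ : Type*} [Fintype X] (l : X → κ) (F G : X → ℝ)
    (h : ∀ x, ∑ y ∈ cell l x, F y ≤ ∑ y ∈ cell l x, G y) : ∑ x, F x ≤ ∑ x, G x := by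
  rw [sum_eq_sum_cell l F, sum_eq_sum_cell l G]
  exact Finset.sum_le_sum fun x _ => div_le_div_of_nonneg_right (h x) (card_cell_pos l x).le

/-- the projection onto functions with zero average on each trade class -/
noncomputable def QQ (u v : V) : (Om d → ℝ) →ₗ[ℝ] (Om d → ℝ) := LinearMap.id - avg (off u v)

lemma QQ_apply (u v : V) (f : Om d → ℝ) : QQ u v f = f - avg (off u v) f := rfl

lemma QQ_TT (u v y z : V) (f : Om d → ℝ) (s : Om d) :
    QQ u v f s - QQ u v f (TT u v y z s) = f s - f (TT u v y z s) := by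
  simp only [QQ_apply, Pi.sub_apply]
  rw [avg_inv (off u v) f _ _ (TT_off u v y z s)]; ring

lemma ee_le (u v : V) (f : Om d → ℝ) (G : Om d) :
    ∑ y ∈ actv u v G, ∑ z ∈ actv u v G, JS.ee (cell (off u v) G) (TT u v) (QQ u v f) y z
      ≤ ∑ s ∈ cell (off u v) G, ∑ y, ∑ z,
        if y ≠ u ∧ y ≠ v ∧ z ≠ u ∧ z ≠ v ∧ y ≠ z then (f s - f (TT u v y z s)) ^ 2 / 4 else 0 := by
  rw [Finset.sum_comm (s := cell (off u v) G)]
  refine le_trans (Finset.sum_le_sum fun y hy => ?_)
    (Finset.sum_le_sum_of_subset_of_nonneg (Finset.subset_univ (actv u v G)) fun y _ _ =>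
      Finset.sum_nonneg fun _ _ => Finset.sum_nonneg fun _ _ => by split_ifs <;> positivity)
  rw [Finset.sum_comm (s := cell (off u v) G)]
  refine le_trans (Finset.sum_le_sum fun z hz => ?_)
    (Finset.sum_le_sum_of_subset_of_nonneg (Finset.subset_univ (actv u v G)) fun y _ _ =>
      Finset.sum_nonneg fun _ _ => by split_ifs <;> positivity)
  obtain ⟨y1, y2, y3⟩ := mem_actv.1 hy
  obtain ⟨z1, z2, z3⟩ := mem_actv.1 hz
  unfold JS.ee
  refine Finset.sum_le_sum fun s hs => ?_
  rw [QQ_TT]
  by_cases hyz : y = z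
  · subst hyz
    have : TT u v y y s = s := by
      unfold TT; split_ifs with h
      · apply Subtype.ext; ext p q; simp [piece]
      · rfl
    simp [this]
  · rw [if_pos ⟨y1, y2, z1, z2, hyz⟩]

/-- comparison of the heat bath with switches -/
theorem QQ_le {u v : V} (huv : u ≠ v) (f : Om d → ℝ) :
    2 * ip (QQ u v f) (QQ u v f) ≤ ∑ s, ∑ y, ∑ z,
      if y ≠ u ∧ y ≠ v ∧ z ≠ u ∧ z ≠ v ∧ y ≠ z then (f s - f (TT u v y z s)) ^ 2 / 4 else 0 := by
  unfold ip
  rw [Finset.mul_sum]
  refine sum_le_of_cell (off u v) _ _ fun G => ?_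
  have h1 := JS.poincare _ _ (js_class huv G) (QQ u v f) (sum_cell_sub_avg _ f G)
  have h2 := ee_le u v f G
  rw [← Finset.mul_sum]
  simp only [← sq]
  linarith

/-- connectivity under trades -/
theorem const_of_inv (f : Om d → ℝ) (hf : ∀ u v, u ≠ v → Inv (off u v) f) (G H : Om d) :
    f G = f H := by
  have key : ∀ W : Finset V, ∀ G H : Om d,
      (∀ p q, p ∉ W → (G.1.Adj p q ↔ H.1.Adj p q)) → f G = f H := by
    intro W
    induction W using Finset.induction_on with
    | empty =>
      intro G H h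
      congr 1; apply Subtype.ext; ext p q; exact h p q (by simp)
    | insert v W hv ih =>
      have step : ∀ G H : Om d, (∀ p q, p ∉ insert v W → (G.1.Adj p q ↔ H.1.Adj p q)) →
          ∀ x y, G.1.Adj v x → ¬ H.1.Adj v x → ¬ G.1.Adj v y → H.1.Adj v y →
          ∑ w ∈ insert v W, adj G.1 x w ≤ ∑ w ∈ insert v W, adj G.1 y w →
          ∃ G' : Om d, f G' = f G ∧ (∀ p q, p ∉ insert v W → (G'.1.Adj p q ↔ G.1.Adj p q)) ∧
            ∀ q, G'.1.Adj v q ↔ G.1.Adj v (Equiv.swap x y q) := by
        intro G H h x y a1 a2 a3 a4 hle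
        have hxy : x ≠ y := by rintro rfl; exact a3 a1
        have hvx : v ≠ x := G.1.ne_of_adj a1
        have hvy : v ≠ y := H.1.ne_of_adj a4
        have hxW : x ∈ insert v W := by
          by_contra hc; exact a2 ((h x v hc).1 a1.symm).symm
        have hyW : y ∈ insert v W := by
          by_contra hc; exact a3 ((h y v hc).2 a4.symm).symm
        obtain ⟨z, hz, z1, z2, z3⟩ : ∃ z ∈ insert v W, z ≠ x ∧ G.1.Adj y z ∧ ¬ G.1.Adj x z := by
          by_contra hc
          push Not at hc
          have hlt : ∑ w ∈ insert v W, adj G.1 y (Equiv.swap x y w)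
              < ∑ w ∈ insert v W, adj G.1 x w := by
            refine Finset.sum_lt_sum (fun w hw => ?_) ⟨v, Finset.mem_insert_self _ _, ?_⟩
            · rw [Equiv.swap_apply_def]; split_ifs with h1 h2
              · simp [adj_self]
              · rw [h2, adj_comm]
              · by_cases h3 : G.1.Adj y w
                · rw [adj_eq_one.2 (hc w hw h1 h3)]; exact adj_le _ _ _
                · simp [adj_eq_zero.2 h3]
            · rw [Equiv.swap_apply_of_ne_of_ne hvx hvy, adj_eq_zero.2 (fun h => a3 h.symm),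
                adj_eq_one.2 a1.symm]; norm_num
          have heq : ∑ w ∈ insert v W, adj G.1 y (Equiv.swap x y w)
              = ∑ w ∈ insert v W, adj G.1 y w :=
            Finset.sum_nbij' (Equiv.swap x y) (Equiv.swap x y)
              (fun w hw => swap_mem hw hxW hyW) (fun w hw => swap_mem hw hxW hyW)
              (fun w _ => by simp) (fun w _ => by simp) (fun _ _ => rfl)
          omega
        have hzy : z ≠ y := (G.1.ne_of_adj z2).symm
        have hzv : v ≠ z := by rintro rfl; exact a3 z2.symm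
        have c : v ≠ z ∧ x ≠ v ∧ x ≠ z ∧ y ≠ v ∧ y ≠ z ∧ ca v z G.1 x = ca v z G.1 y := by
          refine ⟨hzv, hvx.symm, z1.symm, hvy.symm, hzy.symm, ?_⟩
          unfold ca
          rw [adj_eq_one.2 a1.symm, adj_eq_zero.2 z3, adj_eq_zero.2 (fun h => a3 h.symm),
            adj_eq_one.2 z2]
        refine ⟨TT v z x y G, hf v z hzv _ _ (TT_off _ _ _ _ _), fun p q hp => ?_, fun q => ?_⟩
        · have p1 : p ≠ v := by rintro rfl; exact hp (Finset.mem_insert_self _ _)
          have p2 : p ≠ z := by rintro rfl; exact hp hz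
          have p3 : p ≠ x := by rintro rfl; exact hp hxW
          have p4 : p ≠ y := by rintro rfl; exact hp hyW
          by_cases hq : q = v ∨ q = z
          · have q1 : q ≠ x := by rintro rfl; rcases hq with h | h; exacts [hvx h.symm, z1 h.symm]
            have q2 : q ≠ y := by rintro rfl; rcases hq with h | h; exacts [hvy h.symm, hzy h.symm]
            exact off_iff.1 (TT_off' v z x y G) p q p3 p4 q1 q2
          · push Not at hq
            exact off_iff.1 (TT_off v z x y G) p q p1 p2 hq.1 hq.2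
        · unfold TT; rw [dif_pos c]
          simp only []
          rw [piece_adj_of (by tauto), Equiv.swap_apply_of_ne_of_ne hvx hvy]
      intro G H h
      generalize hn : (univ.filter fun q => ¬ (G.1.Adj v q ↔ H.1.Adj v q)).card = N
      induction N using Nat.strong_induction_on generalizing G H with
      | _ N ihN =>
      by_cases hall : ∀ q, G.1.Adj v q ↔ H.1.Adj v q
      · refine ih G H fun p q hp => ?_
        by_cases hpv : p = v
        · rw [hpv]; exact hall q
        · exact h p q (by simp [hpv, hp])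
      have hex : ∀ G H : Om d, (¬ ∀ q, G.1.Adj v q ↔ H.1.Adj v q) →
          ∃ x, G.1.Adj v x ∧ ¬ H.1.Adj v x := by
        intro G H hne
        by_contra hc
        push Not at hc hne
        obtain ⟨q, hq⟩ := hne
        have hlt : ∑ w, adj G.1 v w < ∑ w, adj H.1 v w := by
          refine Finset.sum_lt_sum (fun w _ => ?_) ⟨q, mem_univ _, ?_⟩
          · by_cases h3 : G.1.Adj v w
            · rw [adj_eq_one.2 (hc w h3)]; exact adj_le _ _ _
            · simp [adj_eq_zero.2 h3]
          · have h1 : ¬ G.1.Adj v q := fun h => by have := hc q h; tauto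
            have h2 : H.1.Adj v q := by tauto
            rw [adj_eq_zero.2 h1, adj_eq_one.2 h2]; norm_num
        rw [G.deg, H.deg] at hlt
        exact lt_irrefl _ hlt
      obtain ⟨x, a1, a2⟩ := hex G H hall
      obtain ⟨y, a4, a3⟩ := hex H G (fun h => hall fun q => (h q).symm)
      have hres : ∀ p ∈ insert v W, ∑ w ∈ insert v W, adj G.1 p w = ∑ w ∈ insert v W, adj H.1 p w := by
        intro p _
        have e1 := Finset.sum_add_sum_compl (insert v W) (adj G.1 p)
        have e2 := Finset.sum_add_sum_compl (insert v W) (adj H.1 p)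
        rw [G.deg] at e1
        rw [H.deg] at e2
        have e3 : ∑ w ∈ (insert v W)ᶜ, adj G.1 p w = ∑ w ∈ (insert v W)ᶜ, adj H.1 p w :=
          Finset.sum_congr rfl (fun w hw => by
            rw [adj_comm, adj_comm H.1]; exact adj_eq_iff.2 (h w p (Finset.mem_compl.1 hw)))
        omega
      have hxW : x ∈ insert v W := by
        by_contra hc; exact a2 ((h x v hc).1 a1.symm).symm
      have hyW : y ∈ insert v W := by
        by_contra hc; exact a3 ((h y v hc).2 a4.symm).symm
      have hdec : ∀ G H G' : Om d, ∀ x y, G.1.Adj v x → ¬ H.1.Adj v x → ¬ G.1.Adj v y →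
          H.1.Adj v y → (∀ q, G'.1.Adj v q ↔ G.1.Adj v (Equiv.swap x y q)) →
          (univ.filter fun q => ¬ (G'.1.Adj v q ↔ H.1.Adj v q))
            ⊂ (univ.filter fun q => ¬ (G.1.Adj v q ↔ H.1.Adj v q)) := by
        intro G H G' x y a1 a2 a3 a4 hq
        rw [Finset.ssubset_iff_of_subset]
        · refine ⟨x, by simp [a1, a2], ?_⟩
          simp [hq, a2, a3]
        · intro q
          simp only [Finset.mem_filter, mem_univ, true_and, hq, Equiv.swap_apply_def]
          split_ifs with h1 h2
          · subst h1; tauto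
          · subst h2; tauto
          · exact id
      rcases le_total (∑ w ∈ insert v W, adj G.1 x w) (∑ w ∈ insert v W, adj G.1 y w) with hle | hle
      · obtain ⟨G', g1, g2, g3⟩ := step G H h x y a1 a2 a3 a4 hle
        rw [← g1]
        refine ihN _ ?_ G' H (fun p q hp => (g2 p q hp).trans (h p q hp)) rfl
        rw [← hn]; exact Finset.card_lt_card (hdec G H G' x y a1 a2 a3 a4 g3)
      · rw [hres x hxW, hres y hyW] at hle
        obtain ⟨H', g1, g2, g3⟩ := step H G (fun p q hp => (h p q hp).symm) y x a4 a3 a2 a1 hle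
        rw [← g1]
        refine ihN _ ?_ G H' (fun p q hp => (h p q hp).trans (g2 p q hp).symm) rfl
        rw [← hn]
        have := Finset.card_lt_card (hdec H G H' y x a4 a3 a2 a1 g3)
        simpa only [iff_comm] using this
  exact key univ G H fun p q hp => absurd (mem_univ p) hp

end Vale.Agent.P335
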