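import Vale.Agent.P335.Basic

/-!
Two inequalities on an abstract Johnson scheme: a finite set `K` of states, each with a
zero-one vector on `A` of constant weight, on which the transpositions of `A` act.
-/

set_option linter.unusedSectionVars false
set_option linter.unusedVariables false

namespace Vale.Agent.P335

open Classical Finset

variable {X I : Type*}

/-- Abstract Johnson scheme. -/
structure JS (K : Finset X) (A : Finset I) (n : X → I → ℝ) (T : I → I → X → X) : Prop where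
  bin : ∀ s ∈ K, ∀ x ∈ A, n s x = 0 ∨ n s x = 1
  memT : ∀ y ∈ A, ∀ z ∈ A, ∀ s ∈ K, T y z s ∈ K
  nT : ∀ y ∈ A, ∀ z ∈ A, ∀ s ∈ K, ∀ x ∈ A, n (T y z s) x = n s (Equiv.swap y z x)
  inj : ∀ s ∈ K, ∀ s' ∈ K, (∀ x ∈ A, n s x = n s' x) → s = s'
  sum : ∀ s ∈ K, ∀ s' ∈ K, ∑ x ∈ A, n s x = ∑ x ∈ A, n s' x

lemma swap_mem {A : Finset I} {x y z : I} (hx : x ∈ A) (hy : y ∈ A) (hz : z ∈ A) :
    Equiv.swap y z x ∈ A := by
  rw [Equiv.swap_apply_def]; split_ifs <;> assumption

lemma lagrange (s : Finset I) (a : I → ℝ) :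
    ∑ y ∈ s, ∑ z ∈ s, (a y - a z) ^ 2 = 2 * s.card * ∑ y ∈ s, a y ^ 2 - 2 * (∑ y ∈ s, a y) ^ 2 := by
  have : ∀ y, ∑ z ∈ s, (a y - a z) ^ 2
      = s.card * a y ^ 2 - 2 * a y * ∑ z ∈ s, a z + ∑ z ∈ s, a z ^ 2 := by
    intro y
    rw [Finset.mul_sum, ← nsmul_eq_mul, ← Finset.sum_const, ← Finset.sum_sub_distrib,
      ← Finset.sum_add_distrib]
    exact Finset.sum_congr rfl fun z _ => by ring
  simp only [this, Finset.sum_add_distrib, Finset.sum_sub_distrib, Finset.sum_const, nsmul_eq_mul,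
    ← Finset.mul_sum, ← Finset.sum_mul]
  ring

namespace JS
variable {K : Finset X} {A : Finset I} {n : X → I → ℝ} {T : I → I → X → X}

lemma TT (h : JS K A n T) {y z : I} (hy : y ∈ A) (hz : z ∈ A) {s : X} (hs : s ∈ K) :
    T y z (T y z s) = s := by
  refine h.inj _ (h.memT y hy z hz _ (h.memT y hy z hz s hs)) _ hs fun x hx => ?_
  rw [h.nT y hy z hz _ (h.memT y hy z hz s hs) x hx, h.nT y hy z hz s hs _ (swap_mem hx hy hz),
    Equiv.swap_apply_self]

lemma T_comm (h : JS K A n T) {y z : I} (hy : y ∈ A) (hz : z ∈ A) {s : X} (hs : s ∈ K) :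
    T y z s = T z y s := by
  refine h.inj _ (h.memT y hy z hz s hs) _ (h.memT z hz y hy s hs) fun x hx => ?_
  rw [h.nT y hy z hz s hs x hx, h.nT z hz y hy s hs x hx, Equiv.swap_comm]

lemma T_self (h : JS K A n T) {y : I} (hy : y ∈ A) {s : X} (hs : s ∈ K) : T y y s = s := by
  refine h.inj _ (h.memT y hy y hy s hs) _ hs fun x hx => ?_
  rw [h.nT y hy y hy s hs x hx, Equiv.swap_self, Equiv.refl_apply]

lemma sum_T (h : JS K A n T) {y z : I} (hy : y ∈ A) (hz : z ∈ A) (F : X → ℝ) :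
    ∑ s ∈ K, F (T y z s) = ∑ s ∈ K, F s :=
  Finset.sum_nbij' (T y z) (T y z) (fun s hs => h.memT y hy z hz s hs)
    (fun s hs => h.memT y hy z hz s hs) (fun s hs => h.TT hy hz hs) (fun s hs => h.TT hy hz hs)
    (fun _ _ => rfl)

/-- number of states separating `y` and `z` -/
noncomputable def DD (K : Finset X) (n : X → I → ℝ) (y z : I) : ℝ := ∑ s ∈ K, (n s y - n s z) ^ 2

/-- energy of a transposition -/
noncomputable def ee (K : Finset X) (T : I → I → X → X) (g : X → ℝ) (y z : I) : ℝ :=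
  ∑ s ∈ K, (g s - g (T y z s)) ^ 2 / 4

lemma ee_nonneg (g : X → ℝ) (y z : I) : 0 ≤ ee K T g y z :=
  Finset.sum_nonneg fun _ _ => by positivity

lemma DD_nonneg (y z : I) : 0 ≤ DD K n y z := Finset.sum_nonneg fun _ _ => by positivity

lemma ee_self (h : JS K A n T) (g : X → ℝ) {y : I} (hy : y ∈ A) : ee K T g y y = 0 :=
  Finset.sum_eq_zero fun s hs => by rw [h.T_self hy hs]; simp

lemma ee_comm (h : JS K A n T) (g : X → ℝ) {y z : I} (hy : y ∈ A) (hz : z ∈ A) :
    ee K T g y z = ee K T g z y :=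
  Finset.sum_congr rfl fun s hs => by rw [h.T_comm hy hz hs]

lemma cs (h : JS K A n T) {y z : I} (hy : y ∈ A) (hz : z ∈ A) (g φ : X → ℝ)
    (hφ : ∀ s ∈ K, φ (T y z s) = φ s) (hb : ∀ s ∈ K, φ s ^ 2 ≤ 1) :
    (∑ s ∈ K, g s * ((n s y - n s z) * φ s)) ^ 2 ≤ DD K n y z * ee K T g y z := by
  have h1 : ∑ s ∈ K, g s * ((n s y - n s z) * φ s)
      = - ∑ s ∈ K, g (T y z s) * ((n s y - n s z) * φ s) := by
    rw [← h.sum_T hy hz (fun s => g s * ((n s y - n s z) * φ s)), ← Finset.sum_neg_distrib]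
    refine Finset.sum_congr rfl fun s hs => ?_
    rw [h.nT y hy z hz s hs y hy, h.nT y hy z hz s hs z hz, Equiv.swap_apply_left,
      Equiv.swap_apply_right, hφ s hs]
    ring
  have h2 : ∑ s ∈ K, g s * ((n s y - n s z) * φ s)
      = ∑ s ∈ K, ((n s y - n s z) * φ s) * ((g s - g (T y z s)) / 2) := by
    have : ∑ s ∈ K, ((n s y - n s z) * φ s) * ((g s - g (T y z s)) / 2)
        = (∑ s ∈ K, g s * ((n s y - n s z) * φ s)
          - ∑ s ∈ K, g (T y z s) * ((n s y - n s z) * φ s)) / 2 := by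
      rw [← Finset.sum_sub_distrib, Finset.sum_div]
      exact Finset.sum_congr rfl fun s _ => by ring
    rw [this]; linarith
  rw [h2]
  refine (Finset.sum_mul_sq_le_sq_mul_sq _ _ _).trans ?_
  have h3 : ∑ s ∈ K, ((g s - g (T y z s)) / 2) ^ 2 = ee K T g y z :=
    Finset.sum_congr rfl fun s _ => by ring
  rw [h3]
  refine mul_le_mul_of_nonneg_right (Finset.sum_le_sum fun s hs => ?_) (ee_nonneg g y z)
  rw [mul_pow]
  exact mul_le_of_le_one_right (sq_nonneg _) (hb s hs)

lemma DD_comm (y z : I) : DD K n y z = DD K n z y :=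
  Finset.sum_congr rfl fun s _ => by ring

lemma DD_eq1 (h : JS K A n T) {x y z : I} (hx : x ∈ A) (hy : y ∈ A) (hz : z ∈ A) (hxy : x ≠ y)
    (hxz : x ≠ z) : DD K n x y = DD K n x z := by
  unfold DD
  rw [← h.sum_T hy hz]
  refine Finset.sum_congr rfl fun s hs => ?_
  rw [h.nT y hy z hz s hs x hx, h.nT y hy z hz s hs y hy, Equiv.swap_apply_left,
    Equiv.swap_apply_of_ne_of_ne hxy hxz]

lemma DD_eq (h : JS K A n T) {x y z w : I} (hx : x ∈ A) (hy : y ∈ A) (hz : z ∈ A) (hw : w ∈ A)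
    (hxy : x ≠ y) (hzw : z ≠ w) : DD K n x y = DD K n z w := by
  by_cases hxz : x = z
  · subst hxz; exact h.DD_eq1 hx hy hw hxy hzw
  · rw [h.DD_eq1 hx hy hz hxy hxz, DD_comm x z, h.DD_eq1 hz hx hw (Ne.symm hxz) hzw]

lemma exists_weight (h : JS K A n T) : ∃ k : ℝ, 0 ≤ k ∧ k ≤ A.card ∧
    ∀ s ∈ K, ∑ x ∈ A, n s x = k := by
  rcases K.eq_empty_or_nonempty with rfl | ⟨s0, hs0⟩
  · exact ⟨0, le_rfl, by positivity, by simp⟩
  · refine ⟨∑ x ∈ A, n s0 x, Finset.sum_nonneg fun x hx => ?_, ?_, fun s hs => h.sum s hs s0 hs0⟩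
    · rcases h.bin s0 hs0 x hx with h1 | h1 <;> simp [h1]
    · calc ∑ x ∈ A, n s0 x ≤ ∑ x ∈ A, (1 : ℝ) := Finset.sum_le_sum fun x hx => by
            rcases h.bin s0 hs0 x hx with h1 | h1 <;> simp [h1]
        _ = A.card := by simp

lemma sum_sq_row (h : JS K A n T) {k : ℝ} (hk : ∀ s ∈ K, ∑ x ∈ A, n s x = k) {s : X} (hs : s ∈ K)
    {x : I} (hx : x ∈ A) : ∑ y ∈ A, (n s x - n s y) ^ 2 = k + (A.card - 2 * k) * n s x := by
  have : ∑ y ∈ A, (n s x - n s y) ^ 2 = ∑ y ∈ A, (n s x + (1 - 2 * n s x) * n s y) := by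
    refine Finset.sum_congr rfl fun y hy => ?_
    rcases h.bin s hs x hx with h1 | h1 <;> rcases h.bin s hs y hy with h2 | h2 <;>
      rw [h1, h2] <;> norm_num
  rw [this, Finset.sum_add_distrib, ← Finset.mul_sum, hk s hs]
  simp only [Finset.sum_const, nsmul_eq_mul]; ring

/-- The key inequality for disjoint pairs. -/
theorem main (h : JS K A n T) (g : X → ℝ) (hg : ∑ s ∈ K, g s = 0) :
    ∑ x ∈ A, ∑ y ∈ A, (∑ s ∈ K, g s * (n s x - n s y) ^ 2) ^ 2 / DD K n x y
      ≤ ∑ y ∈ A, ∑ z ∈ A, ee K T g y z := by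
  set E := ∑ y ∈ A, ∑ z ∈ A, ee K T g y z with hE
  have hE0 : 0 ≤ E := Finset.sum_nonneg fun _ _ => Finset.sum_nonneg fun _ _ => ee_nonneg _ _ _
  by_cases hA : ∃ x0 ∈ A, ∃ y0 ∈ A, x0 ≠ y0
  swap
  · push Not at hA
    refine le_trans (le_of_eq (Finset.sum_eq_zero fun x hx => Finset.sum_eq_zero fun y hy => ?_)) hE0
    rw [hA x hx y hy]; simp
  obtain ⟨x0, hx0, y0, hy0, hne⟩ := hA
  have hm2 : (2 : ℝ) ≤ A.card := by
    exact_mod_cast Finset.one_lt_card.2 ⟨x0, hx0, y0, hy0, hne⟩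
  set p := DD K n x0 y0 with hp
  have hp0 : 0 ≤ p := DD_nonneg _ _
  have hD : ∀ x ∈ A, ∀ y ∈ A, x ≠ y → DD K n x y = p := fun x hx y hy hxy =>
    h.DD_eq hx hy hx0 hy0 hxy hne
  set Y : I → I → ℝ := fun x y => ∑ s ∈ K, g s * (n s x - n s y) ^ 2 with hY
  have hYxx : ∀ x, Y x x = 0 := fun x => by simp [hY]
  obtain ⟨k, hk0, hkm, hk⟩ := h.exists_weight
  set α : I → ℝ := fun x => ∑ s ∈ K, g s * n s x with hα
  set m : ℝ := (A.card : ℝ) with hm
  have hsumα : ∑ x ∈ A, α x = 0 := by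
    simp only [hα]
    rw [Finset.sum_comm, Finset.sum_congr rfl (fun s hs => by rw [← Finset.mul_sum, hk s hs]),
      ← Finset.sum_mul, hg, zero_mul]
  have hαb : 2 * m * ∑ x ∈ A, α x ^ 2 ≤ p * E := by
    have h1 := lagrange A α
    rw [hsumα] at h1
    have h2 : ∑ y ∈ A, ∑ z ∈ A, (α y - α z) ^ 2 ≤ p * E := by
      rw [hE, Finset.mul_sum]
      refine Finset.sum_le_sum fun y hy => ?_
      rw [Finset.mul_sum]
      refine Finset.sum_le_sum fun z hz => ?_
      by_cases hyz : y = z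
      · subst hyz; simp [h.ee_self g hy]
      · have := h.cs hy hz g (fun _ => 1) (fun _ _ => rfl) (fun _ _ => by norm_num)
        rw [hD y hy z hz hyz] at this
        refine le_trans (le_of_eq ?_) this
        simp only [hα]
        rw [← Finset.sum_sub_distrib]
        congr 1
        exact Finset.sum_congr rfl fun s _ => by ring
    linarith
  have hrow : ∀ x ∈ A, ∑ y ∈ A.erase x, Y x y = (m - 2 * k) * α x := by
    intro x hx
    rw [Finset.sum_erase _ (hYxx x)]
    simp only [hY, hα]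
    rw [Finset.sum_comm, Finset.sum_congr rfl
      (fun s hs => by rw [← Finset.mul_sum, h.sum_sq_row hk hs hx]), Finset.mul_sum]
    have : ∑ s ∈ K, g s * (k + (m - 2 * k) * n s x)
        = k * ∑ s ∈ K, g s + ∑ s ∈ K, (m - 2 * k) * (g s * n s x) := by
      rw [Finset.mul_sum, ← Finset.sum_add_distrib]
      exact Finset.sum_congr rfl fun s _ => by ring
    rw [this, hg]; simp
  have hx : ∀ x ∈ A, 2 * (m - 1) * ∑ y ∈ A, Y x y ^ 2
      ≤ 2 * m ^ 2 * α x ^ 2
        + p * (E - ∑ z ∈ A, ee K T g x z - ∑ y ∈ A, ee K T g y x) := by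
    intro x hx
    have h1 := lagrange (A.erase x) (Y x)
    rw [hrow x hx, Finset.card_erase_of_mem hx,
      Finset.sum_erase (f := fun y => Y x y ^ 2) _ (by simp [hYxx x])] at h1
    have hc : ((A.card - 1 : ℕ) : ℝ) = m - 1 := by
      rw [Nat.cast_sub (by exact_mod_cast (show (1 : ℝ) ≤ A.card by linarith))]; simp [hm]
    rw [hc] at h1
    have h2 : ∑ y ∈ A.erase x, ∑ z ∈ A.erase x, (Y x y - Y x z) ^ 2
        ≤ p * ∑ y ∈ A.erase x, ∑ z ∈ A.erase x, ee K T g y z := by
      rw [Finset.mul_sum]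
      refine Finset.sum_le_sum fun y hy => ?_
      rw [Finset.mul_sum]
      refine Finset.sum_le_sum fun z hz => ?_
      obtain ⟨hyx, hy⟩ := Finset.mem_erase.1 hy
      obtain ⟨hzx, hz⟩ := Finset.mem_erase.1 hz
      by_cases hyz : y = z
      · subst hyz; simp [h.ee_self g hy]
      · have := h.cs hy hz g (fun s => 1 - 2 * n s x) (fun s hs => by
            rw [h.nT y hy z hz s hs x hx, Equiv.swap_apply_of_ne_of_ne hyx.symm hzx.symm])
          (fun s hs => by rcases h.bin s hs x hx with h1 | h1 <;> rw [h1] <;> norm_num)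
        rw [hD y hy z hz hyz] at this
        refine le_trans (le_of_eq ?_) this
        simp only [hY]
        rw [← Finset.sum_sub_distrib]
        congr 1
        refine Finset.sum_congr rfl fun s hs => ?_
        rcases h.bin s hs y hy with h1 | h1 <;> rcases h.bin s hs z hz with h2 | h2 <;>
          rcases h.bin s hs x hx with h3 | h3 <;> rw [h1, h2, h3] <;> ring
    have h3 : ∑ y ∈ A.erase x, ∑ z ∈ A.erase x, ee K T g y z
        = E - ∑ z ∈ A, ee K T g x z - ∑ y ∈ A, ee K T g y x := by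
      simp only [Finset.sum_erase_eq_sub hx, Finset.sum_sub_distrib, h.ee_self g hx]
      ring
    rw [h3] at h2
    have h4 : (m - 2 * k) ^ 2 ≤ m ^ 2 := by nlinarith
    have h5 : ((m - 2 * k) * α x) ^ 2 ≤ m ^ 2 * α x ^ 2 := by
      rw [mul_pow]; exact mul_le_mul_of_nonneg_right h4 (sq_nonneg _)
    linarith
  have htot : ∑ x ∈ A, ∑ y ∈ A, Y x y ^ 2 ≤ p * E := by
    have h1 := Finset.sum_le_sum hx
    rw [← Finset.mul_sum, Finset.sum_add_distrib, ← Finset.mul_sum, ← Finset.mul_sum,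
      Finset.sum_sub_distrib, Finset.sum_sub_distrib, Finset.sum_comm (s := A) (t := A)
        (f := fun x y => ee K T g y x)] at h1
    simp only [Finset.sum_const, nsmul_eq_mul, ← hE, ← hm] at h1
    have h2 : 2 * (m - 1) * ∑ x ∈ A, ∑ y ∈ A, Y x y ^ 2 ≤ 2 * (m - 1) * (p * E) := by
      nlinarith
    exact le_of_mul_le_mul_left h2 (by linarith)
  have hdiv : ∑ x ∈ A, ∑ y ∈ A, Y x y ^ 2 / DD K n x y = (∑ x ∈ A, ∑ y ∈ A, Y x y ^ 2) / p := by
    rw [Finset.sum_div]
    refine Finset.sum_congr rfl fun x hx => ?_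
    rw [Finset.sum_div]
    refine Finset.sum_congr rfl fun y hy => ?_
    by_cases hxy : x = y
    · subst hxy; simp [hYxx]
    · rw [hD x hx y hy hxy]
  change ∑ x ∈ A, ∑ y ∈ A, Y x y ^ 2 / DD K n x y ≤ E
  rw [hdiv]
  rcases hp0.eq_or_lt with h0 | h0
  · rw [← h0]; simpa using hE0
  · rw [div_le_iff₀ h0]; linarith

lemma restrict {x : I} (h : JS K (insert x A) n T) (hx : x ∉ A) (c : ℝ) :
    JS (K.filter fun s => n s x = c) A n T := by
  have hs : ∀ y ∈ A, y ∈ insert x A := fun y hy => Finset.mem_insert_of_mem hy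
  have hxx : x ∈ insert x A := Finset.mem_insert_self _ _
  refine ⟨fun s hs' y hy => h.bin s (Finset.mem_filter.1 hs').1 y (hs y hy), ?_, ?_, ?_, ?_⟩
  · intro y hy z hz s hs'
    obtain ⟨h1, h2⟩ := Finset.mem_filter.1 hs'
    refine Finset.mem_filter.2 ⟨h.memT y (hs y hy) z (hs z hz) s h1, ?_⟩
    rw [h.nT y (hs y hy) z (hs z hz) s h1 x hxx,
      Equiv.swap_apply_of_ne_of_ne (by rintro rfl; exact hx hy) (by rintro rfl; exact hx hz), h2]
  · intro y hy z hz s hs' w hw
    exact h.nT y (hs y hy) z (hs z hz) s (Finset.mem_filter.1 hs').1 w (hs w hw)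
  · intro s h1 s' h2 h3
    refine h.inj s (Finset.mem_filter.1 h1).1 s' (Finset.mem_filter.1 h2).1 fun w hw => ?_
    rcases Finset.mem_insert.1 hw with rfl | hw
    · rw [(Finset.mem_filter.1 h1).2, (Finset.mem_filter.1 h2).2]
    · exact h3 w hw
  · intro s h1 s' h2
    have := h.sum s (Finset.mem_filter.1 h1).1 s' (Finset.mem_filter.1 h2).1
    rw [Finset.sum_insert hx, Finset.sum_insert hx, (Finset.mem_filter.1 h1).2,
      (Finset.mem_filter.1 h2).2] at this
    linarith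

lemma shift_bound (K : Finset X) (g : X → ℝ) (B : ℝ)
    (h : ∀ c : ℝ, ∑ s ∈ K, (g s - c) = 0 → ∑ s ∈ K, (g s - c) ^ 2 ≤ B) (hB : 0 ≤ B) :
    ∑ s ∈ K, g s ^ 2 ≤ B + (∑ s ∈ K, g s) ^ 2 / K.card := by
  rcases K.eq_empty_or_nonempty with rfl | hK
  · simpa using hB
  have hN : (0 : ℝ) < K.card := by exact_mod_cast hK.card_pos
  have h1 := h ((∑ s ∈ K, g s) / K.card) (by
    rw [Finset.sum_sub_distrib]; simp only [Finset.sum_const, nsmul_eq_mul]; field_simp; ring)
  have h2 : ∑ s ∈ K, (g s - (∑ s ∈ K, g s) / K.card) ^ 2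
      = ∑ s ∈ K, g s ^ 2 - (∑ s ∈ K, g s) ^ 2 / K.card := by
    simp only [sub_sq, Finset.sum_add_distrib, Finset.sum_sub_distrib, Finset.sum_const,
      nsmul_eq_mul, ← Finset.sum_mul, ← Finset.mul_sum]
    field_simp; ring
  linarith

/-- Poincare inequality on the Johnson scheme. -/
theorem poincare (A : Finset I) : ∀ (K : Finset X), JS K A n T → ∀ g : X → ℝ, ∑ s ∈ K, g s = 0 →
    ∑ s ∈ K, g s ^ 2 ≤ (∑ y ∈ A, ∑ z ∈ A, ee K T g y z) / 2 := by
  induction A using Finset.induction_on with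
  | empty =>
    intro K h g hg
    rcases K.eq_empty_or_nonempty with rfl | ⟨s0, hs0⟩
    · simp
    · have hK : K = {s0} := Finset.eq_singleton_iff_unique_mem.2
        ⟨hs0, fun s hs => h.inj s hs s0 hs0 (by simp)⟩
      subst hK
      simp only [Finset.sum_singleton] at hg
      simp [hg]
  | insert x A hx ih =>
    intro K h g hg
    have hxx : x ∈ insert x A := Finset.mem_insert_self _ _
    have hs : ∀ y ∈ A, y ∈ insert x A := fun y hy => Finset.mem_insert_of_mem hy
    set K1 := K.filter fun s => n s x = 1 with hK1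
    set K0 := K.filter fun s => n s x = 0 with hK0
    have split : ∀ F : X → ℝ, ∑ s ∈ K, F s = ∑ s ∈ K1, F s + ∑ s ∈ K0, F s := by
      intro F
      rw [hK1, hK0, Finset.sum_filter, Finset.sum_filter, ← Finset.sum_add_distrib]
      refine Finset.sum_congr rfl fun s hs => ?_
      rcases h.bin s hs x hxx with h1 | h1 <;> simp [h1]
    have key : ∀ c : ℝ, ∑ s ∈ K.filter (fun s => n s x = c), g s ^ 2
        ≤ (∑ y ∈ A, ∑ z ∈ A, ee (K.filter fun s => n s x = c) T g y z) / 2
          + (∑ s ∈ K.filter (fun s => n s x = c), g s) ^ 2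
            / (K.filter fun s => n s x = c).card := by
      intro c
      refine shift_bound _ g _ (fun c' hc' => ?_) ?_
      · have := ih _ (h.restrict hx c) (fun s => g s - c') hc'
        simpa [ee] using this
      · exact div_nonneg (Finset.sum_nonneg fun _ _ => Finset.sum_nonneg fun _ _ =>
          ee_nonneg _ _ _) (by norm_num)
    have k1 := key 1
    have k0 := key 0
    rw [← hK1] at k1
    rw [← hK0] at k0
    set α := ∑ s ∈ K1, g s with hα
    have hα0 : ∑ s ∈ K0, g s = -α := by rw [split] at hg; linarith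
    rw [hα0, neg_sq] at k0
    set Ex := ∑ z ∈ A, ee K T g x z with hEx
    have hEx0 : 0 ≤ Ex := Finset.sum_nonneg fun _ _ => ee_nonneg _ _ _
    have hE : ∑ y ∈ insert x A, ∑ z ∈ insert x A, ee K T g y z
        = 2 * Ex + (∑ y ∈ A, ∑ z ∈ A, ee K1 T g y z + ∑ y ∈ A, ∑ z ∈ A, ee K0 T g y z) := by
      simp only [Finset.sum_insert hx, Finset.sum_add_distrib, h.ee_self g hxx]
      have e1 : ∑ y ∈ A, ee K T g y x = Ex :=
        Finset.sum_congr rfl fun y hy => h.ee_comm g (hs y hy) hxx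
      have e2 : ∑ y ∈ A, ∑ z ∈ A, ee K T g y z
          = ∑ y ∈ A, ∑ z ∈ A, ee K1 T g y z + ∑ y ∈ A, ∑ z ∈ A, ee K0 T g y z := by
        rw [← Finset.sum_add_distrib]
        refine Finset.sum_congr rfl fun y _ => ?_
        rw [← Finset.sum_add_distrib]
        exact Finset.sum_congr rfl fun z _ => split _
      rw [e1, e2]; ring
    obtain ⟨k, hk0, hkm, hk⟩ := h.exists_weight
    set m : ℝ := ((insert x A).card : ℝ) with hm
    set N1 : ℝ := (K1.card : ℝ) with hN1
    set N0 : ℝ := (K0.card : ℝ) with hN0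
    have hN10 : 0 ≤ N1 := by positivity
    have hN00 : 0 ≤ N0 := by positivity
    have hn1 : ∀ F : X → ℝ, ∑ s ∈ K, F s * n s x = ∑ s ∈ K1, F s := by
      intro F
      rw [split, Finset.sum_eq_zero (s := K0), add_zero]
      · exact Finset.sum_congr rfl fun s hs => by rw [(Finset.mem_filter.1 hs).2, mul_one]
      · intro s hs; rw [(Finset.mem_filter.1 hs).2, mul_zero]
    have hlin : ∀ F : X → ℝ, ∑ z ∈ A, ∑ s ∈ K, F s * (n s x - n s z)
        = m * ∑ s ∈ K1, F s - k * ∑ s ∈ K, F s := by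
      intro F
      rw [Finset.sum_comm, ← hn1, Finset.mul_sum, Finset.mul_sum, ← Finset.sum_sub_distrib]
      refine Finset.sum_congr rfl fun s hs => ?_
      have := hk s hs
      rw [Finset.sum_insert hx] at this
      rw [← Finset.mul_sum, Finset.sum_sub_distrib, hm, Finset.card_insert_of_notMem hx]
      simp only [Finset.sum_const, nsmul_eq_mul]
      push_cast
      rw [← this]; ring
    have hcount : m * N1 = k * (N1 + N0) := by
      have h1 := hlin (fun _ => 1)
      have h2 : ∑ z ∈ A, ∑ s ∈ K, (1 : ℝ) * (n s x - n s z) = 0 := by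
        refine Finset.sum_eq_zero fun z hz => ?_
        have h3 := h.sum_T hxx (hs z hz) (fun s => n s x)
        rw [Finset.sum_congr rfl (fun s hs' => by
          rw [h.nT x hxx z (hs z hz) s hs' x hxx, Equiv.swap_apply_left])] at h3
        simp only [one_mul, Finset.sum_sub_distrib, h3, sub_self]
      rw [h2, split] at h1
      simp only [Finset.sum_const, nsmul_eq_mul, mul_one] at h1
      linarith
    have hDs : ∑ z ∈ A, DD K n x z = 2 * k * N0 := by
      have h1 : ∑ z ∈ insert x A, DD K n x z = ∑ z ∈ A, DD K n x z := by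
        rw [Finset.sum_insert hx]; simp [DD]
      rw [← h1]
      unfold DD
      rw [Finset.sum_comm, Finset.sum_congr rfl (fun s hs' => h.sum_sq_row hk hs' hxx),
        Finset.sum_add_distrib, hn1 (fun _ => ((insert x A).card : ℝ) - 2 * k), split]
      simp only [Finset.sum_const, nsmul_eq_mul]
      rw [← hm, ← hN1, ← hN0]
      linarith
    have hcs : (m * α) ^ 2 ≤ 2 * k * N0 * Ex := by
      have h1 := hlin g
      rw [hg, mul_zero, sub_zero] at h1
      rw [← h1, ← hDs]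
      refine Finset.sum_sq_le_sum_mul_sum_of_sq_le_mul _ (fun z _ => DD_nonneg _ _)
        (fun z _ => ee_nonneg _ _ _) fun z hz => ?_
      have := h.cs hxx (hs z hz) g (fun _ => 1) (fun _ _ => rfl) (fun _ _ => by norm_num)
      simpa using this
    have hfin : α ^ 2 / N1 + α ^ 2 / N0 ≤ Ex := by
      rcases hN10.eq_or_lt with h1 | h1
      · have : K1 = ∅ := Finset.card_eq_zero.1 (by rw [hN1] at h1; exact_mod_cast h1.symm)
        have : α = 0 := by rw [hα, this]; simp
        simpa [this] using hEx0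
      rcases hN00.eq_or_lt with h0 | h0
      · have : K0 = ∅ := Finset.card_eq_zero.1 (by rw [hN0] at h0; exact_mod_cast h0.symm)
        have : α = 0 := by rw [this] at hα0; simpa using hα0
        simpa [this] using hEx0
      rcases A.eq_empty_or_nonempty with rfl | hA
      · have h2 := hlin g
        rw [hg, mul_zero, sub_zero] at h2
        have hm1 : m = 1 := by simp [hm]
        have : α = 0 := by rw [hm1] at h2; simpa using h2.symm
        simpa [this] using hEx0
      have hm2 : 2 ≤ m := by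
        rw [hm, Finset.card_insert_of_notMem hx]
        have : 2 ≤ A.card + 1 := by have := hA.card_pos; omega
        exact_mod_cast this
      rw [div_add_div _ _ h1.ne' h0.ne', div_le_iff₀ (mul_pos h1 h0)]
      have h3 : m ^ 2 * α ^ 2 * (N1 + N0) ≤ 2 * m * N1 * N0 * Ex := by
        have := mul_le_mul_of_nonneg_right hcs (add_nonneg hN10 hN00)
        calc m ^ 2 * α ^ 2 * (N1 + N0) = (m * α) ^ 2 * (N1 + N0) := by ring
          _ ≤ 2 * k * N0 * Ex * (N1 + N0) := this
          _ = 2 * (k * (N1 + N0)) * N0 * Ex := by ring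
          _ = 2 * m * N1 * N0 * Ex := by rw [← hcount]; ring
      have h4 : m * (α ^ 2 * (N1 + N0)) ≤ 2 * (N1 * N0 * Ex) := by
        have : m * (m * (α ^ 2 * (N1 + N0))) ≤ m * (2 * (N1 * N0 * Ex)) := by linarith
        exact le_of_mul_le_mul_left this (by linarith)
      have h5 : 0 ≤ α ^ 2 * (N1 + N0) := by positivity
      nlinarith
    rw [hE, split]
    linarith

end JS

end Vale.Agent.P335
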