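import Vale.Agent.P335.Couple

/-!
The three row lemma: on zero-one matrices with three rows and fixed margins, a triple of
functions of single rows satisfying the eigenvalue equation with `η > 1` is trivial.
-/

set_option linter.unusedSectionVars false
set_option linter.unusedVariables false

namespace Vale.Agent.P335

open Classical Finset

variable {C : Type*} [Fintype C]

/-- indicator of membership -/
noncomputable def ind (A : Finset C) (c : C) : ℕ := if c ∈ A then 1 else 0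

/-- three rows with the prescribed margins -/
def Ok (col : C → ℕ) (r1 r2 r3 : ℕ) (A B D : Finset C) : Prop :=
  A.card = r1 ∧ B.card = r2 ∧ D.card = r3 ∧ ∀ c, ind A c + ind B c + ind D c = col c

/-- realizable first rows -/
def Rl (col : C → ℕ) (r1 r2 r3 : ℕ) (A : Finset C) : Prop := ∃ B D, Ok col r1 r2 r3 A B D

/-- completions of a first row -/
noncomputable def fib (col : C → ℕ) (r1 r2 r3 : ℕ) (A : Finset C) : Finset (Finset C × Finset C) :=
  univ.filter fun p => Ok col r1 r2 r3 A p.1 p.2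

/-- the eigenvalue equation for the first row -/
def Eqn (col : C → ℕ) (r1 r2 r3 : ℕ) (η : ℝ) (γ1 γ2 γ3 : Finset C → ℝ) : Prop :=
  ∀ A, Rl col r1 r2 r3 A →
    ∑ p ∈ fib col r1 r2 r3 A, (γ2 p.1 + γ3 p.2) = η * (fib col r1 r2 r3 A).card * γ1 A

variable {col : C → ℕ} {r1 r2 r3 : ℕ} {η : ℝ} {γ1 γ2 γ3 : Finset C → ℝ}

lemma mem_fib {A : Finset C} {p : Finset C × Finset C} :
    p ∈ fib col r1 r2 r3 A ↔ Ok col r1 r2 r3 A p.1 p.2 := by simp [fib]

lemma Ok.s12 {A B D : Finset C} (h : Ok col r1 r2 r3 A B D) : Ok col r2 r1 r3 B A D :=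
  ⟨h.2.1, h.1, h.2.2.1, fun c => by have := h.2.2.2 c; omega⟩

lemma Ok.s23 {A B D : Finset C} (h : Ok col r1 r2 r3 A B D) : Ok col r1 r3 r2 A D B :=
  ⟨h.1, h.2.2.1, h.2.1, fun c => by have := h.2.2.2 c; omega⟩

lemma Ok.rl1 {A B D : Finset C} (h : Ok col r1 r2 r3 A B D) : Rl col r1 r2 r3 A := ⟨B, D, h⟩
lemma Ok.rl2 {A B D : Finset C} (h : Ok col r1 r2 r3 A B D) : Rl col r2 r1 r3 B := ⟨A, D, h.s12⟩
lemma Ok.rl3 {A B D : Finset C} (h : Ok col r1 r2 r3 A B D) : Rl col r3 r1 r2 D :=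
  ⟨A, B, h.s23.s12⟩

lemma Rl.swap {A : Finset C} (h : Rl col r1 r2 r3 A) : Rl col r1 r3 r2 A := by
  obtain ⟨B, D, h⟩ := h; exact ⟨D, B, h.s23⟩

lemma rl_iff {A : Finset C} : Rl col r1 r2 r3 A ↔ Rl col r1 r3 r2 A := ⟨Rl.swap, Rl.swap⟩

lemma fib_card_pos {A : Finset C} (h : Rl col r1 r2 r3 A) :
    (0 : ℝ) < (fib col r1 r2 r3 A).card := by
  obtain ⟨B, D, h⟩ := h
  exact_mod_cast Finset.card_pos.2 ⟨(B, D), mem_fib.2 h⟩

/-- column transposition of a row -/
noncomputable def sw (c c' : C) (A : Finset C) : Finset C := A.map (Equiv.swap c c').toEmbedding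

lemma mem_sw {c c' x : C} {A : Finset C} : x ∈ sw c c' A ↔ Equiv.swap c c' x ∈ A := by
  simp [sw, Finset.mem_map_equiv]

lemma sw_sw (c c' : C) (A : Finset C) : sw c c' (sw c c' A) = A := by
  ext x; simp [mem_sw]

lemma sw_eq_self {c c' : C} {A : Finset C} (h : c ∈ A ↔ c' ∈ A) : sw c c' A = A := by
  ext x; rw [mem_sw, Equiv.swap_apply_def]; split_ifs with h1 h2
  · rw [h1, h]
  · rw [h2, h]
  · rfl

lemma sw_eq_insert {c c' : C} {A : Finset C} (h : c ∈ A) (h' : c' ∉ A) :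
    sw c c' A = insert c' (A.erase c) := by
  ext x; rw [mem_sw, Equiv.swap_apply_def]
  simp only [Finset.mem_insert, Finset.mem_erase]
  split_ifs with h1 h2
  · subst h1; constructor
    · intro h3; exact absurd h3 h'
    · rintro (h3 | h3)
      · exact absurd (h3 ▸ h) h'
      · exact absurd rfl h3.1
  · simp [h2, h]
  · simp [h1, h2]

lemma Ok.sw {A B D : Finset C} (h : Ok col r1 r2 r3 A B D) {c c' : C} (hc : col c = col c') :
    Ok col r1 r2 r3 (sw c c' A) (sw c c' B) (sw c c' D) := by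
  refine ⟨by simp [P335.sw, h.1], by simp [P335.sw, h.2.1], by simp [P335.sw, h.2.2.1],
    fun x => ?_⟩
  have := h.2.2.2 (Equiv.swap c c' x)
  simp only [ind, mem_sw] at this ⊢
  rw [this, Equiv.swap_apply_def]; split_ifs with h1 h2
  · rw [h1, hc]
  · rw [h2, hc]
  · rfl

lemma stepA (he : Eqn col r1 r2 r3 η γ1 γ2 γ3) (hη : 0 ≤ η) {c c' : C} (hc : col c = col c')
    {a : ℝ} (ha : 0 ≤ a) (h2 : ∀ B, Rl col r2 r1 r3 B → |γ2 B - γ2 (sw c c' B)| ≤ a)
    (h3 : ∀ D, Rl col r3 r1 r2 D → |γ3 D - γ3 (sw c c' D)| ≤ a) (A : Finset C)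
    (hA : Rl col r1 r2 r3 A) : η * |γ1 A - γ1 (sw c c' A)| ≤ a := by
  by_cases hcc : c ∈ A ↔ c' ∈ A
  · rw [sw_eq_self hcc]; simpa using ha
  have hA' : Rl col r1 r2 r3 (sw c c' A) := by
    obtain ⟨B, D, h⟩ := hA; exact (h.sw hc).rl1
  have hs : ∀ F : Finset C × Finset C → ℝ, ∑ p ∈ fib col r1 r2 r3 (sw c c' A), F p
      = ∑ p ∈ fib col r1 r2 r3 A, F (sw c c' p.1, sw c c' p.2) := by
    intro F
    refine Finset.sum_nbij' (fun p => (sw c c' p.1, sw c c' p.2))
      (fun p => (sw c c' p.1, sw c c' p.2)) ?_ ?_ ?_ ?_ ?_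
    · intro p hp
      have := (mem_fib.1 hp).sw hc
      rw [sw_sw] at this
      exact mem_fib.2 this
    · intro p hp; exact mem_fib.2 ((mem_fib.1 hp).sw hc)
    · intro p _; simp [sw_sw]
    · intro p _; simp [sw_sw]
    · intro p _; simp [sw_sw]
  have e1 := he A hA
  have e2 := he _ hA'
  have hN : ((fib col r1 r2 r3 (sw c c' A)).card : ℝ) = (fib col r1 r2 r3 A).card := by
    simpa using hs (fun _ => 1)
  rw [hs, hN] at e2
  have hpos := fib_card_pos hA
  have key : |∑ p ∈ fib col r1 r2 r3 A, ((γ2 p.1 + γ3 p.2)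
      - (γ2 (sw c c' p.1) + γ3 (sw c c' p.2)))| ≤ (fib col r1 r2 r3 A).card * a := by
    refine (Finset.abs_sum_le_sum_abs _ _).trans ?_
    rw [← nsmul_eq_mul, ← Finset.sum_const]
    refine Finset.sum_le_sum fun p hp => ?_
    have hp := mem_fib.1 hp
    have k1 := hp.2.2.2 c
    have k2 := hp.2.2.2 c'
    by_cases hB : c ∈ p.1 ↔ c' ∈ p.1
    · rw [sw_eq_self hB]; simpa using h3 _ hp.rl3
    · have hD : c ∈ p.2 ↔ c' ∈ p.2 := by
        simp only [ind] at k1 k2
        by_cases q1 : c ∈ A <;> by_cases q2 : c' ∈ A <;> by_cases q3 : c ∈ p.1 <;>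
          by_cases q4 : c' ∈ p.1 <;> by_cases q5 : c ∈ p.2 <;> by_cases q6 : c' ∈ p.2 <;>
          simp_all <;> omega
      rw [sw_eq_self hD]; simpa using h2 _ hp.rl2
  rw [Finset.sum_sub_distrib, e1, e2, ← mul_sub, abs_mul, abs_of_nonneg (by positivity)] at key
  have : (fib col r1 r2 r3 A).card * (η * |γ1 A - γ1 (sw c c' A)|)
      ≤ (fib col r1 r2 r3 A).card * a := by linarith
  exact le_of_mul_le_mul_left this hpos

end Vale.Agent.P335
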