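import Vale.Agent.P335.ThreeRow

/-!
The three row lemma, second step.
-/

set_option linter.unusedSectionVars false
set_option linter.unusedVariables false

namespace Vale.Agent.P335

open Classical Finset

variable {C : Type*} [Fintype C]
variable {col : C → ℕ} {r1 r2 r3 : ℕ} {η : ℝ} {γ1 γ2 γ3 : Finset C → ℝ}

/-- columns with exactly one entry in the other two rows -/
noncomputable def act (col : C → ℕ) (A : Finset C) : Finset C :=
  univ.filter fun x => col x = ind A x + 1

/-- columns with both entries in the other two rows -/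
noncomputable def fx (col : C → ℕ) (A : Finset C) : Finset C :=
  univ.filter fun x => col x = ind A x + 2

lemma mem_act {A : Finset C} {x : C} : x ∈ act col A ↔ col x = ind A x + 1 := by simp [act]
lemma mem_fx {A : Finset C} {x : C} : x ∈ fx col A ↔ col x = ind A x + 2 := by simp [fx]

lemma ind_le (A : Finset C) (x : C) : ind A x ≤ 1 := by unfold ind; split_ifs <;> simp

lemma ind_eq_one {A : Finset C} {x : C} : ind A x = 1 ↔ x ∈ A := by unfold ind; split_ifs <;> simp [*]

lemma ind_eq_zero {A : Finset C} {x : C} : ind A x = 0 ↔ x ∉ A := by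
  unfold ind; split_ifs <;> simp [*]

lemma Ok.param {A B D : Finset C} (h : Ok col r1 r2 r3 A B D) :
    B = (B ∩ act col A) ∪ fx col A ∧ D = (act col A \ (B ∩ act col A)) ∪ fx col A := by
  constructor <;> ext x <;> have := h.2.2.2 x <;>
    simp only [Finset.mem_union, Finset.mem_inter, Finset.mem_sdiff, mem_act, mem_fx, ind] at this ⊢ <;>
    by_cases q1 : x ∈ A <;> by_cases q2 : x ∈ B <;> by_cases q3 : x ∈ D <;> simp_all <;> omega

lemma disj_act_fx (A : Finset C) : Disjoint (act col A) (fx col A) := by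
  rw [Finset.disjoint_left]; intro x h1 h2; rw [mem_act] at h1; rw [mem_fx] at h2; omega

lemma param_data {A : Finset C} (hA : Rl col r1 r2 r3 A) :
    ∃ k, k ≤ (act col A).card ∧ k + (fx col A).card = r2 ∧
      (act col A).card - k + (fx col A).card = r3 := by
  obtain ⟨B, D, h⟩ := hA
  obtain ⟨e1, e2⟩ := h.param
  refine ⟨(B ∩ act col A).card, Finset.card_le_card Finset.inter_subset_right, ?_, ?_⟩
  · rw [← h.2.1, ← Finset.card_union_of_disjoint
      ((disj_act_fx A).mono_left Finset.inter_subset_right), ← e1]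
  · rw [← h.2.2.1, ← Finset.card_sdiff_of_subset Finset.inter_subset_right,
      ← Finset.card_union_of_disjoint ((disj_act_fx A).mono_left Finset.sdiff_subset), ← e2]

lemma ok_of_param {A : Finset C} (hA : Rl col r1 r2 r3 A) {k : ℕ} (hk : k + (fx col A).card = r2)
    {U : Finset C} (hU : U ∈ powersetCard k (act col A)) :
    Ok col r1 r2 r3 A (U ∪ fx col A) ((act col A \ U) ∪ fx col A) := by
  obtain ⟨k', k1, k2, k3⟩ := param_data hA
  obtain ⟨B, D, h⟩ := hA
  obtain ⟨hU1, hU2⟩ := Finset.mem_powersetCard.1 hU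
  have hkk : k' = k := by omega
  refine ⟨h.1, ?_, ?_, fun x => ?_⟩
  · rw [Finset.card_union_of_disjoint ((disj_act_fx A).mono_left hU1), hU2, hk]
  · rw [Finset.card_union_of_disjoint ((disj_act_fx A).mono_left Finset.sdiff_subset),
      Finset.card_sdiff_of_subset hU1, hU2, ← hkk, k3]
  · have h1 := h.2.2.2 x
    have h2 := ind_le B x
    have h3 := ind_le D x
    have h4 : x ∈ U → col x = ind A x + 1 := fun hx => mem_act.1 (hU1 hx)
    by_cases q : x ∈ U
    · have := h4 q
      have a1 : ind (U ∪ fx col A) x = 1 := ind_eq_one.2 (by simp [q])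
      have a2 : ind ((act col A \ U) ∪ fx col A) x = 0 := ind_eq_zero.2 (by
        simp only [Finset.mem_union, Finset.mem_sdiff, mem_fx]; push Not
        exact ⟨fun _ => q, by omega⟩)
      omega
    · by_cases q2 : col x = ind A x + 1
      · have a1 : ind (U ∪ fx col A) x = 0 := ind_eq_zero.2 (by
          simp only [Finset.mem_union, mem_fx]; push Not; exact ⟨q, by omega⟩)
        have a2 : ind ((act col A \ U) ∪ fx col A) x = 1 := ind_eq_one.2 (by
          simp [mem_act, q, q2])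
        omega
      · by_cases q3 : col x = ind A x + 2
        · have a1 : ind (U ∪ fx col A) x = 1 := ind_eq_one.2 (by simp [mem_fx, q3])
          have a2 : ind ((act col A \ U) ∪ fx col A) x = 1 := ind_eq_one.2 (by simp [mem_fx, q3])
          omega
        · have a1 : ind (U ∪ fx col A) x = 0 := ind_eq_zero.2 (by simp [mem_fx, q3, q])
          have a2 : ind ((act col A \ U) ∪ fx col A) x = 0 := ind_eq_zero.2 (by
            simp [mem_fx, mem_act, q3, q2])
          omega

lemma fib_sum {A : Finset C} (hA : Rl col r1 r2 r3 A) {k : ℕ} (hk : k + (fx col A).card = r2)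
    (F : Finset C × Finset C → ℝ) :
    ∑ p ∈ fib col r1 r2 r3 A, F p
      = ∑ U ∈ powersetCard k (act col A), F (U ∪ fx col A, (act col A \ U) ∪ fx col A) := by
  refine Finset.sum_nbij' (fun p => p.1 ∩ act col A)
    (fun U => (U ∪ fx col A, (act col A \ U) ∪ fx col A)) ?_ ?_ ?_ ?_ ?_
  · intro p hp
    have h := mem_fib.1 hp
    refine Finset.mem_powersetCard.2 ⟨Finset.inter_subset_right, ?_⟩
    have := h.2.1
    rw [h.param.1, Finset.card_union_of_disjoint
      ((disj_act_fx A).mono_left Finset.inter_subset_right)] at this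
    omega
  · intro U hU; exact mem_fib.2 (ok_of_param hA hk hU)
  · intro p hp
    have h := mem_fib.1 hp
    exact Prod.ext h.param.1.symm h.param.2.symm
  · intro U hU
    have hU1 := (Finset.mem_powersetCard.1 hU).1
    ext x
    have : x ∈ act col A → x ∉ fx col A :=
      fun h => Finset.disjoint_left.1 (disj_act_fx (col := col) A) h
    have h2 : x ∈ U → x ∈ act col A := fun h => hU1 h
    simp only [Finset.mem_inter, Finset.mem_union]; tauto
  · intro p hp
    have h := mem_fib.1 hp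
    rw [← h.param.1, ← h.param.2]

section sets
variable {S F U : Finset C} {c c' z : C}

lemma set1 (hU : ∀ x ∈ U, x ∈ S) (c1 : c ∉ S) (c2 : c' ∉ S) (c3 : c ∉ F) (c4 : c' ∈ F)
    (hcc : c ≠ c') :
    insert c U ⊆ insert c (insert c' S) ∧
    insert c U ∪ F.erase c' = insert c ((U ∪ F).erase c') ∧
    (insert c (insert c' S) \ insert c U) ∪ F.erase c' = (S \ U) ∪ F := by
  refine ⟨fun x => ?_, ?_, ?_⟩
  · have := hU x; grind
  · ext x; have := hU x; grind
  · ext x; have := hU x; grind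

lemma set2 (hU : ∀ x ∈ U, x ∈ S) (c1 : c ∉ S) (c2 : c' ∉ S) (c3 : c ∉ F) (c4 : c' ∈ F)
    (hcc : c ≠ c') :
    insert c' U ⊆ insert c (insert c' S) ∧
    insert c' U ∪ F.erase c' = U ∪ F ∧
    (insert c (insert c' S) \ insert c' U) ∪ F.erase c' = insert c (((S \ U) ∪ F).erase c') := by
  refine ⟨fun x => ?_, ?_, ?_⟩
  · have := hU x; grind
  · ext x; have := hU x; grind
  · ext x; have := hU x; grind

lemma set3 (hU : ∀ x ∈ U, x ∈ S) (c1 : c ∉ S) (c2 : c' ∉ S) (c3 : c ∉ F) (c4 : c' ∈ F)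
    (hcc : c ≠ c') (z1 : z ∈ S) (z2 : z ∉ U) (z3 : z ∉ F) :
    insert z U ⊆ insert c (insert c' S) ∧
    insert z U ∪ F.erase c' = insert z ((U ∪ F).erase c') ∧
    (insert c (insert c' S) \ insert z U) ∪ F.erase c' = insert c (((S \ U) ∪ F).erase z) := by
  refine ⟨fun x => ?_, ?_, ?_⟩
  · have := hU x; grind
  · ext x; have := hU x; grind
  · ext x; have := hU x; grind

lemma set4 (hU : ∀ x ∈ U, x ∈ S) (c1 : c ∉ S) (c2 : c' ∉ S) (c3 : c ∉ F) (c4 : c' ∈ F)
    (hcc : c ≠ c') (z1 : z ∈ S) (z2 : z ∈ U) (z3 : z ∉ F) :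
    insert c (insert c' (U.erase z)) ⊆ insert c (insert c' S) ∧
    insert c (insert c' (U.erase z)) ∪ F.erase c' = insert c ((U ∪ F).erase z) ∧
    (insert c (insert c' S) \ insert c (insert c' (U.erase z))) ∪ F.erase c'
      = insert z (((S \ U) ∪ F).erase c') := by
  refine ⟨fun x => ?_, ?_, ?_⟩
  · have := hU x; grind
  · ext x; have := hU x; grind
  · ext x; have := hU x; grind

lemma set5 {A : Finset C} (hc : c ∈ A) (hc' : c' ∉ A) :
    insert c ((insert c' (A.erase c)).erase c') = A := by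
  ext x; grind

lemma set6 {B B' : Finset C} {z' : C} (h : z' ∈ B') :
    insert z' (B.erase z) \ B' = (B \ B').erase z := by
  ext x; grind

end sets

/-- invariance under exchanges of columns with the same sum -/
def Sym (col : C → ℕ) (r1 r2 r3 : ℕ) (γ : Finset C → ℝ) : Prop :=
  ∀ B z z', Rl col r1 r2 r3 B → z ∈ B → z' ∉ B → col z = col z' → γ (insert z' (B.erase z)) = γ B

/-- Lipschitz bound for single exchanges -/
def Lip (col : C → ℕ) (r1 r2 r3 : ℕ) (γ : Finset C → ℝ) (b : ℝ) : Prop :=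
  ∀ B z z', Rl col r1 r2 r3 B → z ∈ B → z' ∉ B → Rl col r1 r2 r3 (insert z' (B.erase z)) →
    |γ B - γ (insert z' (B.erase z))| ≤ b

lemma stepB_main (he : Eqn col r1 r2 r3 η γ1 γ2 γ3) (hη : 0 ≤ η) {b : ℝ}
    (s2 : Sym col r2 r1 r3 γ2) (s3 : Sym col r3 r1 r2 γ3)
    (l2 : Lip col r2 r1 r3 γ2 b) (l3 : Lip col r3 r1 r2 γ3 b) {A : Finset C} {c c' : C}
    (hA : Rl col r1 r2 r3 A) (hc : c ∈ A) (hc' : c' ∉ A)
    (hA' : Rl col r1 r2 r3 (insert c' (A.erase c))) (k1 : col c = 1) (k2 : col c' = 2) :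
    η * |γ1 A - γ1 (insert c' (A.erase c))| ≤ b := by
  set A' := insert c' (A.erase c) with hA'def
  have hcc : c ≠ c' := by rintro rfl; exact hc' hc
  have hi : ∀ x, x ≠ c → x ≠ c' → ind A' x = ind A x := by
    intro x h1 h2; simp [ind, hA'def, h1, h2]
  have hi1 : ind A c = 1 := ind_eq_one.2 hc
  have hi2 : ind A c' = 0 := ind_eq_zero.2 hc'
  have hi3 : ind A' c = 0 := ind_eq_zero.2 (by simp [hA'def, hcc])
  have hi4 : ind A' c' = 1 := ind_eq_one.2 (by simp [hA'def])
  have c1 : c ∉ act col A := by rw [mem_act]; omega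
  have c2 : c' ∉ act col A := by rw [mem_act]; omega
  have c3 : c ∉ fx col A := by rw [mem_fx]; omega
  have c4 : c' ∈ fx col A := by rw [mem_fx]; omega
  have eact : act col A' = insert c (insert c' (act col A)) := by
    ext x
    simp only [Finset.mem_insert, mem_act]
    by_cases h1 : x = c
    · subst h1; simp; omega
    by_cases h2 : x = c'
    · subst h2; simp; omega
    simp [h1, h2, hi x h1 h2]
  have efx : fx col A' = (fx col A).erase c' := by
    ext x
    simp only [Finset.mem_erase, mem_fx]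
    by_cases h1 : x = c
    · subst h1; simp; omega
    by_cases h2 : x = c'
    · subst h2; simp; omega
    simp [h2, hi x h1 h2]
  obtain ⟨k, hk1, hk2, -⟩ := param_data hA
  have hk2' : (k + 1) + (fx col A').card = r2 := by
    rw [efx, Finset.card_erase_of_mem c4]
    have := Finset.card_pos.2 ⟨c', c4⟩
    omega
  set Φ : Finset C → ℝ := fun U => γ2 (U ∪ fx col A) + γ3 ((act col A \ U) ∪ fx col A) with hΦ
  set Φ' : Finset C → ℝ := fun U => γ2 (U ∪ fx col A') + γ3 ((act col A' \ U) ∪ fx col A')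
    with hΦ'
  have hdisj := Finset.disjoint_left.1 (disj_act_fx (col := col) A)
  have hmem : ∀ U ∈ powersetCard k (act col A), ∀ x, x ∈ U → x ∈ act col A :=
    fun U hU x hx => (Finset.mem_powersetCard.1 hU).1 hx
  have hcard : ∀ U ∈ powersetCard k (act col A), U.card = k :=
    fun U hU => (Finset.mem_powersetCard.1 hU).2
  have t1 : ∀ U ∈ powersetCard k (act col A), |Φ U - Φ' (insert c U)| ≤ b := by
    intro U hU
    have hm := hmem U hU
    have hcU : c ∉ U := fun h => c1 (hm c h)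
    have hU' : insert c U ∈ powersetCard (k + 1) (act col A') := by
      rw [Finset.mem_powersetCard, Finset.card_insert_of_notMem hcU, hcard U hU, eact]
      exact ⟨(set1 hm c1 c2 c3 c4 hcc).1, rfl⟩
    have o := ok_of_param hA hk2 hU
    have o' := ok_of_param hA' hk2' hU'
    have eB : insert c U ∪ fx col A' = insert c ((U ∪ fx col A).erase c') := by
      rw [efx]; exact (set1 hm c1 c2 c3 c4 hcc).2.1
    have eD : (act col A' \ insert c U) ∪ fx col A' = (act col A \ U) ∪ fx col A := by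
      rw [efx, eact]; exact (set1 hm c1 c2 c3 c4 hcc).2.2
    simp only [hΦ, hΦ']
    rw [eB] at o'
    rw [eB, eD]
    have := l2 _ c' c o.rl2 (by simp [c4]) (by simp [hcU, c3]) o'.rl2
    simpa using this
  have t2 : ∀ U ∈ powersetCard k (act col A), |Φ U - Φ' (insert c' U)| ≤ b := by
    intro U hU
    have hm := hmem U hU
    have hcU : c' ∉ U := fun h => c2 (hm c' h)
    have hU' : insert c' U ∈ powersetCard (k + 1) (act col A') := by
      rw [Finset.mem_powersetCard, Finset.card_insert_of_notMem hcU, hcard U hU, eact]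
      exact ⟨(set2 hm c1 c2 c3 c4 hcc).1, rfl⟩
    have o := ok_of_param hA hk2 hU
    have o' := ok_of_param hA' hk2' hU'
    have eB : insert c' U ∪ fx col A' = U ∪ fx col A := by
      rw [efx]; exact (set2 hm c1 c2 c3 c4 hcc).2.1
    have eD : (act col A' \ insert c' U) ∪ fx col A'
        = insert c (((act col A \ U) ∪ fx col A).erase c') := by
      rw [efx, eact]; exact (set2 hm c1 c2 c3 c4 hcc).2.2
    simp only [hΦ, hΦ']
    rw [eD] at o'
    rw [eB, eD]
    have := l3 _ c' c o.rl3 (by simp [c4]) (by simp [c1, c3]) o'.rl3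
    simpa using this
  have t3 : ∀ U ∈ powersetCard k (act col A), ∀ z ∈ act col A \ U,
      |Φ U - Φ' (insert z U)| ≤ b := by
    intro U hU z hz
    have hm := hmem U hU
    obtain ⟨hz1, hz2⟩ := Finset.mem_sdiff.1 hz
    have hz3 := hdisj hz1
    have hU' : insert z U ∈ powersetCard (k + 1) (act col A') := by
      rw [Finset.mem_powersetCard, Finset.card_insert_of_notMem hz2, hcard U hU, eact]
      exact ⟨(set3 hm c1 c2 c3 c4 hcc hz1 hz2 hz3).1, rfl⟩
    have o := ok_of_param hA hk2 hU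
    have o' := ok_of_param hA' hk2' hU'
    have eB : insert z U ∪ fx col A' = insert z ((U ∪ fx col A).erase c') := by
      rw [efx]; exact (set3 hm c1 c2 c3 c4 hcc hz1 hz2 hz3).2.1
    have eD : (act col A' \ insert z U) ∪ fx col A'
        = insert c (((act col A \ U) ∪ fx col A).erase z) := by
      rw [efx, eact]; exact (set3 hm c1 c2 c3 c4 hcc hz1 hz2 hz3).2.2
    simp only [hΦ, hΦ']
    rw [eB, eD] at o'
    rw [eB, eD]
    have hcz := mem_act.1 hz1
    have := ind_le A z
    by_cases q : col z = 1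
    · rw [s3 _ z c o.rl3 (by simp [hz1, hz2]) (by simp [c1, c3]) (by omega)]
      have := l2 _ c' z o.rl2 (by simp [c4]) (by simp [hz2, hz3]) o'.rl2
      simpa using this
    · rw [s2 _ c' z o.rl2 (by simp [c4]) (by simp [hz2, hz3]) (by omega)]
      have := l3 _ z c o.rl3 (by simp [hz1, hz2]) (by simp [c1, c3]) o'.rl3
      simpa using this
  have t4 : ∀ U ∈ powersetCard k (act col A), ∀ z ∈ U,
      |Φ U - Φ' (insert c (insert c' (U.erase z)))| ≤ b := by
    intro U hU z hz
    have hm := hmem U hU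
    have hz1 := hm z hz
    have hz3 := hdisj hz1
    have hcU : c ∉ U := fun h => c1 (hm c h)
    have hcU' : c' ∉ U := fun h => c2 (hm c' h)
    have hU' : insert c (insert c' (U.erase z)) ∈ powersetCard (k + 1) (act col A') := by
      rw [Finset.mem_powersetCard, Finset.card_insert_of_notMem (by simp [hcc, hcU]),
        Finset.card_insert_of_notMem (by simp [hcU']), Finset.card_erase_of_mem hz, hcard U hU,
        eact]
      refine ⟨(set4 hm c1 c2 c3 c4 hcc hz1 hz hz3).1, ?_⟩
      have := Finset.card_pos.2 ⟨z, hz⟩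
      rw [hcard U hU] at this
      omega
    have o := ok_of_param hA hk2 hU
    have o' := ok_of_param hA' hk2' hU'
    have eB : insert c (insert c' (U.erase z)) ∪ fx col A'
        = insert c ((U ∪ fx col A).erase z) := by
      rw [efx]; exact (set4 hm c1 c2 c3 c4 hcc hz1 hz hz3).2.1
    have eD : (act col A' \ insert c (insert c' (U.erase z))) ∪ fx col A'
        = insert z (((act col A \ U) ∪ fx col A).erase c') := by
      rw [efx, eact]; exact (set4 hm c1 c2 c3 c4 hcc hz1 hz hz3).2.2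
    simp only [hΦ, hΦ']
    rw [eB, eD] at o'
    rw [eB, eD]
    have hcz := mem_act.1 hz1
    have := ind_le A z
    by_cases q : col z = 1
    · rw [s2 _ z c o.rl2 (by simp [hz]) (by simp [hcU, c3]) (by omega)]
      have := l3 _ c' z o.rl3 (by simp [c4]) (by simp [hz, hz3]) o'.rl3
      simpa using this
    · rw [s3 _ c' z o.rl3 (by simp [c4]) (by simp [hz, hz3]) (by omega)]
      have := l2 _ z c o.rl2 (by simp [hz]) (by simp [hcU, c3]) o'.rl2
      simpa using this
  have e1 := he A hA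
  have e2 := he A' hA'
  have n1 := fib_sum hA hk2 (fun _ => 1)
  have n2 := fib_sum hA' hk2' (fun _ => 1)
  have p2 := fib_card_pos hA'
  rw [fib_sum hA hk2] at e1
  rw [fib_sum hA' hk2'] at e2
  simp only [Finset.sum_const, nsmul_eq_mul, mul_one] at n1 n2
  rw [n1] at e1
  rw [n2] at e2 p2
  change ∑ U ∈ powersetCard k (act col A), Φ U = _ at e1
  change ∑ U ∈ powersetCard (k + 1) (act col A'), Φ' U = _ at e2
  rw [eact] at e2 p2
  have u1 := couple c1 c2 hcc hk1 (fun U => Φ U - η * γ1 A) (fun U => Φ' U - η * γ1 A - b)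
    (fun U hU => by linarith [(abs_le.1 (t1 U hU)).1])
    (fun U hU => by linarith [(abs_le.1 (t2 U hU)).1])
    (fun U hU z hz => by linarith [(abs_le.1 (t3 U hU z hz)).1])
    (fun U hU z hz => by linarith [(abs_le.1 (t4 U hU z hz)).1])
    (by rw [Finset.sum_sub_distrib, e1]; simp only [Finset.sum_const, nsmul_eq_mul]; linarith)
  have u2 := couple c1 c2 hcc hk1 (fun U => η * γ1 A - Φ U) (fun U => η * γ1 A - Φ' U - b)
    (fun U hU => by linarith [(abs_le.1 (t1 U hU)).2])
    (fun U hU => by linarith [(abs_le.1 (t2 U hU)).2])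
    (fun U hU z hz => by linarith [(abs_le.1 (t3 U hU z hz)).2])
    (fun U hU z hz => by linarith [(abs_le.1 (t4 U hU z hz)).2])
    (by rw [Finset.sum_sub_distrib, e1]; simp only [Finset.sum_const, nsmul_eq_mul]; linarith)
  rw [Finset.sum_sub_distrib, Finset.sum_sub_distrib, e2] at u1 u2
  simp only [Finset.sum_const, nsmul_eq_mul] at u1 u2
  rw [← abs_of_nonneg hη, ← abs_mul, abs_le]
  constructor
  · by_contra hcon
    push Not at hcon
    nlinarith
  · by_contra hcon
    push Not at hcon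
    nlinarith

lemma stepB (he : Eqn col r1 r2 r3 η γ1 γ2 γ3) (hη : 0 ≤ η) {b : ℝ} (hb : 0 ≤ b)
    (s1 : Sym col r1 r2 r3 γ1) (s2 : Sym col r2 r1 r3 γ2) (s3 : Sym col r3 r1 r2 γ3)
    (l2 : Lip col r2 r1 r3 γ2 b) (l3 : Lip col r3 r1 r2 γ3 b) {A : Finset C} {c c' : C}
    (hA : Rl col r1 r2 r3 A) (hc : c ∈ A) (hc' : c' ∉ A)
    (hA' : Rl col r1 r2 r3 (insert c' (A.erase c))) :
    η * |γ1 A - γ1 (insert c' (A.erase c))| ≤ b := by
  by_cases h : col c = col c'
  · rw [s1 A c c' hA hc hc' h]; simpa using hb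
  have hcc : c ≠ c' := by rintro rfl; exact hc' hc
  obtain ⟨B, D, o⟩ := id hA
  obtain ⟨B', D', o'⟩ := id hA'
  have a1 := o.2.2.2 c
  have a2 := o.2.2.2 c'
  have a3 := o'.2.2.2 c
  have a4 := o'.2.2.2 c'
  rw [ind_eq_one.2 hc] at a1
  rw [ind_eq_zero.2 hc'] at a2
  rw [ind_eq_zero.2 (by simp [hcc])] at a3
  rw [ind_eq_one.2 (by simp)] at a4
  have := ind_le B c'
  have := ind_le D c'
  have := ind_le B' c
  have := ind_le D' c
  by_cases q : col c = 1
  · exact stepB_main he hη s2 s3 l2 l3 hA hc hc' hA' q (by omega)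
  · have e : insert c ((insert c' (A.erase c)).erase c') = A := set5 hc hc'
    have := stepB_main he hη s2 s3 l2 l3 (c := c') (c' := c) hA' (by simp) (by simp [hcc])
      (by rw [e]; exact hA) (by omega) (by omega)
    rwa [e, abs_sub_comm] at this

lemma Sym.swap {γ : Finset C → ℝ} (h : Sym col r1 r2 r3 γ) : Sym col r1 r3 r2 γ :=
  fun B z z' hB => h B z z' hB.swap

lemma Lip.swap {γ : Finset C → ℝ} {b : ℝ} (h : Lip col r1 r2 r3 γ b) : Lip col r1 r3 r2 γ b :=
  fun B z z' hB h1 h2 hB' => h B z z' hB.swap h1 h2 hB'.swap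

theorem three_row (hη : 1 < η) (e1 : Eqn col r1 r2 r3 η γ1 γ2 γ3)
    (e2 : Eqn col r2 r1 r3 η γ2 γ1 γ3) (e3 : Eqn col r3 r1 r2 η γ3 γ1 γ2)
    {A B D B' D' : Finset C} (o : Ok col r1 r2 r3 A B D) (o' : Ok col r1 r2 r3 A B' D') :
    γ2 B = γ2 B' ∧ γ3 D = γ3 D' := by
  have hη0 : 0 ≤ η := by linarith
  have hA : ∀ c c', col c = col c' →
      (∀ A, Rl col r1 r2 r3 A → |γ1 A - γ1 (sw c c' A)| ≤ 0) ∧
      (∀ A, Rl col r2 r1 r3 A → |γ2 A - γ2 (sw c c' A)| ≤ 0) ∧
      (∀ A, Rl col r3 r1 r2 A → |γ3 A - γ3 (sw c c' A)| ≤ 0) := by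
    intro c c' hc
    refine contract η hη _ _ _ _ _ _ fun a ha h1 h2 h3 => ⟨?_, ?_, ?_⟩
    · exact stepA e1 hη0 hc ha h2 h3
    · exact stepA e2 hη0 hc ha h1 (fun D hD => h3 D hD.swap)
    · exact stepA e3 hη0 hc ha (fun D hD => h1 D hD.swap) (fun D hD => h2 D hD.swap)
  have s1 : Sym col r1 r2 r3 γ1 := fun B z z' hB h1 h2 h3 => by
    have := (hA z z' h3).1 B hB
    rw [sw_eq_insert h1 h2, abs_nonpos_iff, sub_eq_zero] at this; exact this.symm
  have s2 : Sym col r2 r1 r3 γ2 := fun B z z' hB h1 h2 h3 => by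
    have := (hA z z' h3).2.1 B hB
    rw [sw_eq_insert h1 h2, abs_nonpos_iff, sub_eq_zero] at this; exact this.symm
  have s3 : Sym col r3 r1 r2 γ3 := fun B z z' hB h1 h2 h3 => by
    have := (hA z z' h3).2.2 B hB
    rw [sw_eq_insert h1 h2, abs_nonpos_iff, sub_eq_zero] at this; exact this.symm
  have hB := contract (ι := Finset C × C × C) η hη
    (fun p => Rl col r1 r2 r3 p.1 ∧ p.2.1 ∈ p.1 ∧ p.2.2 ∉ p.1 ∧
      Rl col r1 r2 r3 (insert p.2.2 (p.1.erase p.2.1)))
    (fun p => Rl col r2 r1 r3 p.1 ∧ p.2.1 ∈ p.1 ∧ p.2.2 ∉ p.1 ∧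
      Rl col r2 r1 r3 (insert p.2.2 (p.1.erase p.2.1)))
    (fun p => Rl col r3 r1 r2 p.1 ∧ p.2.1 ∈ p.1 ∧ p.2.2 ∉ p.1 ∧
      Rl col r3 r1 r2 (insert p.2.2 (p.1.erase p.2.1)))
    (fun p => |γ1 p.1 - γ1 (insert p.2.2 (p.1.erase p.2.1))|)
    (fun p => |γ2 p.1 - γ2 (insert p.2.2 (p.1.erase p.2.1))|)
    (fun p => |γ3 p.1 - γ3 (insert p.2.2 (p.1.erase p.2.1))|) (by
      intro b hb h1 h2 h3
      have l1 : Lip col r1 r2 r3 γ1 b := fun B z z' a1 a2 a3 a4 => h1 (B, z, z') ⟨a1, a2, a3, a4⟩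
      have l2 : Lip col r2 r1 r3 γ2 b := fun B z z' a1 a2 a3 a4 => h2 (B, z, z') ⟨a1, a2, a3, a4⟩
      have l3 : Lip col r3 r1 r2 γ3 b := fun B z z' a1 a2 a3 a4 => h3 (B, z, z') ⟨a1, a2, a3, a4⟩
      refine ⟨fun p hp => ?_, fun p hp => ?_, fun p hp => ?_⟩
      · exact stepB e1 hη0 hb s1 s2 s3 l2 l3 hp.1 hp.2.1 hp.2.2.1 hp.2.2.2
      · exact stepB e2 hη0 hb s2 s1 s3.swap l1 l3.swap hp.1 hp.2.1 hp.2.2.1 hp.2.2.2
      · exact stepB e3 hη0 hb s3 s1.swap s2.swap l1.swap l2.swap hp.1 hp.2.1 hp.2.2.1 hp.2.2.2)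
  obtain ⟨-, z2, z3⟩ := hB
  generalize hn : (B \ B').card = N
  induction N generalizing B D with
  | zero =>
    have h1 : B ⊆ B' := Finset.sdiff_eq_empty_iff_subset.1 (Finset.card_eq_zero.1 hn)
    have h2 : B = B' := Finset.eq_of_subset_of_card_le h1 (by rw [o.2.1, o'.2.1])
    subst h2
    have h3 : D = D' := by rw [o.param.2, o'.param.2]
    subst h3
    exact ⟨rfl, rfl⟩
  | succ N ih =>
    obtain ⟨z, hz⟩ : (B \ B').Nonempty := Finset.card_pos.1 (by omega)
    obtain ⟨z', hz'⟩ : (B' \ B).Nonempty := Finset.card_pos.1 (by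
      rw [Finset.card_sdiff_comm (by rw [o.2.1, o'.2.1])]; omega)
    obtain ⟨q1, q2⟩ := Finset.mem_sdiff.1 hz
    obtain ⟨q3, q4⟩ := Finset.mem_sdiff.1 hz'
    have a1 := o.2.2.2 z
    have a2 := o'.2.2.2 z
    have a3 := o.2.2.2 z'
    have a4 := o'.2.2.2 z'
    rw [ind_eq_one.2 q1] at a1
    rw [ind_eq_zero.2 q2] at a2
    rw [ind_eq_zero.2 q4] at a3
    rw [ind_eq_one.2 q3] at a4
    have q5 : z ∉ D := ind_eq_zero.1 (by have := ind_le D' z; omega)
    have q6 : z' ∈ D := ind_eq_one.1 (by have := ind_le D z'; omega)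
    have hzz : z ≠ z' := by rintro rfl; exact q4 q1
    have o1 : Ok col r1 r2 r3 A (insert z' (B.erase z)) (insert z (D.erase z')) := by
      refine ⟨o.1, ?_, ?_, fun x => ?_⟩
      · rw [Finset.card_insert_of_notMem (by simp [q4]), Finset.card_erase_of_mem q1, ← o.2.1]
        have := Finset.card_pos.2 ⟨z, q1⟩; omega
      · rw [Finset.card_insert_of_notMem (by simp [q5]), Finset.card_erase_of_mem q6, ← o.2.2.1]
        have := Finset.card_pos.2 ⟨z', q6⟩; omega
      · rw [← o.2.2.2 x]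
        by_cases h1 : x = z
        · subst h1; simp [ind, hzz, q1, q5]
        by_cases h2 : x = z'
        · subst h2; simp [ind, h1, q4, q6]
        simp [ind, h1, h2]
    have w2 := z2 (B, z, z') ⟨o.rl2, q1, q4, o1.rl2⟩
    have w3 := z3 (D, z', z) ⟨o.rl3, q6, q5, o1.rl3⟩
    simp only [abs_nonpos_iff, sub_eq_zero] at w2 w3
    have := ih o1 (by
      have : insert z' (B.erase z) \ B' = (B \ B').erase z := set6 q3
      rw [this, Finset.card_erase_of_mem hz, hn]; rfl)
    exact ⟨w2.trans this.1, w3.trans this.2⟩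

end Vale.Agent.P335
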