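import Vale.Agent.P335.Graph
import Vale.Agent.P335.ThreeRow2

/-!
The triple inequality for trades among three vertices.
-/

set_option linter.unusedSectionVars false
set_option linter.unusedVariables false

namespace Vale.Agent.P335

open Classical Finset

section abstract
variable {X C κ : Type*} [Fintype X] [Fintype C] {col : C → ℕ} {r1 r2 r3 : ℕ}

lemma eqn_of {cl : X → Prop} {R1 R2 R3 : X → Finset C} {l1 : X → κ}
    (ha : ∀ G, cl G → Ok col r1 r2 r3 (R1 G) (R2 G) (R3 G))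
    (hb : ∀ A B D, Ok col r1 r2 r3 A B D → ∃ G, cl G ∧ R1 G = A ∧ R2 G = B ∧ R3 G = D)
    (hc : ∀ G H, cl G → cl H → R1 G = R1 H → R2 G = R2 H → R3 G = R3 H → G = H)
    (hd : ∀ G H, cl G → (l1 H = l1 G ↔ cl H ∧ R1 H = R1 G))
    {g1 g2 g3 : X → ℝ} {γ1 γ2 γ3 : Finset C → ℝ} (h1 : ∀ G, cl G → γ1 (R1 G) = g1 G)
    (h2 : ∀ G, cl G → γ2 (R2 G) = g2 G) (h3 : ∀ G, cl G → γ3 (R3 G) = g3 G) {η : ℝ}
    (heq : avg l1 (g2 + g3) = η • g1) : Eqn col r1 r2 r3 η γ1 γ2 γ3 := by
  rintro A ⟨B, D, o⟩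
  obtain ⟨G, hG, rfl, rfl, rfl⟩ := hb _ _ _ o
  have hs : ∀ F : Finset C × Finset C → ℝ, ∑ H ∈ cell l1 G, F (R2 H, R3 H)
      = ∑ p ∈ fib col r1 r2 r3 (R1 G), F p := by
    intro F
    refine Finset.sum_bij (fun H _ => (R2 H, R3 H)) ?_ ?_ ?_ ?_
    · intro H hH
      obtain ⟨a1, a2⟩ := (hd G H hG).1 (mem_cell.1 hH)
      rw [mem_fib, ← a2]; exact ha H a1
    · intro H hH H' hH' e
      obtain ⟨a1, a2⟩ := (hd G H hG).1 (mem_cell.1 hH)
      obtain ⟨b1, b2⟩ := (hd G H' hG).1 (mem_cell.1 hH')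
      exact hc H H' a1 b1 (a2.trans b2.symm) (congrArg Prod.fst e) (congrArg Prod.snd e)
    · intro p hp
      obtain ⟨H, a1, a2, a3, a4⟩ := hb _ _ _ (mem_fib.1 hp)
      exact ⟨H, mem_cell.2 ((hd G H hG).2 ⟨a1, a2⟩), Prod.ext a3 a4⟩
    · intro H _; rfl
  have hN : ((cell l1 G).card : ℝ) = (fib col r1 r2 r3 (R1 G)).card := by
    simpa using hs (fun _ => 1)
  have e := congrFun heq G
  rw [avg_apply, div_eq_iff (card_cell_pos l1 G).ne'] at e
  rw [← hs, ← hN, h1 G hG, Finset.sum_congr rfl (fun H hH => by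
    rw [h2 H ((hd G H hG).1 (mem_cell.1 hH)).1, h3 H ((hd G H hG).1 (mem_cell.1 hH)).1])]
  simp only [Pi.add_apply, Pi.smul_apply, smul_eq_mul] at e
  rw [e]; ring

lemma exists_gamma {cl : X → Prop} {R : X → Finset C} {l : X → κ}
    (hd : ∀ G H, cl G → (l H = l G ↔ cl H ∧ R H = R G)) {g : X → ℝ} (hg : Inv l g) :
    ∃ γ : Finset C → ℝ, ∀ G, cl G → γ (R G) = g G := by
  refine ⟨fun A => if h : ∃ G, cl G ∧ R G = A then g h.choose else 0, fun G hG => ?_⟩
  have h : ∃ H, cl H ∧ R H = R G := ⟨G, hG, rfl⟩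
  simp only [dif_pos h]
  exact hg _ _ ((hd G _ hG).2 h.choose_spec)

theorem triple_abstract {cl : X → Prop} {R1 R2 R3 : X → Finset C} {l1 l2 l3 : X → κ}
    (ha : ∀ G, cl G → Ok col r1 r2 r3 (R1 G) (R2 G) (R3 G))
    (hb : ∀ A B D, Ok col r1 r2 r3 A B D → ∃ G, cl G ∧ R1 G = A ∧ R2 G = B ∧ R3 G = D)
    (hc : ∀ G H, cl G → cl H → R1 G = R1 H → R2 G = R2 H → R3 G = R3 H → G = H)
    (hd1 : ∀ G H, cl G → (l1 H = l1 G ↔ cl H ∧ R1 H = R1 G))
    (hd2 : ∀ G H, cl G → (l2 H = l2 G ↔ cl H ∧ R2 H = R2 G))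
    (hd3 : ∀ G H, cl G → (l3 H = l3 G ↔ cl H ∧ R3 H = R3 G))
    {f : X → ℝ} {lam : ℝ} (hl : 2 < lam) (hf : avg l1 f + avg l2 f + avg l3 f = lam • f)
    {G H : X} (hG : cl G) (hH : l1 H = l1 G) : f H = f G := by
  obtain ⟨γ1, h1⟩ := exists_gamma hd1 (avg_inv l1 f)
  obtain ⟨γ2, h2⟩ := exists_gamma hd2 (avg_inv l2 f)
  obtain ⟨γ3, h3⟩ := exists_gamma hd3 (avg_inv l3 f)
  have q1 : avg l1 (avg l2 f + avg l3 f) = (lam - 1) • avg l1 f := by
    have := congrArg (avg l1) hf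
    rw [add_assoc, map_add, avg_avg, map_smul] at this
    rw [sub_smul, one_smul, ← this]; abel
  have q2 : avg l2 (avg l1 f + avg l3 f) = (lam - 1) • avg l2 f := by
    have := congrArg (avg l2) hf
    rw [add_comm (avg l1 f), add_assoc, map_add, avg_avg, map_smul] at this
    rw [sub_smul, one_smul, ← this]; abel
  have q3 : avg l3 (avg l1 f + avg l2 f) = (lam - 1) • avg l3 f := by
    have := congrArg (avg l3) hf
    rw [map_add, avg_avg, map_smul] at this
    rw [sub_smul, one_smul, ← this]; abel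
  have e1 := eqn_of ha hb hc hd1 h1 h2 h3 q1
  have e2 := eqn_of (col := col) (r1 := r2) (r2 := r1) (r3 := r3) (fun G hG => (ha G hG).s12)
    (fun A B D o => by obtain ⟨G, a, b, c, e⟩ := hb _ _ _ o.s12; exact ⟨G, a, c, b, e⟩)
    (fun G H a b c e g => hc G H a b e c g) hd2 h2 h1 h3 q2
  have e3 := eqn_of (col := col) (r1 := r3) (r2 := r1) (r3 := r2) (fun G hG => (ha G hG).s23.s12)
    (fun A B D o => by obtain ⟨G, a, b, c, e⟩ := hb _ _ _ o.s12.s23; exact ⟨G, a, e, b, c⟩)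
    (fun G H a b c e g => hc G H a b e g c) hd3 h3 h1 h2 q3
  obtain ⟨a1, a2⟩ := (hd1 G H hG).1 hH
  have o' := ha H a1
  rw [a2] at o'
  have k := three_row (by linarith) e1 e2 e3 (ha G hG) o'
  rw [h2 G hG, h2 H a1, h3 G hG, h3 H a1] at k
  have k1 := avg_inv l1 f _ _ hH
  have b1 := congrFun hf G
  have b2 := congrFun hf H
  simp only [Pi.add_apply, Pi.smul_apply, smul_eq_mul] at b1 b2
  have : lam * f H = lam * f G := by rw [← b1, ← b2, k1, k.1, k.2]
  exact mul_left_cancel₀ (by linarith) this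

end abstract

variable {V : Type*} [Fintype V] {d : V → ℕ}

/-- agreement away from three vertices -/
def Ag3 (u v w : V) (G H : SimpleGraph V) : Prop :=
  ∀ p q, p ≠ u → p ≠ v → p ≠ w → q ≠ u → q ≠ v → q ≠ w → (G.Adj p q ↔ H.Adj p q)

/-- the row of `i`, with the complemented opposite edge stored in column `s` -/
noncomputable def row (s i j k : V) (G : SimpleGraph V) : Finset V :=
  univ.filter fun x => (x ≠ i ∧ x ≠ j ∧ x ≠ k ∧ G.Adj i x) ∨ (x = s ∧ ¬ G.Adj j k)

lemma mem_row {s i j k x : V} {G : SimpleGraph V} : x ∈ row s i j k G ↔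
    (x ≠ i ∧ x ≠ j ∧ x ≠ k ∧ G.Adj i x) ∨ (x = s ∧ ¬ G.Adj j k) := by simp [row]

lemma sum_split3 {i j k : V} (h1 : i ≠ j) (h2 : i ≠ k) (h3 : j ≠ k) (F : V → ℕ) :
    ∑ x, F x = F i + F j + F k + ∑ x, if x ≠ i ∧ x ≠ j ∧ x ≠ k then F x else 0 := by
  rw [← Finset.sum_filter, ← Finset.add_sum_erase _ _ (mem_univ i),
    ← Finset.add_sum_erase (univ.erase i) _ (Finset.mem_erase.2 ⟨h1.symm, mem_univ j⟩),
    ← Finset.add_sum_erase ((univ.erase i).erase j) _
      (Finset.mem_erase.2 ⟨h3.symm, Finset.mem_erase.2 ⟨h2.symm, mem_univ k⟩⟩)]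
  have : ((univ.erase i).erase j).erase k = univ.filter fun x => x ≠ i ∧ x ≠ j ∧ x ≠ k := by
    ext x; simp; tauto
  rw [this]; ring

lemma card_eq_sum_ind (A : Finset V) : A.card = ∑ x, ind A x := by
  simp [ind]

lemma ind_row_out {s i j k x : V} (hs : s = i ∨ s = j ∨ s = k) (G : SimpleGraph V)
    (h : x ≠ i ∧ x ≠ j ∧ x ≠ k) : ind (row s i j k G) x = adj G i x := by
  have : x ≠ s := by rintro rfl; tauto
  simp [ind, adj, mem_row, h, this]

lemma ind_row_in {s i j k x : V} (G : SimpleGraph V) (h : x = i ∨ x = j ∨ x = k) :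
    ind (row s i j k G) x + (if x = s then adj G j k else 0) = if x = s then 1 else 0 := by
  have : ¬ (x ≠ i ∧ x ≠ j ∧ x ≠ k ∧ G.Adj i x) := by tauto
  by_cases h1 : x = s <;> by_cases h2 : G.Adj j k <;> simp only [ind, adj, mem_row, this] <;>
    simp [h1, h2]

lemma card_row {s i j k : V} (hs : s = i ∨ s = j ∨ s = k) (h1 : i ≠ j) (h2 : i ≠ k) (h3 : j ≠ k)
    (G : SimpleGraph V) :
    (row s i j k G).card + (adj G i j + adj G i k + adj G j k) = ∑ x, adj G i x + 1 := by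
  rw [card_eq_sum_ind, sum_split3 h1 h2 h3, sum_split3 h1 h2 h3 (adj G i), adj_self]
  have e : ∑ x, (if x ≠ i ∧ x ≠ j ∧ x ≠ k then ind (row s i j k G) x else 0)
      = ∑ x, if x ≠ i ∧ x ≠ j ∧ x ≠ k then adj G i x else 0 :=
    Finset.sum_congr rfl fun x _ => by
      split_ifs with h
      · exact ind_row_out hs G h
      · rfl
  have a1 := ind_row_in (s := s) G (Or.inl (rfl : i = i) : i = i ∨ i = j ∨ i = k)
  have a2 := ind_row_in (s := s) G (Or.inr (Or.inl rfl) : j = i ∨ j = j ∨ j = k)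
  have a3 := ind_row_in (s := s) G (Or.inr (Or.inr rfl) : k = i ∨ k = j ∨ k = k)
  rw [e]
  rcases hs with rfl | rfl | rfl
  · simp only [if_true, if_neg h1.symm, if_neg h2.symm] at a1 a2 a3; omega
  · simp only [if_true, if_neg h1, if_neg h3.symm] at a1 a2 a3; omega
  · simp only [if_true, if_neg h2, if_neg h3] at a1 a2 a3; omega

lemma c3_eq {u v w : V} (h1 : u ≠ v) (h2 : u ≠ w) (h3 : v ≠ w) {G H : SimpleGraph V}
    (h : Ag3 u v w G H) {x : V} (hx : x ≠ u ∧ x ≠ v ∧ x ≠ w) :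
    ∑ y, adj G x y + (adj H u x + adj H v x + adj H w x)
      = ∑ y, adj H x y + (adj G u x + adj G v x + adj G w x) := by
  rw [sum_split3 h1 h2 h3 (adj G x), sum_split3 h1 h2 h3 (adj H x)]
  have e : ∑ y, (if y ≠ u ∧ y ≠ v ∧ y ≠ w then adj G x y else 0)
      = ∑ y, if y ≠ u ∧ y ≠ v ∧ y ≠ w then adj H x y else 0 :=
    Finset.sum_congr rfl fun y _ => by
      split_ifs with hy
      · exact adj_eq_iff.2 (h x y hx.1 hx.2.1 hx.2.2 hy.1 hy.2.1 hy.2.2)
      · rfl
  rw [e, adj_comm G x u, adj_comm G x v, adj_comm G x w, adj_comm H x u, adj_comm H x v,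
    adj_comm H x w]
  ring

lemma e3_eq {u v w : V} (h1 : u ≠ v) (h2 : u ≠ w) (h3 : v ≠ w) {G H : Om d}
    (h : Ag3 u v w G.1 H.1) :
    adj G.1 u v + adj G.1 u w + adj G.1 v w = adj H.1 u v + adj H.1 u w + adj H.1 v w := by
  have key : ∀ G : Om d, d u + d v + d w = 2 * (adj G.1 u v + adj G.1 u w + adj G.1 v w)
      + ∑ x, if x ≠ u ∧ x ≠ v ∧ x ≠ w then adj G.1 u x + adj G.1 v x + adj G.1 w x else 0 := by
    intro G
    rw [← G.deg u, ← G.deg v, ← G.deg w, ← Finset.sum_add_distrib, ← Finset.sum_add_distrib,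
      sum_split3 h1 h2 h3]
    simp only [adj_self, adj_comm G.1 v u, adj_comm G.1 w u, adj_comm G.1 w v]
    ring
  have e : ∑ x, (if x ≠ u ∧ x ≠ v ∧ x ≠ w then adj G.1 u x + adj G.1 v x + adj G.1 w x else 0)
      = ∑ x, if x ≠ u ∧ x ≠ v ∧ x ≠ w then adj H.1 u x + adj H.1 v x + adj H.1 w x else 0 :=
    Finset.sum_congr rfl fun x _ => by
      split_ifs with hx
      · have := c3_eq h1 h2 h3 h hx
        rw [G.deg, H.deg] at this; omega
      · rfl
  have a := key G
  have b := key H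
  omega

lemma colsum_in {u v w x : V} (G : SimpleGraph V) (h : x = u ∨ x = v ∨ x = w) :
    ind (row u u v w G) x + ind (row u v u w G) x + ind (row u w u v G) x
      + (if x = u then adj G u v + adj G u w + adj G v w else 0) = if x = u then 3 else 0 := by
  have a1 := ind_row_in (s := u) (i := u) (j := v) (k := w) G h
  have a2 := ind_row_in (s := u) (i := v) (j := u) (k := w) G (x := x) (by tauto)
  have a3 := ind_row_in (s := u) (i := w) (j := u) (k := v) G (x := x) (by tauto)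
  split_ifs at * <;> omega

lemma colsum_out {u v w x : V} (G : SimpleGraph V) (h : x ≠ u ∧ x ≠ v ∧ x ≠ w) :
    ind (row u u v w G) x + ind (row u v u w G) x + ind (row u w u v G) x
      = adj G u x + adj G v x + adj G w x := by
  rw [ind_row_out (by tauto) G h, ind_row_out (by tauto) G (by tauto),
    ind_row_out (by tauto) G (by tauto)]

/-- the graph with prescribed rows -/
def build (u v w : V) (G : SimpleGraph V) (A B D : Finset V) : SimpleGraph V :=
  SimpleGraph.fromRel fun p q =>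
    (p ≠ u ∧ p ≠ v ∧ p ≠ w ∧ q ≠ u ∧ q ≠ v ∧ q ≠ w ∧ G.Adj p q) ∨
    ((q ≠ u ∧ q ≠ v ∧ q ≠ w) ∧ ((p = u ∧ q ∈ A) ∨ (p = v ∧ q ∈ B) ∨ (p = w ∧ q ∈ D))) ∨
    (p = v ∧ q = w ∧ u ∉ A) ∨ (p = u ∧ q = w ∧ u ∉ B) ∨ (p = u ∧ q = v ∧ u ∉ D)

lemma build_ag {u v w : V} (G : SimpleGraph V) (A B D : Finset V) :
    Ag3 u v w (build u v w G A B D) G := by
  intro p q a1 a2 a3 a4 a5 a6
  simp only [build, SimpleGraph.fromRel_adj]
  have := G.adj_comm p q
  have : G.Adj p q → p ≠ q := G.ne_of_adj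
  grind

lemma build_rows {u v w : V} (h1 : u ≠ v) (h2 : u ≠ w) (h3 : v ≠ w) (G : SimpleGraph V)
    {A B D : Finset V} (hA : v ∉ A ∧ w ∉ A) (hB : v ∉ B ∧ w ∉ B) (hD : v ∉ D ∧ w ∉ D) :
    row u u v w (build u v w G A B D) = A ∧ row u v u w (build u v w G A B D) = B ∧
      row u w u v (build u v w G A B D) = D := by
  have g1 := h1.symm
  have g2 := h2.symm
  have g3 := h3.symm
  obtain ⟨a1, a2⟩ := hA
  obtain ⟨b1, b2⟩ := hB
  obtain ⟨c1, c2⟩ := hD
  refine ⟨?_, ?_, ?_⟩ <;> ext x <;> simp only [mem_row, build, SimpleGraph.fromRel_adj] <;>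
    (by_cases x1 : x = u
     · simp [*]
     by_cases x2 : x = v
     · simp [*]
     by_cases x3 : x = w
     · simp [*]
     have x4 := Ne.symm x1
     have x5 := Ne.symm x2
     have x6 := Ne.symm x3
     simp [*])

lemma rows_inj {u v w : V} (h1 : u ≠ v) (h2 : u ≠ w) (h3 : v ≠ w) {G H : SimpleGraph V}
    (h : Ag3 u v w G H) (e1 : row u u v w G = row u u v w H) (e2 : row u v u w G = row u v u w H)
    (e3 : row u w u v G = row u w u v H) : G = H := by
  have a1 := fun x => (Finset.ext_iff.1 e1 x)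
  have a2 := fun x => (Finset.ext_iff.1 e2 x)
  have a3 := fun x => (Finset.ext_iff.1 e3 x)
  simp only [mem_row] at a1 a2 a3
  have b1 : G.Adj v w ↔ H.Adj v w := by have := a1 u; grind
  have b2 : G.Adj u w ↔ H.Adj u w := by have := a2 u; grind
  have b3 : G.Adj u v ↔ H.Adj u v := by have := a3 u; grind
  have c1 : ∀ x, G.Adj u x ↔ H.Adj u x := by
    intro x; have := a1 x; have := G.irrefl (v := u); have := H.irrefl (v := u); grind
  have c2 : ∀ x, G.Adj v x ↔ H.Adj v x := by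
    intro x; have := a2 x; have := G.irrefl (v := v); have := H.irrefl (v := v)
    have := G.adj_comm u v; have := H.adj_comm u v; grind
  have c3 : ∀ x, G.Adj w x ↔ H.Adj w x := by
    intro x; have := a3 x; have := G.irrefl (v := w); have := H.irrefl (v := w)
    have := G.adj_comm u w; have := H.adj_comm u w
    have := G.adj_comm v w; have := H.adj_comm v w; grind
  ext p q
  by_cases p1 : p = u
  · rw [p1]; exact c1 q
  by_cases p2 : p = v
  · rw [p2]; exact c2 q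
  by_cases p3 : p = w
  · rw [p3]; exact c3 q
  by_cases q1 : q = u
  · rw [q1, G.adj_comm, H.adj_comm]; exact c1 p
  by_cases q2 : q = v
  · rw [q2, G.adj_comm, H.adj_comm]; exact c2 p
  by_cases q3 : q = w
  · rw [q3, G.adj_comm, H.adj_comm]; exact c3 p
  exact h p q p1 p2 p3 q1 q2 q3

lemma off_iff_row {s i j k : V} (h1 : i ≠ j) (h2 : i ≠ k) (h3 : j ≠ k)
    (hs : s = i ∨ s = j ∨ s = k) (G H : Om d) :
    off j k H = off j k G ↔ Ag3 i j k H.1 G.1 ∧ row s i j k H.1 = row s i j k G.1 := by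
  constructor
  · intro h
    have e := adj_eq_iff.1 (uv_eq h3 h)
    rw [off_iff] at h
    refine ⟨fun p q _ a2 a3 _ a5 a6 => h p q a2 a3 a5 a6, ?_⟩
    ext x; simp only [mem_row]
    have := h i x h1 h2
    grind
  · rintro ⟨a, b⟩
    rw [off_iff]
    have c : ∀ x, x ≠ j → x ≠ k → (H.1.Adj i x ↔ G.1.Adj i x) := by
      intro x x1 x2
      have := Finset.ext_iff.1 b x
      simp only [mem_row] at this
      have := G.1.irrefl (v := i); have := H.1.irrefl (v := i)
      grind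
    intro p q a1 a2 a3 a4
    by_cases hp : p = i
    · rw [hp]; exact c q a3 a4
    by_cases hq : q = i
    · rw [hq, H.1.adj_comm, G.1.adj_comm]; exact c p a1 a2
    exact a p q hp a1 a2 hq a3 a4

lemma Ag3.trans {u v w : V} {G H K : SimpleGraph V} (a : Ag3 u v w G H) (b : Ag3 u v w H K) :
    Ag3 u v w G K := fun p q a1 a2 a3 a4 a5 a6 =>
  (a p q a1 a2 a3 a4 a5 a6).trans (b p q a1 a2 a3 a4 a5 a6)

lemma Ag3.symm {u v w : V} {G H : SimpleGraph V} (a : Ag3 u v w G H) :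
    Ag3 u v w H G := fun p q a1 a2 a3 a4 a5 a6 => (a p q a1 a2 a3 a4 a5 a6).symm

lemma Ag3.p12 {u v w : V} {G H : SimpleGraph V} (a : Ag3 u v w G H) :
    Ag3 v u w G H := fun p q a1 a2 a3 a4 a5 a6 => a p q a2 a1 a3 a5 a4 a6

lemma Ag3.p23 {u v w : V} {G H : SimpleGraph V} (a : Ag3 u v w G H) :
    Ag3 u w v G H := fun p q a1 a2 a3 a4 a5 a6 => a p q a1 a3 a2 a4 a6 a5

variable [Fintype (Om d)]

lemma triple_inv {u v w : V} (h1 : u ≠ v) (h2 : u ≠ w) (h3 : v ≠ w) {f : Om d → ℝ} {lam : ℝ}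
    (hl : 2 < lam) (hf : avg (off v w) f + avg (off u w) f + avg (off u v) f = lam • f) :
    Inv (off v w) f := by
  intro H G0 hH
  let cl : Om d → Prop := fun G => Ag3 u v w G.1 G0.1
  let col : V → ℕ := fun x =>
    ind (row u u v w G0.1) x + ind (row u v u w G0.1) x + ind (row u w u v G0.1) x
  refine triple_abstract (cl := cl) (R1 := fun G => row u u v w G.1)
    (R2 := fun G => row u v u w G.1) (R3 := fun G => row u w u v G.1) (col := col)
    (r1 := (row u u v w G0.1).card) (r2 := (row u v u w G0.1).card)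
    (r3 := (row u w u v G0.1).card) ?_ ?_ ?_ ?_ ?_ ?_ hl hf (fun _ _ _ _ _ _ _ _ => Iff.rfl) hH
  · intro G hG
    have e := e3_eq h1 h2 h3 hG
    have a1 := card_row (s := u) (by tauto) h1 h2 h3 G.1
    have a2 := card_row (s := u) (by tauto) h1.symm h3 h2 G.1
    have a3 := card_row (s := u) (by tauto) h2.symm h3.symm h1 G.1
    have b1 := card_row (s := u) (by tauto) h1 h2 h3 G0.1
    have b2 := card_row (s := u) (by tauto) h1.symm h3 h2 G0.1
    have b3 := card_row (s := u) (by tauto) h2.symm h3.symm h1 G0.1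
    simp only [Om.deg, adj_comm _ v u, adj_comm _ w u, adj_comm _ w v] at a1 a2 a3 b1 b2 b3
    refine ⟨by omega, by omega, by omega, fun x => ?_⟩
    simp only [col]
    by_cases hx : x = u ∨ x = v ∨ x = w
    · have c1 := colsum_in G.1 hx
      have c2 := colsum_in G0.1 hx
      rw [e] at c1; omega
    · push Not at hx
      have := c3_eq h1 h2 h3 hG hx
      rw [G.deg, G0.deg] at this
      rw [colsum_out _ hx, colsum_out _ hx]; omega
  · intro A B D o
    have z1 := o.2.2.2 v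
    have z2 := o.2.2.2 w
    have y1 := colsum_in (u := u) (v := v) (w := w) (x := v) G0.1 (by tauto)
    have y2 := colsum_in (u := u) (v := v) (w := w) (x := w) G0.1 (by tauto)
    simp only [if_neg h1.symm, if_neg h2.symm] at y1 y2
    simp only [col] at z1 z2
    obtain ⟨r1, r2, r3⟩ := build_rows h1 h2 h3 G0.1 (A := A) (B := B) (D := D)
      ⟨ind_eq_zero.1 (by omega), ind_eq_zero.1 (by omega)⟩
      ⟨ind_eq_zero.1 (by omega), ind_eq_zero.1 (by omega)⟩
      ⟨ind_eq_zero.1 (by omega), ind_eq_zero.1 (by omega)⟩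
    set K := build u v w G0.1 A B D with hK
    have hag : Ag3 u v w K G0.1 := build_ag _ _ _ _
    have x1 := colsum_in (u := u) (v := v) (w := w) (x := u) K (by tauto)
    have x2 := colsum_in (u := u) (v := v) (w := w) (x := u) G0.1 (by tauto)
    have x3 := o.2.2.2 u
    simp only [if_true, r1, r2, r3] at x1 x2
    simp only [col] at x3
    have a1 := card_row (s := u) (by tauto) h1 h2 h3 K
    have a2 := card_row (s := u) (by tauto) h1.symm h3 h2 K
    have a3 := card_row (s := u) (by tauto) h2.symm h3.symm h1 K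
    have b1 := card_row (s := u) (by tauto) h1 h2 h3 G0.1
    have b2 := card_row (s := u) (by tauto) h1.symm h3 h2 G0.1
    have b3 := card_row (s := u) (by tauto) h2.symm h3.symm h1 G0.1
    simp only [Om.deg, adj_comm _ v u, adj_comm _ w u, adj_comm _ w v, r1, r2, r3, o.1, o.2.1,
      o.2.2.1] at a1 a2 a3 b1 b2 b3
    refine ⟨⟨K, fun i => ?_⟩, hag, r1, r2, r3⟩
    rw [ncard_eq_sum]
    by_cases hi : i = u ∨ i = v ∨ i = w
    · rcases hi with rfl | rfl | rfl <;> omega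
    · push Not at hi
      have c := c3_eq h1 h2 h3 hag hi
      have c1 := colsum_out K hi
      have c2 := colsum_out G0.1 hi
      have c3 := o.2.2.2 i
      rw [r1, r2, r3] at c1
      simp only [col] at c3
      rw [G0.deg] at c
      omega
  · intro G H a b e1 e2 e3
    exact Subtype.ext (rows_inj h1 h2 h3 (Ag3.trans a (Ag3.symm b)) e1 e2 e3)
  · intro G H a
    rw [off_iff_row (s := u) h1 h2 h3 (by tauto)]
    exact and_congr_left fun _ => ⟨fun b => b.trans a, fun b => Ag3.trans b (Ag3.symm a)⟩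
  · intro G H a
    rw [off_iff_row (s := u) h1.symm h3 h2 (by tauto)]
    exact and_congr_left fun _ => ⟨fun b => b.p12.trans a, fun b => (Ag3.trans b (Ag3.symm a)).p12⟩
  · intro G H a
    rw [off_iff_row (s := u) h2.symm h3.symm h1 (by tauto)]
    exact and_congr_left fun _ =>
      ⟨fun b => b.p12.p23.trans a, fun b => (Ag3.trans b (Ag3.symm a)).p23.p12⟩

lemma QQ_symm (u v : V) (f g : Om d → ℝ) : ip (QQ u v f) g = ip f (QQ u v g) := by
  rw [QQ_apply, QQ_apply, ip_sub_left, ip_sub_right, ip_avg_symm]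

lemma QQ_QQ (u v : V) (f : Om d → ℝ) : QQ u v (QQ u v f) = QQ u v f := by
  rw [QQ_apply u v (QQ u v f), QQ_apply, map_sub, avg_avg, sub_self, sub_zero]

lemma ip_QQ (u v : V) (f : Om d → ℝ) : ip f (QQ u v f) = ip (QQ u v f) (QQ u v f) := by
  rw [QQ_symm, QQ_QQ]

lemma QQ_comm (u v : V) : (QQ u v : (Om d → ℝ) →ₗ[ℝ] _) = QQ v u := by
  unfold QQ; rw [off_comm]

theorem triple_ineq {u v w : V} (h1 : u ≠ v) (h2 : u ≠ w) (h3 : v ≠ w) (f : Om d → ℝ) :
    0 ≤ ip (QQ u v f) (QQ u w f) + ip (QQ v w f) (QQ v u f) + ip (QQ w u f) (QQ w v f) := by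
  have key := sq_ge_of_eigen (QQ v w + QQ u w + QQ u v) (fun f g => by
    simp only [LinearMap.add_apply, ip_add_left, ip_add_right, QQ_symm]) (by
    intro μ g hg hμ
    have e : avg (off v w) g + avg (off u w) g + avg (off u v) g = (3 - μ) • g := by
      simp only [LinearMap.add_apply, QQ_apply] at hg
      rw [sub_smul, ← hg, show (3 : ℝ) = 1 + 1 + 1 by norm_num, add_smul, add_smul, one_smul]
      abel
    have i1 := triple_inv h1 h2 h3 (by linarith) e
    have i2 := triple_inv h1.symm h3 h2 (lam := 3 - μ) (f := g) (by linarith) (by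
      rw [← e, off_comm v u]; abel)
    have i3 := triple_inv h2.symm h3.symm h1 (lam := 3 - μ) (f := g) (by linarith) (by
      rw [← e, off_comm w u, off_comm w v]; abel)
    simp only [LinearMap.add_apply, QQ_apply, avg_of_inv i1, avg_of_inv i2, avg_of_inv i3, sub_self,
      add_zero]) f
  simp only [LinearMap.add_apply, ip_add_left, ip_add_right, ip_QQ] at key
  rw [QQ_comm v u, QQ_comm w u, QQ_comm w v]
  rw [ip_comm (QQ u w f) (QQ u v f), ip_comm (QQ u v f) (QQ v w f),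
    ip_comm (QQ v w f) (QQ u w f)] at key
  linarith

end Vale.Agent.P335
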